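import Mathlib

/-! P143: internal objects (spanning forests of finite edge sets, the noisy channel). -/

namespace Vale.Agent.P143

open MeasureTheory Filter Topology Set

noncomputable section

open Classical

variable {V : Type*}

/-- `T` is a maximal spanning forest of the finite edge set `A`. -/
def IsSF (A T : Finset (Sym2 V)) : Prop :=
  T ⊆ A ∧ (SimpleGraph.fromEdgeSet (T : Set (Sym2 V))).IsAcyclic ∧
    ∀ u v, (SimpleGraph.fromEdgeSet (A : Set (Sym2 V))).Reachable u v →
      (SimpleGraph.fromEdgeSet (T : Set (Sym2 V))).Reachable u v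

/-- The finite set of maximal spanning forests of the finite edge set `A`. -/
def SF (A : Finset (Sym2 V)) : Finset (Finset (Sym2 V)) := A.powerset.filter (IsSF A)

/-- weight of a forest in the log-conductances `h` -/
def wt (h : Sym2 V → ℝ) (T : Finset (Sym2 V)) : ℝ := ∏ f ∈ T, Real.exp (h f)

/-- probability that `e` belongs to the random spanning forest of `A` with log-conductances `h` -/
def pr (A : Finset (Sym2 V)) (h : Sym2 V → ℝ) (e : Sym2 V) : ℝ :=
  (∑ T ∈ (SF A).filter (fun T => e ∈ T), wt h T) / ∑ T ∈ SF A, wt h T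

/-- squared increment of a function along an unordered pair -/
def sqd (v : V → ℝ) : Sym2 V → ℝ := Sym2.lift ⟨fun x y => (v x - v y) ^ 2, fun x y => by ring⟩

@[simp] lemma sqd_mk (v : V → ℝ) (x y : V) : sqd v s(x, y) = (v x - v y) ^ 2 := rfl

/-- sign of a bit -/
def sgn (b : Bool) : ℝ := if b then 1 else -1

/-- the law of one noisy observation with bias `a ∈ [-1,1]`: density `(1 + a y / 4)/2` on `[-1,1]` -/
def nu (a : ℝ) : Measure ℝ :=
  (volume.restrict (Icc (-1 : ℝ) 1)).withDensity (fun y => ENNReal.ofReal ((1 + a * y / 4) / 2))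

/-- field increment of an observation -/
def eta (y : ℝ) : ℝ := Real.log ((1 + y / 4) / (1 - y / 4))

/-- conditional mean of the sign of item `i`, given the observations `y j` of the items `j` with
smaller label, when `ω` has prior weight `w ω` and item `j` has the sign `sgn (s ω j)`. -/
def post {ι Ω : Type*} [Fintype ι] [Fintype Ω] (τ : ι → ℝ) (w : Ω → ℝ) (s : Ω → ι → Bool)
    (y : ι → ℝ) (i : ι) : ℝ :=
  (∑ ω, w ω * sgn (s ω i) * ∏ j ∈ Finset.univ.filter (fun j => τ j < τ i),
      (1 + sgn (s ω j) * y j / 4)) /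
    ∑ ω, w ω * ∏ j ∈ Finset.univ.filter (fun j => τ j < τ i), (1 + sgn (s ω j) * y j / 4)

end

end Vale.Agent.P143
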