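import Mathlib

/-! P143: uniform spanning trees, the free uniform spanning forest, factors of IID. -/

namespace Vale.Agent.P143

open MeasureTheory Filter Topology
open scoped ENNReal

/-- `T` is the edge set of a spanning tree of the subgraph `H`. -/
def IsSpanningTree {V : Type*} {G : SimpleGraph V} (H : G.Subgraph) (T : Set (Sym2 V)) : Prop :=
  ∃ T' : G.Subgraph, T' ≤ H ∧ T'.verts = H.verts ∧ T'.coe.IsTree ∧ T'.edgeSet = T

/-- The uniform spanning tree of `H`, viewed as a random element of `{0,1}^{E(G)}`:
the uniform measure on the configurations which are spanning trees of `H`. -/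
noncomputable def UST {V : Type*} {G : SimpleGraph V} (H : G.Subgraph) :
    Measure (G.edgeSet → Bool) :=
  ProbabilityTheory.uniformOn
    {x | IsSpanningTree H {e | ∃ he : e ∈ G.edgeSet, x ⟨e, he⟩ = true}}

/-- An exhaustion of `G`: an increasing sequence of finite connected subgraphs with union `G`. -/
structure IsExhaustion {V : Type*} (G : SimpleGraph V) (H : ℕ → G.Subgraph) : Prop where
  mono : Monotone H
  finite : ∀ n, (H n).verts.Finite
  connected : ∀ n, (H n).Connected
  union : ⨆ n, H n = ⊤

/-- `μ` is the free uniform spanning forest of `G`: a probability measure on `{0,1}^{E(G)}` which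
is the weak limit of the uniform spanning trees along every exhaustion of `G` (and there is at
least one exhaustion). -/
def IsFUSF {V : Type*} (G : SimpleGraph V) (μ : Measure (G.edgeSet → Bool)) : Prop :=
  IsProbabilityMeasure μ ∧ (∃ H, IsExhaustion G H) ∧
    ∀ H : ℕ → G.Subgraph, IsExhaustion G H →
      ∀ f : BoundedContinuousFunction (G.edgeSet → Bool) ℝ,
        Tendsto (fun n => ∫ x, f x ∂(UST (H n))) atTop (𝓝 (∫ x, f x ∂μ))

/-- The law of an i.i.d. family of uniform `[0,1]` random variables indexed by `V`. -/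
noncomputable def iidUniform (V : Type*) : Measure (V → unitInterval) :=
  Measure.infinitePi (fun _ : V => (volume : Measure unitInterval))

/-- `μ`, a law on `{0,1}^{E(G)}` for the Cayley graph `G` of `(Γ, S)`, is a `Γ`-factor of IID.
Here `(γ U) v = U (γ⁻¹ v)` and `(γ x) (γ e) = x e`. -/
def IsGroupFactorOfIID {Γ : Type*} [Group Γ] (S : Set Γ)
    (μ : Measure ((SimpleGraph.mulCayley S).edgeSet → Bool)) : Prop :=
  ∃ Φ : (Γ → unitInterval) → ((SimpleGraph.mulCayley S).edgeSet → Bool),
    Measurable Φ ∧
    (∀ (γ : Γ) (U : Γ → unitInterval) (e e' : (SimpleGraph.mulCayley S).edgeSet),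
      (e' : Sym2 Γ) = Sym2.map (fun v => γ * v) (e : Sym2 Γ) →
        Φ (fun v => U (γ⁻¹ * v)) e' = Φ U e) ∧
    (iidUniform Γ).map Φ = μ

/-- A unimodular random graph, given as a probability measure on rooted graphs `(G, o)` with
vertex set `ℕ`, almost surely connected and locally finite, which satisfies the mass-transport
principle for all nonnegative measurable isomorphism-invariant functions of graphs with two
distinguished vertices. -/
structure IsUnimodular (ρ : Measure (SimpleGraph ℕ × ℕ)) : Prop where
  prob : IsProbabilityMeasure ρ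
  graph : ∀ᵐ p ∂ρ, p.1.Connected ∧ ∀ v, (p.1.neighborSet v).Finite
  mtp : ∀ f : SimpleGraph ℕ → ℕ → ℕ → ℝ≥0∞,
    (∀ x y, Measurable (fun G => f G x y)) →
    (∀ (σ : Equiv.Perm ℕ) (G : SimpleGraph ℕ) (x y : ℕ),
      f (G.map σ.toEmbedding) (σ x) (σ y) = f G x y) →
    ∫⁻ p, ∑' v, f p.1 p.2 v ∂ρ = ∫⁻ p, ∑' v, f p.1 v p.2 ∂ρ

/-- The free uniform spanning forest is a graph factor of IID on the random rooted graph with
law `ρ`: there is one measurable `Φ G U e`, which depends only on the isomorphism class of the
vertex-labelled graph `(G, U)` with the distinguished edge `e`, such that for almost every `G`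
the set `{e : Φ G U e = 1}`, for `U` i.i.d. uniform, has the law of the free uniform spanning
forest of `G`. -/
def FUSFIsGraphFactorOfIID (ρ : Measure (SimpleGraph ℕ × ℕ)) : Prop :=
  ∃ Φ : SimpleGraph ℕ → (ℕ → unitInterval) → Sym2 ℕ → Bool,
    (∀ e, Measurable (fun p : SimpleGraph ℕ × (ℕ → unitInterval) => Φ p.1 p.2 e)) ∧
    (∀ (σ : Equiv.Perm ℕ) (G : SimpleGraph ℕ) (U : ℕ → unitInterval) (e : Sym2 ℕ),
      Φ (G.map σ.toEmbedding) (fun v => U (σ.symm v)) (Sym2.map σ e) = Φ G U e) ∧
    ∀ᵐ p ∂ρ, IsFUSF p.1 ((iidUniform ℕ).map (fun U (e : p.1.edgeSet) => Φ p.1 U e))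

end Vale.Agent.P143
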