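import Mathlib
import Vale.Agent.P143.Defs

/-! P143: basic facts on Cayley graphs. -/

namespace Vale.Agent.P143

open Set SimpleGraph

variable {Γ : Type*} [Group Γ] (S : Set Γ)

lemma mulCayley_adj_left (γ u v : Γ) :
    (mulCayley S).Adj (γ * u) (γ * v) ↔ (mulCayley S).Adj u v := by
  rw [mulCayley_adj, mulCayley_adj]
  have h1 : (γ * u)⁻¹ * (γ * v) = u⁻¹ * v := by group
  have h2 : (γ * v)⁻¹ * (γ * u) = v⁻¹ * u := by group
  rw [h1, h2]
  simp

lemma mulCayley_map (γ : Γ) :
    (mulCayley S).map (Equiv.mulLeft γ).toEmbedding = mulCayley S := by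
  ext u v
  obtain ⟨u, rfl⟩ := (Equiv.mulLeft γ).surjective u
  obtain ⟨v, rfl⟩ := (Equiv.mulLeft γ).surjective v
  have h1 : ((mulCayley S).map (Equiv.mulLeft γ).toEmbedding).Adj
      (Equiv.mulLeft γ u) (Equiv.mulLeft γ v) ↔ (mulCayley S).Adj u v :=
    SimpleGraph.map_adj_apply (f := (Equiv.mulLeft γ).toEmbedding)
  rw [h1]
  exact (mulCayley_adj_left S γ u v).symm

lemma mulCayley_reachable {S : Set Γ} (g : Γ) (hg : g ∈ Subgroup.closure S) :
    ∀ a : Γ, (mulCayley S).Reachable a (a * g) := by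
  refine Subgroup.closure_induction (p := fun g _ => ∀ a : Γ, (mulCayley S).Reachable a (a * g))
    ?_ ?_ ?_ ?_ hg
  · intro s hs a
    by_cases h : a = a * s
    · rw [← h]
    · refine SimpleGraph.Adj.reachable ?_
      rw [mulCayley_adj]
      refine ⟨h, Or.inl ?_⟩
      rwa [inv_mul_cancel_left]
  · intro a
    rw [mul_one]
  · intro x y _ _ hx hy a
    rw [← mul_assoc]
    exact (hx a).trans (hy (a * x))
  · intro x _ hx a
    have := hx (a * x⁻¹)
    rw [inv_mul_cancel_right] at this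
    exact this.symm

lemma mulCayley_connected {S : Set Γ} (hS : Subgroup.closure S = ⊤) : (mulCayley S).Connected := by
  have : Nonempty Γ := ⟨1⟩
  refine ⟨fun a b => ?_⟩
  have := mulCayley_reachable (S := S) (a⁻¹ * b) (by rw [hS]; exact Subgroup.mem_top _) a
  rwa [mul_inv_cancel_left] at this

lemma mulCayley_neighborSet_finite {S : Set Γ} (hS : S.Finite) (v : Γ) :
    ((mulCayley S).neighborSet v).Finite := by
  refine ((hS.image (fun s => v * s)).union (hS.image (fun s => v * s⁻¹))).subset ?_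
  intro w hw
  rw [SimpleGraph.mem_neighborSet, mulCayley_adj] at hw
  rcases hw.2 with h | h
  · left
    exact ⟨_, h, by simp⟩
  · right
    exact ⟨_, h, by simp⟩

lemma countable_of_closure {S : Set Γ} (hS : S.Finite) (hS2 : Subgroup.closure S = ⊤) :
    Countable Γ := by
  have hfg : Group.FG Γ := ⟨⟨hS.toFinset, by rw [Set.Finite.coe_toFinset]; exact hS2⟩⟩
  obtain ⟨α, hα, φ, hφ⟩ := Group.fg_iff_exists_freeGroup_hom_surjective_finite.1 hfg
  exact hφ.countable

end Vale.Agent.P143
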