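import Vale.Agent.P143.Basic

/-! P143: the noisy channel and the decoder. -/

namespace Vale.Agent.P143

open MeasureTheory Filter Topology Set

noncomputable section

/-- the distribution function of `nu a` -/
def chF (a y : ℝ) : ℝ := (y + 1) / 2 + (a / 16) * (y ^ 2 - 1)

lemma dens_nonneg {a y : ℝ} (ha : a ∈ Icc (-1 : ℝ) 1) (hy : y ∈ Icc (-1 : ℝ) 1) :
    0 ≤ (1 + a * y / 4) / 2 := by
  have h1 : |a * y| ≤ 1 := by
    rw [abs_mul]
    exact mul_le_one₀ (abs_le.2 ha) (abs_nonneg _) (abs_le.2 hy)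
  have h2 := (abs_le.1 h1).1
  linarith

lemma integral_dens (a y : ℝ) :
    ∫ t in (-1 : ℝ)..y, (1 + a * t / 4) / 2 = chF a y := by
  have h : ∀ t ∈ uIcc (-1 : ℝ) y, HasDerivAt (chF a) ((1 + a * t / 4) / 2) t := by
    intro t _
    have h1 : HasDerivAt (fun y : ℝ => (y + 1) / 2 + (a / 16) * (y ^ 2 - 1))
        ((1 : ℝ) / 2 + (a / 16) * ((2 : ℕ) * t ^ (2 - 1) * 1)) t := by
      refine HasDerivAt.add ?_ ?_
      · exact ((hasDerivAt_id t).add_const 1).div_const 2
      · exact (((hasDerivAt_id t).pow 2).sub_const 1).const_mul (a / 16)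
    have h2 : ((1 : ℝ) / 2 + (a / 16) * ((2 : ℕ) * t ^ (2 - 1) * 1)) = (1 + a * t / 4) / 2 := by
      norm_num
      ring
    rw [h2] at h1
    exact h1
  rw [intervalIntegral.integral_eq_sub_of_hasDerivAt h
    (Continuous.intervalIntegrable (by fun_prop) _ _)]
  simp only [chF]
  ring

lemma nu_Iic {a y : ℝ} (ha : a ∈ Icc (-1 : ℝ) 1) (hy : y ∈ Icc (-1 : ℝ) 1) :
    nu a (Iic y) = ENNReal.ofReal (chF a y) := by
  rw [nu, withDensity_apply _ measurableSet_Iic, Measure.restrict_restrict measurableSet_Iic]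
  have h1 : Iic y ∩ Icc (-1 : ℝ) 1 = Icc (-1) y := by
    ext t
    simp only [mem_inter_iff, mem_Iic, mem_Icc]
    constructor
    · rintro ⟨h, h', _⟩; exact ⟨h', h⟩
    · rintro ⟨h, h'⟩; exact ⟨h', h, h'.trans hy.2⟩
  rw [h1, ← ofReal_integral_eq_lintegral_ofReal]
  · rw [integral_Icc_eq_integral_Ioc, ← intervalIntegral.integral_of_le hy.1, integral_dens]
  · exact (Continuous.integrableOn_Icc (by fun_prop))
  · rw [EventuallyLE, ae_restrict_iff' measurableSet_Icc]
    exact Eventually.of_forall fun t ht => dens_nonneg ha ⟨ht.1, ht.2.trans hy.2⟩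

lemma nu_compl (a : ℝ) : nu a (Icc (-1 : ℝ) 1)ᶜ = 0 := by
  rw [nu, withDensity_apply _ measurableSet_Icc.compl,
    Measure.restrict_restrict measurableSet_Icc.compl]
  simp

lemma nu_univ {a : ℝ} (ha : a ∈ Icc (-1 : ℝ) 1) : nu a univ = 1 := by
  have h1 : nu a (Iic 1) = 1 := by
    rw [nu_Iic ha (by norm_num), chF]; norm_num
  apply le_antisymm
  · calc nu a univ ≤ nu a (Iic 1) + nu a (Icc (-1 : ℝ) 1)ᶜ := by
          refine (measure_mono ?_).trans (measure_union_le _ _)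
          intro t _
          by_cases ht : t ≤ 1
          · exact Or.inl ht
          · exact Or.inr fun h => ht h.2
      _ = 1 := by rw [h1, nu_compl, add_zero]
  · rw [← h1]; exact measure_mono (subset_univ _)

lemma nu_prob' {a : ℝ} (ha : a ∈ Icc (-1 : ℝ) 1) : IsProbabilityMeasure (nu a) := ⟨nu_univ ha⟩

lemma sgn_mem (b : Bool) : sgn b ∈ Icc (-1 : ℝ) 1 := by
  unfold sgn; split <;> norm_num

instance nu_prob (b : Bool) : IsProbabilityMeasure (nu (sgn b)) := nu_prob' (sgn_mem b)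

/-! ### The channel -/

/-- discriminant -/
def chD (ξ a : ℝ) : ℝ := 1 / 4 - (a / 4) * (1 / 2 - a / 16 - ξ)

/-- quantile function of `nu a` -/
def chQ (ξ a : ℝ) : ℝ := (2 * ξ + a / 8 - 1) / (1 / 2 + Real.sqrt (chD ξ a))

lemma chD_ge {ξ a : ℝ} (hξ : ξ ∈ Icc (0 : ℝ) 1) (ha : a ∈ Icc (-1 : ℝ) 1) :
    (3 / 8) ^ 2 ≤ chD ξ a := by
  have h : chD ξ a = (1 - ξ) * (1 / 2 - a / 8) ^ 2 + ξ * (1 / 2 + a / 8) ^ 2 := by
    simp only [chD]; ring
  rw [h]
  have h1 : (3 / 8 : ℝ) ^ 2 ≤ (1 / 2 - a / 8) ^ 2 := by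
    apply pow_le_pow_left₀ (by norm_num); linarith [ha.2]
  have h2 : (3 / 8 : ℝ) ^ 2 ≤ (1 / 2 + a / 8) ^ 2 := by
    apply pow_le_pow_left₀ (by norm_num); linarith [ha.1]
  nlinarith [hξ.1, hξ.2]

lemma sqrt_ge {ξ a : ℝ} (hξ : ξ ∈ Icc (0 : ℝ) 1) (ha : a ∈ Icc (-1 : ℝ) 1) :
    3 / 8 ≤ Real.sqrt (chD ξ a) := by
  apply Real.le_sqrt_of_sq_le
  exact chD_ge hξ ha

lemma chF_chQ {ξ a : ℝ} (hξ : ξ ∈ Icc (0 : ℝ) 1) (ha : a ∈ Icc (-1 : ℝ) 1) :
    chF a (chQ ξ a) = ξ := by
  have h1 := sqrt_ge hξ ha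
  have h2 : Real.sqrt (chD ξ a) ^ 2 = chD ξ a :=
    Real.sq_sqrt ((by positivity : (0:ℝ) ≤ (3/8)^2).trans (chD_ge hξ ha))
  set r := Real.sqrt (chD ξ a) with hr
  have h3 : (1 / 2 + r) ≠ 0 := by positivity
  simp only [chF, chQ, ← hr]
  rw [chD] at h2
  field_simp
  linear_combination (-ξ * 2 + 1 - a / 8) * 4096 * h2

lemma chQ_mem {ξ a : ℝ} (hξ : ξ ∈ Icc (0 : ℝ) 1) (ha : a ∈ Icc (-1 : ℝ) 1) :
    chQ ξ a ∈ Icc (-1 : ℝ) 1 := by
  have h1 := sqrt_ge hξ ha
  have h0 : 0 < 1 / 2 + Real.sqrt (chD ξ a) := by linarith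
  have hF := chF_chQ hξ ha
  have hu : chQ ξ a ≤ 9 / 7 := by
    rw [chQ, div_le_iff₀ h0]
    linarith [hξ.2, ha.2]
  have hl : -(9 / 7) ≤ chQ ξ a := by
    rw [chQ, le_div_iff₀ h0]
    linarith [hξ.1, ha.1]
  set q := chQ ξ a
  simp only [chF] at hF
  constructor
  · by_contra hc
    push Not at hc
    have h2 : (q + 1) * (1 / 2 + (a / 16) * (q - 1)) = ξ := by rw [← hF]; ring
    have h3 : 0 < 1 / 2 + (a / 16) * (q - 1) := by nlinarith [ha.1, ha.2]
    nlinarith [hξ.1]
  · by_contra hc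
    push Not at hc
    have h2 : (q - 1) * (1 / 2 + (a / 16) * (q + 1)) = ξ - 1 := by rw [← hF]; ring
    have h3 : 0 < 1 / 2 + (a / 16) * (q + 1) := by nlinarith [ha.1, ha.2]
    nlinarith [hξ.2]

lemma chF_sub (a y y' : ℝ) :
    chF a y - chF a y' = (y - y') * (1 / 2 + (a / 16) * (y + y')) := by
  simp only [chF]; ring

lemma slope_ge {a y y' : ℝ} (ha : a ∈ Icc (-1 : ℝ) 1) (hy : y ∈ Icc (-1 : ℝ) 1)
    (hy' : y' ∈ Icc (-1 : ℝ) 1) : 3 / 8 ≤ 1 / 2 + (a / 16) * (y + y') := by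
  have h : |a * (y + y')| ≤ 1 * 2 := by
    rw [abs_mul]
    apply mul_le_mul (abs_le.2 ha) _ (abs_nonneg _) zero_le_one
    rw [abs_le]; constructor <;> linarith [hy.1, hy.2, hy'.1, hy'.2]
  have := (abs_le.1 h).1
  linarith

lemma chF_le_iff {a y y' : ℝ} (ha : a ∈ Icc (-1 : ℝ) 1) (hy : y ∈ Icc (-1 : ℝ) 1)
    (hy' : y' ∈ Icc (-1 : ℝ) 1) : chF a y ≤ chF a y' ↔ y ≤ y' := by
  have h1 := chF_sub a y y'
  have h2 := slope_ge ha hy hy'
  constructor
  · intro h
    by_contra hc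
    push Not at hc
    nlinarith
  · intro h
    nlinarith

lemma chQ_lip {ξ a a' : ℝ} (hξ : ξ ∈ Icc (0 : ℝ) 1) (ha : a ∈ Icc (-1 : ℝ) 1)
    (ha' : a' ∈ Icc (-1 : ℝ) 1) : |chQ ξ a - chQ ξ a'| ≤ (1 / 6) * |a - a'| := by
  have h1 := chF_chQ hξ ha
  have h2 := chF_chQ hξ ha'
  have hq := chQ_mem hξ ha
  have hq' := chQ_mem hξ ha'
  have h3 := slope_ge ha hq hq'
  set q := chQ ξ a
  set q' := chQ ξ a'
  have h4 : (q - q') * (1 / 2 + (a / 16) * (q + q')) = (a - a') * ((1 - q' ^ 2) / 16) := by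
    simp only [chF] at h1 h2
    linear_combination h1 - h2
  have h5 : |q - q'| * (1 / 2 + (a / 16) * (q + q')) = |a - a'| * ((1 - q' ^ 2) / 16) := by
    have h6 : 0 ≤ (1 - q' ^ 2) / 16 := by nlinarith [hq'.1, hq'.2]
    rw [← abs_of_nonneg (by linarith : 0 ≤ 1 / 2 + (a / 16) * (q + q')), ← abs_mul, h4, abs_mul,
      abs_of_nonneg h6]
  have h6 : |a - a'| * ((1 - q' ^ 2) / 16) ≤ |a - a'| * (1 / 16) := by
    gcongr
    nlinarith [sq_nonneg q']
  have h7 : |q - q'| * (3 / 8) ≤ |q - q'| * (1 / 2 + (a / 16) * (q + q')) := by gcongr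
  linarith

/-- clamp to `[-1,1]` -/
def clamp (a : ℝ) : ℝ := max (-1) (min 1 a)

lemma clamp_mem (a : ℝ) : clamp a ∈ Icc (-1 : ℝ) 1 := by
  refine ⟨le_max_left _ _, max_le (by norm_num) (min_le_left _ _)⟩

lemma clamp_of_mem {a : ℝ} (ha : a ∈ Icc (-1 : ℝ) 1) : clamp a = a := by
  rw [clamp, min_eq_right ha.2, max_eq_right ha.1]

lemma clamp_lip (a a' : ℝ) : |clamp a - clamp a'| ≤ |a - a'| := by
  unfold clamp
  refine (abs_max_sub_max_le_max (-1) (min 1 a) (-1) (min 1 a')).trans ?_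
  rw [sub_self, abs_zero, max_eq_right (abs_nonneg _)]
  refine (abs_min_sub_min_le_max 1 a 1 a').trans ?_
  rw [sub_self, abs_zero, max_eq_right (abs_nonneg _)]

lemma clamp_cont : Continuous clamp := by unfold clamp; fun_prop

theorem exists_channel : ∃ Q : unitInterval → ℝ → ℝ, Measurable (Function.uncurry Q) ∧
    (∀ ξ a, Q ξ a ∈ Icc (-1 : ℝ) 1) ∧ (∀ ξ a a', |Q ξ a - Q ξ a'| ≤ (1 / 6) * |a - a'|) ∧
    (∀ a ∈ Icc (-1 : ℝ) 1, (volume : Measure unitInterval).map (fun ξ => Q ξ a) = nu a) := by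
  refine ⟨fun ξ a => chQ ξ (clamp a), ?_, ?_, ?_, ?_⟩
  · apply Continuous.measurable
    have h1 : Continuous fun p : unitInterval × ℝ => clamp p.2 := clamp_cont.comp continuous_snd
    have h2 : Continuous fun p : unitInterval × ℝ => Real.sqrt (chD p.1 (clamp p.2)) := by
      unfold chD; fun_prop
    show Continuous fun p : unitInterval × ℝ => chQ p.1 (clamp p.2)
    unfold chQ
    refine Continuous.div (by fun_prop) (by fun_prop) ?_
    intro p
    have := Real.sqrt_nonneg (chD p.1 (clamp p.2))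
    positivity
  · intro ξ a
    exact chQ_mem ξ.2 (clamp_mem a)
  · intro ξ a a'
    exact (chQ_lip ξ.2 (clamp_mem a) (clamp_mem a')).trans
      (mul_le_mul_of_nonneg_left (clamp_lip a a') (by norm_num))
  · intro a ha
    have hcont : Continuous fun ξ : unitInterval => chQ ξ (clamp a) := by
      unfold chQ
      refine Continuous.div (by fun_prop) (by unfold chD; fun_prop) ?_
      intro p
      have := Real.sqrt_nonneg (chD p (clamp a))
      positivity
    have hm := hcont.measurable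
    have : IsProbabilityMeasure ((volume : Measure unitInterval).map fun ξ : unitInterval => chQ ξ (clamp a)) :=
      Measure.isProbabilityMeasure_map hm.aemeasurable
    have := nu_prob' ha
    apply Measure.ext_of_Iic
    intro y
    rw [Measure.map_apply hm measurableSet_Iic, clamp_of_mem ha]
    rcases lt_or_ge y (-1) with hy | hy
    · have h1 : (fun ξ : unitInterval => chQ ξ a) ⁻¹' Iic y = ∅ := by
        ext ξ
        simp only [mem_preimage, mem_Iic, mem_empty_iff_false, iff_false, not_le]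
        exact hy.trans_le (chQ_mem ξ.2 ha).1
      rw [h1, measure_empty]
      symm
      apply measure_mono_null _ (nu_compl a)
      intro t ht h
      exact absurd (h.1.trans ht) (not_le.2 hy)
    rcases le_or_gt 1 y with hy' | hy'
    · have h1 : (fun ξ : unitInterval => chQ ξ a) ⁻¹' Iic y = univ := by
        ext ξ
        simp only [mem_preimage, mem_Iic, mem_univ, iff_true]
        exact (chQ_mem ξ.2 ha).2.trans hy'
      rw [h1, measure_univ]
      symm
      rw [← prob_compl_eq_zero_iff measurableSet_Iic]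
      apply measure_mono_null _ (nu_compl a)
      intro t ht h
      exact ht (h.2.trans hy')
    · have hyI : y ∈ Icc (-1 : ℝ) 1 := ⟨hy, hy'.le⟩
      have hF1 : 0 ≤ chF a y := by
        have := (chF_le_iff ha (by norm_num : (-1:ℝ) ∈ Icc (-1:ℝ) 1) hyI).2 hy
        refine le_trans (le_of_eq ?_) this
        simp [chF]
      have hF2 : chF a y ≤ 1 := by
        have := (chF_le_iff ha hyI (by norm_num : (1:ℝ) ∈ Icc (-1:ℝ) 1)).2 hy'.le
        refine this.trans (le_of_eq ?_)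
        norm_num [chF]
      have h1 : (fun ξ : unitInterval => chQ ξ a) ⁻¹' Iic y =
          Iic (⟨chF a y, hF1, hF2⟩ : unitInterval) := by
        ext ξ
        simp only [mem_preimage, mem_Iic]
        rw [← chF_le_iff ha (chQ_mem ξ.2 ha) hyI, chF_chQ ξ.2 ha]
        exact Iff.rfl
      rw [h1, nu_Iic ha hyI, unitInterval.volume_Iic]

theorem eta_lip {x y : ℝ} (hx : x ∈ Icc (-1 : ℝ) 1) (hy : y ∈ Icc (-1 : ℝ) 1) :
    |eta x - eta y| ≤ (8 / 15) * |x - y| := by
  have hd : ∀ t ∈ Icc (-1 : ℝ) 1, HasDerivWithinAt eta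
      ((1 / 4) / (1 + t / 4) + (1 / 4) / (1 - t / 4)) (Icc (-1 : ℝ) 1) t := by
    intro t ht
    have h1 : 0 < 1 + t / 4 := by linarith [ht.1]
    have h2 : 0 < 1 - t / 4 := by linarith [ht.2]
    have h3 : HasDerivAt (fun t : ℝ => Real.log (1 + t / 4) - Real.log (1 - t / 4))
        ((1 / 4) / (1 + t / 4) - (-(1 / 4)) / (1 - t / 4)) t := by
      refine HasDerivAt.sub ?_ ?_
      · exact (((hasDerivAt_id t).div_const 4).const_add 1).log h1.ne'
      · exact (((hasDerivAt_id t).div_const 4).const_sub 1).log h2.ne'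
    have h4 : ((1 / 4) / (1 + t / 4) - (-(1 / 4)) / (1 - t / 4)) =
        (1 / 4) / (1 + t / 4) + (1 / 4) / (1 - t / 4) := by ring
    rw [h4] at h3
    refine h3.hasDerivWithinAt.congr ?_ ?_
    · intro s hs
      rw [eta, Real.log_div (by linarith [hs.1]) (by linarith [hs.2])]
    · rw [eta, Real.log_div (by linarith [ht.1]) (by linarith [ht.2])]
  have hb : ∀ t ∈ Icc (-1 : ℝ) 1, ‖(1 / 4) / (1 + t / 4) + (1 / 4) / (1 - t / 4)‖ ≤ 8 / 15 := by
    intro t ht
    have h1 : 0 < 1 + t / 4 := by linarith [ht.1]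
    have h2 : 0 < 1 - t / 4 := by linarith [ht.2]
    rw [Real.norm_of_nonneg (by positivity), div_add_div _ _ h1.ne' h2.ne',
      div_le_div_iff₀ (by positivity) (by norm_num)]
    nlinarith [ht.1, ht.2]
  have := Convex.norm_image_sub_le_of_norm_hasDerivWithin_le hd hb (convex_Icc (-1 : ℝ) 1) hy hx
  simpa [Real.norm_eq_abs] using this

lemma nu_mean {a : ℝ} (ha : a ∈ Icc (-1 : ℝ) 1) : ∫ y, y ∂(nu a) = a / 12 := by
  rw [nu, integral_withDensity_eq_integral_toReal_smul₀]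
  rotate_left
  · fun_prop
  · exact Eventually.of_forall fun _ => ENNReal.ofReal_lt_top
  have h1 : ∫ y in Icc (-1 : ℝ) 1, (ENNReal.ofReal ((1 + a * y / 4) / 2)).toReal • y =
      ∫ y in Icc (-1 : ℝ) 1, (1 + a * y / 4) / 2 * y := by
    apply setIntegral_congr_fun measurableSet_Icc
    intro y hy
    simp only [smul_eq_mul]
    rw [ENNReal.toReal_ofReal (dens_nonneg ha hy)]
  rw [h1, integral_Icc_eq_integral_Ioc, ← intervalIntegral.integral_of_le (by norm_num)]
  have h : ∀ t ∈ uIcc (-1 : ℝ) 1, HasDerivAt (fun t : ℝ => t ^ 2 / 4 + a * t ^ 3 / 24)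
      ((1 + a * t / 4) / 2 * t) t := by
    intro t _
    have h1 : HasDerivAt (fun t : ℝ => t ^ 2 / 4 + a * t ^ 3 / 24)
        (((2 : ℕ) * t ^ (2 - 1) * 1) / 4 + (a * ((3 : ℕ) * t ^ (3 - 1) * 1)) / 24) t := by
      refine HasDerivAt.add ?_ ?_
      · exact ((hasDerivAt_id t).pow 2).div_const 4
      · exact (((hasDerivAt_id t).pow 3).const_mul a).div_const 24
    have h2 : (((2 : ℕ) * t ^ (2 - 1) * 1) / 4 + (a * ((3 : ℕ) * t ^ (3 - 1) * 1)) / 24) =
        (1 + a * t / 4) / 2 * t := by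
      norm_num
      ring
    rw [h2] at h1
    exact h1
  rw [intervalIntegral.integral_eq_sub_of_hasDerivAt h
    (Continuous.intervalIntegrable (by fun_prop) _ _)]
  ring

lemma nu_integrable {a : ℝ} (ha : a ∈ Icc (-1 : ℝ) 1) : Integrable (fun y : ℝ => y) (nu a) := by
  have := nu_prob' ha
  apply Integrable.of_bound (C := 1) (by fun_prop)
  rw [ae_iff]
  apply measure_mono_null _ (nu_compl a)
  intro t ht h
  apply ht
  rw [Real.norm_eq_abs, abs_le]
  exact h

theorem exists_decoder : ∃ D : (ℕ → ℝ) → Bool, Measurable D ∧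
    ∀ b : Bool, ∀ᵐ y ∂(Measure.infinitePi fun _ : ℕ => nu (sgn b)), D y = b := by
  classical
  let A : Set (ℕ → ℝ) := {y | Tendsto (fun n : ℕ => (∑ i ∈ Finset.range n, y i) / n) atTop
    (𝓝 (1 / 12))}
  have hA : MeasurableSet A := by
    apply measurableSet_tendsto
    intro n
    fun_prop
  refine ⟨fun y => decide (y ∈ A), ?_, ?_⟩
  · apply measurable_to_bool
    have : (fun y => decide (y ∈ A)) ⁻¹' {true} = A := by ext y; simp
    rw [this]; exact hA
  · intro b
    have hslln := ProbabilityTheory.strong_law_ae_real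
      (μ := Measure.infinitePi fun _ : ℕ => nu (sgn b)) (fun (i : ℕ) (y : ℕ → ℝ) => y i)
      (by
        have h1 := measurePreserving_eval_infinitePi (fun _ : ℕ => nu (sgn b)) 0
        exact h1.integrable_comp_of_integrable (nu_integrable (sgn_mem b)))
      (by
        intro i j hij
        exact (ProbabilityTheory.iIndepFun_infinitePi (P := fun _ : ℕ => nu (sgn b))
          (X := fun _ ω => ω) (by fun_prop)).indepFun hij)
      (by
        intro i
        refine ⟨(measurable_pi_apply i).aemeasurable, (measurable_pi_apply 0).aemeasurable, ?_⟩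
        change Measure.map (Function.eval i : (ℕ → ℝ) → ℝ) _ =
          Measure.map (Function.eval 0 : (ℕ → ℝ) → ℝ) _
        rw [(measurePreserving_eval_infinitePi (fun _ : ℕ => nu (sgn b)) i).map_eq,
          (measurePreserving_eval_infinitePi (fun _ : ℕ => nu (sgn b)) 0).map_eq])
    have hmean : ∫ y : ℕ → ℝ, y 0 ∂(Measure.infinitePi fun _ : ℕ => nu (sgn b)) = sgn b / 12 := by
      have h1 := measurePreserving_eval_infinitePi (fun _ : ℕ => nu (sgn b)) 0
      have h2 : ∫ y, y ∂(Measure.map (Function.eval 0 : (ℕ → ℝ) → ℝ)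
          (Measure.infinitePi fun _ : ℕ => nu (sgn b))) = sgn b / 12 := by
        rw [h1.map_eq]; exact nu_mean (sgn_mem b)
      rw [← h2]
      symm
      exact integral_map (φ := (Function.eval 0 : (ℕ → ℝ) → ℝ)) (f := fun y => y)
        (measurable_pi_apply 0).aemeasurable measurable_id.aestronglyMeasurable
    filter_upwards [hslln] with y hy
    rw [hmean] at hy
    cases b with
    | true =>
      simp only [decide_eq_true_eq]
      simpa [sgn, A] using hy
    | false =>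
      simp only [decide_eq_false_iff_not]
      intro h
      have h2 := tendsto_nhds_unique hy h
      norm_num [sgn] at h2

end

end Vale.Agent.P143
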