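import Vale.Agent.P143.Defs

/-! P143: equivariant i.i.d. edge variables from i.i.d. vertex variables. -/

namespace Vale.Agent.P143

open MeasureTheory Filter Topology Set

noncomputable section

open Classical

namespace Noise

abbrev I : Set ℝ := unitInterval

instance iidUniform_prob (V : Type*) : IsProbabilityMeasure (iidUniform V) := by
  unfold iidUniform; infer_instance

/-- restricting an i.i.d. family to two disjoint (injectively indexed) sub-families -/
lemma sum_law (α β : Type*) :
    ((iidUniform α).prod (iidUniform β)).map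
      (fun p : (α → I) × (β → I) => (Sum.elim p.1 p.2 : α ⊕ β → I)) = iidUniform (α ⊕ β) := by
  have hm : Measurable (fun p : (α → I) × (β → I) => (Sum.elim p.1 p.2 : α ⊕ β → I)) := by
    rw [measurable_pi_iff]
    rintro (a | b)
    · simp only [Sum.elim_inl]; fun_prop
    · simp only [Sum.elim_inr]; fun_prop
  unfold iidUniform
  refine Measure.eq_infinitePi _ ?_
  intro s t ht
  rw [Measure.map_apply hm (.pi s.countable_toSet fun _ _ => ht _)]
  have h1 : (fun p : (α → I) × (β → I) => (Sum.elim p.1 p.2 : α ⊕ β → I)) ⁻¹'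
      ((s : Set (α ⊕ β)).pi t) =
      ((s.toLeft : Set α).pi (fun a => t (Sum.inl a))) ×ˢ
        ((s.toRight : Set β).pi (fun b => t (Sum.inr b))) := by
    ext ⟨x, y⟩
    simp only [Set.mem_preimage, Set.mem_pi, Set.mem_prod, Finset.mem_coe, Finset.mem_toLeft,
      Finset.mem_toRight]
    constructor
    · intro h
      exact ⟨fun a ha => h (Sum.inl a) ha, fun b hb => h (Sum.inr b) hb⟩
    · rintro ⟨h1, h2⟩ (a | b) hi
      · exact h1 a hi
      · exact h2 b hi
  rw [h1, Measure.prod_prod, Measure.infinitePi_pi _ (fun i _ => ht _),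
    Measure.infinitePi_pi _ (fun i _ => ht _)]
  conv_rhs => rw [← Finset.toLeft_disjSum_toRight (u := s)]
  rw [Finset.prod_disjSum]

lemma split_law {α β ι : Type*} (f : α → ι) (g : β → ι)
    (h : Function.Injective (Sum.elim f g)) :
    (iidUniform ι).map (fun ω => ((fun a => ω (f a) : α → I), (fun b => ω (g b) : β → I))) =
      (iidUniform α).prod (iidUniform β) := by
  have h1 : (iidUniform ι).map (fun ω i => ω (Sum.elim f g i)) = iidUniform (α ⊕ β) :=
    Measure.map_infinitePi_infinitePi_of_inj (P := fun _ : ι => (volume : Measure I)) h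
  have hm : Measurable (fun p : (α → I) × (β → I) => (Sum.elim p.1 p.2 : α ⊕ β → I)) := by
    rw [measurable_pi_iff]
    rintro (a | b)
    · simp only [Sum.elim_inl]; fun_prop
    · simp only [Sum.elim_inr]; fun_prop
  have hm2 : Measurable (fun ω : α ⊕ β → I =>
      ((fun a => ω (Sum.inl a) : α → I), (fun b => ω (Sum.inr b) : β → I))) := by
    fun_prop
  have h2 := congrArg (Measure.map (fun ω : α ⊕ β → I =>
      ((fun a => ω (Sum.inl a) : α → I), (fun b => ω (Sum.inr b) : β → I)))) (sum_law α β)
  rw [Measure.map_map hm2 hm] at h2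
  have h3 : ((fun ω : α ⊕ β → I =>
      ((fun a => ω (Sum.inl a) : α → I), (fun b => ω (Sum.inr b) : β → I))) ∘
      fun p : (α → I) × (β → I) => (Sum.elim p.1 p.2 : α ⊕ β → I)) = id := by
    funext p; rfl
  rw [h3, Measure.map_id, ← h1, Measure.map_map hm2 (by fun_prop)] at h2
  rw [h2]
  rfl

/-- a.s. injectivity of a countable i.i.d. family -/
lemma ae_injective (V : Type*) [Countable V] : ∀ᵐ L ∂(iidUniform V), Function.Injective L := by
  have h : ∀ u v : V, ∀ᵐ L ∂(iidUniform V), L u = L v → u = v := by
    intro u v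
    by_cases huv : u = v
    · exact Eventually.of_forall fun _ _ => huv
    · have h1 := Measure.infinitePi_map_eval_prod (P := fun _ : V => (volume : Measure I)) huv
      have hd : MeasurableSet {p : I × I | p.1 = p.2} :=
        measurableSet_eq_fun measurable_fst measurable_snd
      have h2 : (volume.prod volume : Measure (I × I)) {p : I × I | p.1 = p.2} = 0 := by
        rw [Measure.measure_prod_null hd]
        refine Eventually.of_forall fun x => ?_
        have : (Prod.mk x ⁻¹' {p : I × I | p.1 = p.2}) = {x} := by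
          ext y
          simp only [Set.mem_preimage, Set.mem_ofPred_eq, Set.mem_singleton_iff]
          exact eq_comm
        simp only [this]
        simp
      rw [← h1, Measure.map_apply (by fun_prop) hd] at h2
      have h3 : ∀ᵐ L ∂(iidUniform V), ¬ (L u = L v) := by
        rw [ae_iff]
        simp only [not_not]
        exact h2
      filter_upwards [h3] with L hL h4
      exact absurd h4 hL
  have h' : ∀ᵐ L ∂(iidUniform V), ∀ u v : V, L u = L v → u = v :=
    ae_all_iff.mpr fun u => ae_all_iff.mpr fun v => h u v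
  filter_upwards [h'] with L hL u v huv
  exact hL u v huv

variable {V : Type*}

/-- rank of the neighbour `v` of `u`, in the order of the labels -/
def rk (G : SimpleGraph V) (L : V → I) (u v : V) : ℕ := Set.ncard {w | G.Adj u w ∧ L w < L v}

/-- edge variable number `k` -/
def pick (G : SimpleGraph V) (L : V → I) (Z : V × ℕ → I) (k : ℕ) (u v : V) : I :=
  if L u < L v then Z (u, Nat.pair (rk G L u v) k) else
    if L v < L u then Z (v, Nat.pair (rk G L v u) k) else 0

lemma pick_comm (G : SimpleGraph V) (L : V → I) (Z : V × ℕ → I) (k : ℕ) (u v : V) :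
    pick G L Z k u v = pick G L Z k v u := by
  unfold pick
  rcases lt_trichotomy (L u) (L v) with h | h | h
  · simp [h, h.not_gt]
  · simp [h]
  · simp [h, h.not_gt]

def Nh (G : SimpleGraph V) (L : V → I) (Z : V × ℕ → I) (k : ℕ) : Sym2 V → I :=
  Sym2.lift ⟨fun u v => pick G L Z k u v, fun u v => pick_comm G L Z k u v⟩

@[simp] lemma Nh_mk (G : SimpleGraph V) (L : V → I) (Z : V × ℕ → I) (k : ℕ) (u v : V) :
    Nh G L Z k s(u, v) = pick G L Z k u v := rfl

/-- splitting a uniform variable into countably many, at every vertex -/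
lemma spread_law {V : Type*} {s : I → ℕ → I} (hs : Measurable s)
    (hs2 : (volume : Measure I).map s = iidUniform ℕ) :
    (iidUniform V).map (fun U (p : V × ℕ) => s (U p.1) p.2) = iidUniform (V × ℕ) := by
  have h1 := Measure.infinitePi_map_pi (μ := fun _ : V => (volume : Measure I))
    (f := fun _ => s) (fun _ => hs)
  simp only [hs2] at h1
  have h2 := Measure.infinitePi_map_curry_symm (ι := V) (κ := ℕ)
    (fun _ _ => (volume : Measure I))
  have h3 : (Measure.infinitePi fun _ : V => Measure.infinitePi fun _ : ℕ =>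
      (volume : Measure I)) = (iidUniform V).map (fun x i => s (x i)) := h1.symm
  rw [h3, Measure.map_map (MeasurableEquiv.measurable _) (by fun_prop)] at h2
  exact h2

lemma rk_lt {V : Type*} {G : SimpleGraph V} (hG : ∀ v, (G.neighborSet v).Finite) {L : V → I}
    {u v w : V} (huv : G.Adj u v) (h : L v < L w) : rk G L u v < rk G L u w := by
  refine Set.ncard_lt_ncard ?_ ?_
  · rw [Set.ssubset_iff_of_subset]
    · exact ⟨v, ⟨huv, h⟩, fun h' => lt_irrefl _ h'.2⟩
    · intro x hx
      exact ⟨hx.1, hx.2.trans h⟩
  · exact (hG u).subset fun x hx => hx.1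

lemma rk_inj {V : Type*} {G : SimpleGraph V} (hG : ∀ v, (G.neighborSet v).Finite) {L : V → I}
    (hL : Function.Injective L) {u v w : V} (huv : G.Adj u v) (huw : G.Adj u w)
    (h : rk G L u v = rk G L u w) : v = w := by
  rcases lt_trichotomy (L v) (L w) with h1 | h1 | h1
  · exact absurd h (rk_lt hG huv h1).ne
  · exact hL h1
  · exact absurd h (rk_lt hG huw h1).ne'

lemma exists_idx {G : SimpleGraph V} (hG : ∀ v, (G.neighborSet v).Finite) {L : V → I}
    (hL : Function.Injective L) :
    ∃ φ : G.edgeSet × ℕ → V × ℕ, Function.Injective φ ∧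
      ∀ Z p, Nh G L Z p.2 (p.1 : Sym2 V) = Z (φ p) := by
  have h1 : ∀ p : G.edgeSet × ℕ, ∃ q : V × V, (p.1 : Sym2 V) = s(q.1, q.2) ∧ L q.1 < L q.2 := by
    rintro ⟨⟨e, he⟩, k⟩
    induction e using Sym2.ind with
    | _ x y =>
      have hxy : x ≠ y := by
        rintro rfl
        exact G.loopless.irrefl x he
      rcases lt_trichotomy (L x) (L y) with h | h | h
      · exact ⟨(x, y), rfl, h⟩
      · exact absurd (hL h) hxy
      · exact ⟨(y, x), Sym2.eq_swap, h⟩
  choose q hq1 hq2 using h1
  refine ⟨fun p => ((q p).1, Nat.pair (rk G L (q p).1 (q p).2) p.2), ?_, ?_⟩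
  · intro p p' h
    rw [Prod.mk.injEq, Nat.pair_eq_pair] at h
    obtain ⟨h2, h3, h4⟩ := h
    have ha : G.Adj (q p).1 (q p).2 := by
      have := p.1.2
      rw [hq1 p] at this
      exact this
    have ha' : G.Adj (q p').1 (q p').2 := by
      have := p'.1.2
      rw [hq1 p'] at this
      exact this
    rw [h2] at ha h3
    have h5 := rk_inj hG hL ha ha' h3
    have h6 : (p.1 : Sym2 V) = p'.1 := by
      rw [hq1 p, hq1 p', h2, h5]
    exact Prod.ext (Subtype.ext h6) h4
  · intro Z p
    rw [hq1 p, Nh_mk, pick, if_pos (hq2 p)]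

lemma measurable_Nh {V : Type*} [Countable V] (k : ℕ) (e : Sym2 V) :
    Measurable (fun p : SimpleGraph V × ((V → I) × (V × ℕ → I)) =>
      Nh p.1 p.2.1 p.2.2 k e) := by
  induction e using Sym2.ind with
  | _ x y =>
    simp only [Nh_mk]
    have hrk : ∀ u v : V, Measurable (fun p : SimpleGraph V × ((V → I) × (V × ℕ → I)) =>
        rk p.1 p.2.1 u v) := by
      intro u v
      unfold rk
      refine measurable_ncard.comp ?_
      rw [measurable_set_iff]
      intro w
      refine Measurable.and ?_ ?_
      · exact (SimpleGraph.measurable_iff_adj.mp measurable_fst u w)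
      · exact measurableSet_setOfPred.mp (measurableSet_lt (by fun_prop) (by fun_prop))
    have hZ : ∀ u v : V, Measurable (fun p : SimpleGraph V × ((V → I) × (V × ℕ → I)) =>
        p.2.2 (u, Nat.pair (rk p.1 p.2.1 u v) k)) := by
      intro u v
      have h1 : Measurable (fun q : (V × ℕ → I) × ℕ => q.1 (u, Nat.pair q.2 k)) :=
        measurable_from_prod_countable_left fun n => by
          exact measurable_pi_apply (u, Nat.pair n k)
      exact h1.comp (measurable_snd.snd.prodMk (hrk u v))
    unfold pick
    refine Measurable.ite ?_ (hZ x y) (Measurable.ite ?_ (hZ y x) measurable_const)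
    · exact measurableSet_lt (by fun_prop) (by fun_prop)
    · exact measurableSet_lt (by fun_prop) (by fun_prop)

lemma Nh_equivariant {V : Type*} (σ : Equiv.Perm V) (G : SimpleGraph V) (L : V → I)
    (Z : V × ℕ → I) (k : ℕ) (e : Sym2 V) :
    Nh (G.map σ.toEmbedding) (fun v => L (σ.symm v)) (fun p => Z (σ.symm p.1, p.2)) k
      (Sym2.map σ e) = Nh G L Z k e := by
  induction e using Sym2.ind with
  | _ x y =>
    have hrk : ∀ u v : V, rk (G.map σ.toEmbedding) (fun v => L (σ.symm v)) (σ u) (σ v) =
        rk G L u v := by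
      intro u v
      unfold rk
      have hset : {w | (G.map σ.toEmbedding).Adj (σ u) w ∧ L (σ.symm w) < L (σ.symm (σ v))} =
          σ '' {w | G.Adj u w ∧ L w < L v} := by
        ext w
        simp only [Set.mem_ofPred_eq, Set.mem_image, Equiv.symm_apply_apply]
        constructor
        · rintro ⟨h1, h2⟩
          refine ⟨σ.symm w, ⟨?_, h2⟩, by simp⟩
          have h3 : (G.map σ.toEmbedding).Adj (σ.toEmbedding u) (σ.toEmbedding (σ.symm w)) := by
            simpa using h1
          rwa [SimpleGraph.map_adj_apply] at h3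
        · rintro ⟨z, ⟨h1, h2⟩, rfl⟩
          refine ⟨?_, by simpa using h2⟩
          have h3 : (G.map σ.toEmbedding).Adj (σ.toEmbedding u) (σ.toEmbedding z) := by
            rwa [SimpleGraph.map_adj_apply]
          exact h3
      rw [hset, Set.ncard_image_of_injective _ σ.injective]
    rw [Sym2.map_mk]
    simp only [Nh_mk, pick, hrk, Equiv.symm_apply_apply]

end Noise

open Noise

theorem exists_edge_noise (V : Type*) [Countable V] :
    ∃ N : SimpleGraph V → (V → unitInterval) →
        (Sym2 V → unitInterval) × (Sym2 V × ℕ → unitInterval),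
      Measurable (fun p : SimpleGraph V × (V → unitInterval) => N p.1 p.2) ∧
      (∀ (σ : Equiv.Perm V) (G : SimpleGraph V) (U : V → unitInterval) (e : Sym2 V),
        (N (G.map σ.toEmbedding) (fun v => U (σ.symm v))).1 (Sym2.map σ e) = (N G U).1 e ∧
        ∀ k, (N (G.map σ.toEmbedding) (fun v => U (σ.symm v))).2 (Sym2.map σ e, k) =
          (N G U).2 (e, k)) ∧
      (∀ G : SimpleGraph V, (∀ v, (G.neighborSet v).Finite) →
        (iidUniform V).map (fun U => ((fun e : G.edgeSet => (N G U).1 e),
            (fun p : G.edgeSet × ℕ => (N G U).2 (p.1, p.2)))) =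
          (iidUniform G.edgeSet).prod (iidUniform (G.edgeSet × ℕ))) := by
  obtain ⟨s, hs, hs2⟩ := (iidUniform ℕ).exists_measurable_map_eq
  refine ⟨fun G U => (fun e => Nh G (fun v => s (U v) 0) (fun p => s (U p.1) (p.2 + 1)) 0 e,
    fun p => Nh G (fun v => s (U v) 0) (fun p => s (U p.1) (p.2 + 1)) (p.2 + 1) p.1),
    ?_, ?_, ?_⟩
  · have hX : Measurable (fun p : SimpleGraph V × (V → unitInterval) =>
        (p.1, ((fun v => s (p.2 v) 0 : V → unitInterval),
          (fun q : V × ℕ => s (p.2 q.1) (q.2 + 1))))) := by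
      fun_prop
    refine Measurable.prodMk ?_ ?_
    · rw [measurable_pi_iff]
      intro e
      exact (measurable_Nh 0 e).comp hX
    · rw [measurable_pi_iff]
      rintro ⟨e, k⟩
      exact (measurable_Nh (k + 1) e).comp hX
  · intro σ G U e
    exact ⟨Nh_equivariant σ G (fun v => s (U v) 0) (fun p => s (U p.1) (p.2 + 1)) 0 e,
      fun k => Nh_equivariant σ G (fun v => s (U v) 0) (fun p => s (U p.1) (p.2 + 1)) (k + 1) e⟩
  · intro G hG
    have e1 : Function.Injective (Sum.elim (fun v : V => (v, 0)) (fun p : V × ℕ => (p.1, p.2 + 1))) := by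
      rintro (a | ⟨a, m⟩) (b | ⟨b, n⟩) h <;>
        simp only [Sum.elim_inl, Sum.elim_inr, Prod.mk.injEq] at h
      · rw [h.1]
      · exact absurd h.2 (by omega)
      · exact absurd h.2 (by omega)
      · obtain ⟨h1, h2⟩ := h
        have h3 : m = n := by omega
        rw [h1, h3]
    have e2 : Function.Injective (Sum.elim (fun e : G.edgeSet => (e, 0))
        (fun p : G.edgeSet × ℕ => (p.1, p.2 + 1))) := by
      rintro (a | ⟨a, m⟩) (b | ⟨b, n⟩) h <;>
        simp only [Sum.elim_inl, Sum.elim_inr, Prod.mk.injEq] at h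
      · rw [h.1]
      · exact absurd h.2 (by omega)
      · exact absurd h.2 (by omega)
      · obtain ⟨h1, h2⟩ := h
        have h3 : m = n := by omega
        rw [h1, h3]
    -- law of (labels, noise)
    have l1 : (iidUniform V).map (fun U => ((fun v => s (U v) 0 : V → unitInterval),
        (fun p : V × ℕ => s (U p.1) (p.2 + 1)))) =
        (iidUniform V).prod (iidUniform (V × ℕ)) := by
      rw [← split_law _ _ e1]
      conv_rhs => rw [← spread_law (V := V) hs hs2]
      rw [Measure.map_map (by fun_prop) (by fun_prop)]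
      rfl
    -- law of the family indexed by `E × ℕ`
    have hΨ : Measurable (Function.uncurry fun (L : V → unitInterval) (Z : V × ℕ → unitInterval)
        (p : G.edgeSet × ℕ) => Nh G L Z p.2 (p.1 : Sym2 V)) := by
      rw [measurable_pi_iff]
      intro p
      exact (measurable_Nh p.2 (p.1 : Sym2 V)).comp (measurable_const.prodMk measurable_id)
    have l2 : MeasurePreserving (fun q : (V → unitInterval) × (V × ℕ → unitInterval) =>
        (q.1, fun p : G.edgeSet × ℕ => Nh G q.1 q.2 p.2 (p.1 : Sym2 V)))
        ((iidUniform V).prod (iidUniform (V × ℕ)))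
        ((iidUniform V).prod (iidUniform (G.edgeSet × ℕ))) := by
      refine MeasurePreserving.skew_product (MeasurePreserving.id _) hΨ ?_
      filter_upwards [ae_injective V] with L hL
      obtain ⟨φ, hφ1, hφ2⟩ := exists_idx hG hL
      have h1 : (fun (Z : V × ℕ → unitInterval) (p : G.edgeSet × ℕ) =>
          Nh G L Z p.2 (p.1 : Sym2 V)) = fun Z p => Z (φ p) := by
        funext Z p
        exact hφ2 Z p
      rw [h1]
      exact Measure.map_infinitePi_infinitePi_of_inj
        (P := fun _ : V × ℕ => (volume : Measure unitInterval)) hφ1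
    have l3 := l2.map_eq
    have l4 : ((iidUniform V).prod (iidUniform (V × ℕ))).map
        (fun q (p : G.edgeSet × ℕ) => Nh G q.1 q.2 p.2 (p.1 : Sym2 V)) =
        iidUniform (G.edgeSet × ℕ) := by
      have h5 := congrArg (Measure.map Prod.snd) l3
      rw [Measure.map_map measurable_snd l2.measurable] at h5
      have h6 : ((iidUniform V).prod (iidUniform (G.edgeSet × ℕ))).map Prod.snd =
          iidUniform (G.edgeSet × ℕ) := measurePreserving_snd.map_eq
      rw [h6] at h5
      exact h5
    have l5 : (iidUniform V).map (fun U (p : G.edgeSet × ℕ) =>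
        Nh G (fun v => s (U v) 0) (fun p => s (U p.1) (p.2 + 1)) p.2 (p.1 : Sym2 V)) =
        iidUniform (G.edgeSet × ℕ) := by
      rw [← l4, ← l1, Measure.map_map (by exact hΨ) (by fun_prop)]
      rfl
    have l6 : Measurable (fun (U : V → unitInterval) (p : G.edgeSet × ℕ) =>
        Nh G (fun v => s (U v) 0) (fun p => s (U p.1) (p.2 + 1)) p.2 (p.1 : Sym2 V)) := by
      have h7 : Measurable (fun U : V → unitInterval =>
        ((fun v => s (U v) 0 : V → unitInterval),
        (fun p : V × ℕ => s (U p.1) (p.2 + 1)))) := by fun_prop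
      exact hΨ.comp h7
    rw [← split_law _ _ e2]
    conv_rhs => rw [← l5]
    rw [Measure.map_map (by fun_prop) l6]
    rfl

end

end Vale.Agent.P143
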