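import Vale.Agent.P143.Basic

/-! P143: Kirchhoff's formula for the random spanning forest (Dirichlet principle form). -/

namespace Vale.Agent.P143

open MeasureTheory Filter Topology Set

noncomputable section

open Classical

namespace Kirch

variable {V : Type*}

/-- the graph of a finite edge set -/
abbrev Gr (T : Finset (Sym2 V)) : SimpleGraph V := SimpleGraph.fromEdgeSet (T : Set (Sym2 V))

lemma Gr_mono {S T : Finset (Sym2 V)} (h : S ⊆ T) : Gr S ≤ Gr T :=
  SimpleGraph.fromEdgeSet_mono (by exact_mod_cast h)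

lemma Gr_adj {T : Finset (Sym2 V)} {x y : V} : (Gr T).Adj x y ↔ s(x, y) ∈ T ∧ x ≠ y := by
  simp [Gr]

lemma mem_SF {A T : Finset (Sym2 V)} : T ∈ SF A ↔ T ⊆ A ∧ (Gr T).IsAcyclic ∧
    ∀ u v, (Gr A).Reachable u v → (Gr T).Reachable u v := by
  simp only [SF, Finset.mem_filter, Finset.mem_powerset, IsSF]
  tauto

lemma deleteEdges_Gr (T : Finset (Sym2 V)) (e : Sym2 V) :
    (Gr T).deleteEdges {e} = Gr (T.erase e) := by
  ext x y
  simp only [SimpleGraph.deleteEdges_adj, Gr_adj, Finset.mem_erase, Set.mem_singleton_iff]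
  tauto

/-- in an acyclic graph the ends of an edge are separated when the edge is removed -/
lemma not_reach_erase {T : Finset (Sym2 V)} (hT : (Gr T).IsAcyclic) {x y : V}
    (h : s(x, y) ∈ T) (hxy : x ≠ y) : ¬ (Gr (T.erase s(x, y))).Reachable x y := by
  have h1 := SimpleGraph.isAcyclic_iff_forall_adj_isBridge.mp hT (Gr_adj.mpr ⟨h, hxy⟩)
  rw [SimpleGraph.isBridge_iff, deleteEdges_Gr] at h1
  exact h1

lemma acyclic_insert {F : Finset (Sym2 V)} (hF : (Gr F).IsAcyclic) {x y : V}
    (h : ¬ (Gr F).Reachable x y) : (Gr (insert s(x, y) F)).IsAcyclic := by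
  have h1 := SimpleGraph.IsAcyclic.sup_edge_of_not_reachable h hF
  refine h1.anti ?_
  intro a b hab
  rw [Gr_adj, Finset.mem_insert] at hab
  obtain ⟨h2, h3⟩ := hab
  rcases h2 with h2 | h2
  · right
    rw [SimpleGraph.edge_adj]
    rw [Sym2.eq_iff] at h2
    refine ⟨?_, h3⟩
    tauto
  · left
    exact Gr_adj.mpr ⟨h2, h3⟩

lemma reach_insert {F : Finset (Sym2 V)} {x y z w : V}
    (h : (Gr (insert s(x, y) F)).Reachable z w) :
    (Gr F).Reachable z w ∨ ((Gr F).Reachable z x ∧ (Gr F).Reachable y w) ∨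
      ((Gr F).Reachable z y ∧ (Gr F).Reachable x w) := by
  obtain ⟨p⟩ := h
  induction p with
  | nil => left; exact SimpleGraph.Reachable.refl _
  | @cons a b c hab q ih =>
    rw [Gr_adj, Finset.mem_insert] at hab
    obtain ⟨h2, h3⟩ := hab
    rcases h2 with h2 | h2
    · rw [Sym2.eq_iff] at h2
      rcases h2 with ⟨rfl, rfl⟩ | ⟨rfl, rfl⟩
      · rcases ih with ih | ⟨_, ih⟩ | ⟨_, ih⟩
        · right; left; exact ⟨SimpleGraph.Reachable.refl _, ih⟩
        · right; left; exact ⟨SimpleGraph.Reachable.refl _, ih⟩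
        · left; exact ih
      · rcases ih with ih | ⟨_, ih⟩ | ⟨_, ih⟩
        · right; right; exact ⟨SimpleGraph.Reachable.refl _, ih⟩
        · left; exact ih
        · right; right; exact ⟨SimpleGraph.Reachable.refl _, ih⟩
    · have h4 : (Gr F).Reachable a b := (Gr_adj.mpr ⟨h2, h3⟩ : (Gr F).Adj a b).reachable
      rcases ih with ih | ⟨ih1, ih⟩ | ⟨ih1, ih⟩
      · left; exact h4.trans ih
      · right; left; exact ⟨h4.trans ih1, ih⟩
      · right; right; exact ⟨h4.trans ih1, ih⟩

/-- reachability in `T` implies reachability in any graph where the edges of `T` join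
reachable vertices -/
lemma reach_of_forall {S T : Finset (Sym2 V)}
    (h : ∀ x y, s(x, y) ∈ S → (Gr T).Reachable x y) {u v : V} (huv : (Gr S).Reachable u v) :
    (Gr T).Reachable u v := by
  obtain ⟨p⟩ := huv
  induction p with
  | nil => exact SimpleGraph.Reachable.refl _
  | @cons a b c hab q ih =>
    rw [Gr_adj] at hab
    exact (h a b hab.1).trans ih

/-- the exchange lemma -/
lemma exchange {A F : Finset (Sym2 V)} {x y z w : V} (hF : insert s(x, y) F ∈ SF A)
    (hg : s(z, w) ∈ A) (hzw : ¬ (Gr F).Reachable z w) : insert s(z, w) F ∈ SF A := by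
  rw [mem_SF] at hF ⊢
  obtain ⟨h1, h2, h3⟩ := hF
  have hzw' : z ≠ w := by rintro rfl; exact hzw (SimpleGraph.Reachable.refl _)
  have hFa : (Gr F).IsAcyclic := h2.anti (Gr_mono (Finset.subset_insert _ _))
  refine ⟨?_, acyclic_insert hFa hzw, ?_⟩
  · intro f hf
    rw [Finset.mem_insert] at hf
    rcases hf with rfl | hf
    · exact hg
    · exact h1 (Finset.mem_insert_of_mem hf)
  · have key : (Gr (insert s(z, w) F)).Reachable x y := by
      have h4 : (Gr (insert s(x, y) F)).Reachable z w :=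
        h3 z w (Gr_adj.mpr ⟨hg, hzw'⟩ : (Gr A).Adj z w).reachable
      have h5 : (Gr (insert s(z, w) F)).Reachable z w :=
        (Gr_adj.mpr ⟨Finset.mem_insert_self _ _, hzw'⟩ :
          (Gr (insert s(z, w) F)).Adj z w).reachable
      have hm : Gr F ≤ Gr (insert s(z, w) F) := Gr_mono (Finset.subset_insert _ _)
      rcases reach_insert h4 with h | ⟨h6, h7⟩ | ⟨h6, h7⟩
      · exact absurd h hzw
      · exact ((h6.mono hm).symm.trans h5).trans (h7.mono hm).symm
      · exact ((h7.mono hm).trans h5.symm).trans (h6.mono hm)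
    intro u v huv
    refine reach_of_forall ?_ (h3 u v huv)
    intro p q hpq
    rw [Finset.mem_insert] at hpq
    rcases hpq with hpq | hpq
    · rw [Sym2.eq_iff] at hpq
      rcases hpq with ⟨rfl, rfl⟩ | ⟨rfl, rfl⟩
      · exact key
      · exact key.symm
    · by_cases hpq' : p = q
      · rw [hpq']
      · exact (Gr_adj.mpr ⟨Finset.mem_insert_of_mem hpq, hpq'⟩ :
          (Gr (insert s(z, w) F)).Adj p q).reachable

/-- symmetric bilinear increments -/
def bil (u v : V → ℝ) : Sym2 V → ℝ :=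
  Sym2.lift ⟨fun x y => (u x - u y) * (v x - v y), fun x y => by ring⟩

@[simp] lemma bil_mk (u v : V → ℝ) (x y : V) : bil u v s(x, y) = (u x - u y) * (v x - v y) := rfl

/-- indicator of the component of `a` minus the indicator of the component of `b` -/
def pot (F : Finset (Sym2 V)) (a b : V) (x : V) : ℝ :=
  (if (Gr F).Reachable a x then 1 else 0) - (if (Gr F).Reachable b x then 1 else 0)

lemma pot_eq_zero {F : Finset (Sym2 V)} {a b : V} (h : (Gr F).Reachable a b) (x : V) :
    pot F a b x = 0 := by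
  have : (Gr F).Reachable a x ↔ (Gr F).Reachable b x :=
    ⟨fun h1 => h.symm.trans h1, fun h1 => h.trans h1⟩
  simp [pot, this]

lemma pot_congr {F : Finset (Sym2 V)} {a b x y : V} (h : (Gr F).Reachable x y) :
    pot F a b x = pot F a b y := by
  have h1 : (Gr F).Reachable a x ↔ (Gr F).Reachable a y :=
    ⟨fun h1 => h1.trans h, fun h1 => h1.trans h.symm⟩
  have h2 : (Gr F).Reachable b x ↔ (Gr F).Reachable b y :=
    ⟨fun h1 => h1.trans h, fun h1 => h1.trans h.symm⟩
  simp [pot, h1, h2]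

/-- telescoping along a tree -/
lemma tele {T : Finset (Sym2 V)} (hT : (Gr T).IsAcyclic) (u : V → ℝ) {a b : V}
    (hab : (Gr T).Reachable a b) :
    ∑ f ∈ T, bil u (pot (T.erase f) a b) f = 2 * (u a - u b) := by
  obtain ⟨p⟩ := hab
  induction p with
  | nil =>
    simp only [sub_self, mul_zero]
    refine Finset.sum_eq_zero ?_
    intro f _
    induction f using Sym2.ind with
    | _ x y => simp [pot]
  | @cons a b c hab q ih =>
    rw [Gr_adj] at hab
    obtain ⟨h1, h2⟩ := hab
    have h3 : ∀ f, bil u (pot (T.erase f) a c) f =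
        bil u (pot (T.erase f) a b) f + bil u (pot (T.erase f) b c) f := by
      intro f
      induction f using Sym2.ind with
      | _ x y => simp only [bil_mk, pot]; ring
    rw [Finset.sum_congr rfl (fun f _ => h3 f), Finset.sum_add_distrib, ih]
    have h4 : ∑ f ∈ T, bil u (pot (T.erase f) a b) f = 2 * (u a - u b) := by
      rw [Finset.sum_eq_single s(a, b)]
      · have h5 := not_reach_erase hT h1 h2
        have h6 : ¬ (Gr (T.erase s(a, b))).Reachable b a := fun h => h5 h.symm
        simp only [bil_mk, pot, h5, h6, if_false, SimpleGraph.Reachable.refl, if_true]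
        ring
      · intro f hf hne
        have h5 : (Gr (T.erase f)).Reachable a b :=
          (Gr_adj.mpr ⟨Finset.mem_erase.mpr ⟨hne.symm, h1⟩, h2⟩ :
            (Gr (T.erase f)).Adj a b).reachable
        induction f using Sym2.ind with
        | _ x y => simp [pot_eq_zero h5]
      · intro h; exact absurd h1 h
    rw [h4]; ring

/-- forests `F` with `F + s(a,b)` a maximal spanning forest -/
def FF (A : Finset (Sym2 V)) (a b : V) : Finset (Finset (Sym2 V)) :=
  A.powerset.filter (fun F => s(a, b) ∉ F ∧ insert s(a, b) F ∈ SF A)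

lemma mem_FF {A F : Finset (Sym2 V)} {a b : V} :
    F ∈ FF A a b ↔ s(a, b) ∉ F ∧ insert s(a, b) F ∈ SF A := by
  simp only [FF, Finset.mem_filter, Finset.mem_powerset]
  constructor
  · tauto
  · intro h
    refine ⟨?_, h⟩
    exact (Finset.subset_insert _ _).trans (mem_SF.mp h.2).1

lemma FF_not_reach {A F : Finset (Sym2 V)} {a b : V} (hab : a ≠ b) (h : F ∈ FF A a b) :
    ¬ (Gr F).Reachable a b := by
  rw [mem_FF] at h
  have := not_reach_erase (mem_SF.mp h.2).2.1 (Finset.mem_insert_self s(a, b) F) hab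
  rwa [Finset.erase_insert h.1] at this

lemma wt_insert {h : Sym2 V → ℝ} {F : Finset (Sym2 V)} {f : Sym2 V} (hf : f ∉ F) :
    wt h (insert f F) = Real.exp (h f) * wt h F := by
  rw [wt, Finset.prod_insert hf, wt]

/-- the fundamental exchange of summations -/
lemma sum_exchange (A : Finset (Sym2 V)) (h : Sym2 V → ℝ) {a b : V} (hab : a ≠ b)
    (he : s(a, b) ∈ A) (u : V → ℝ) (f : Sym2 V) (hf : f ∈ A) :
    ∑ T ∈ (SF A).filter (fun T => f ∈ T), wt h (T.erase f) * bil u (pot (T.erase f) a b) f =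
      ∑ F ∈ FF A a b, wt h F * bil u (pot F a b) f := by
  have hz : ∀ F : Finset (Sym2 V), bil u (pot F a b) f ≠ 0 → ¬ (Gr F).Reachable a b := by
    intro F hF hr
    apply hF
    induction f using Sym2.ind with
    | _ x y => simp [pot_eq_zero hr]
  refine Finset.sum_bij_ne_zero (fun T _ _ => T.erase f) ?_ ?_ ?_ ?_
  · intro T hT hne
    rw [Finset.mem_filter] at hT
    have h1 : ¬ (Gr (T.erase f)).Reachable a b := hz _ (right_ne_zero_of_mul hne)
    rw [mem_FF]
    refine ⟨?_, ?_⟩
    · intro h2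
      exact h1 (Gr_adj.mpr ⟨h2, hab⟩ : (Gr (T.erase f)).Adj a b).reachable
    · have h2 : insert f (T.erase f) ∈ SF A := by
        rw [Finset.insert_erase hT.2]; exact hT.1
      induction f using Sym2.ind with
      | _ x y => exact exchange h2 he h1
  · intro T hT _ T' hT' _ heq
    rw [Finset.mem_filter] at hT hT'
    rw [← Finset.insert_erase hT.2, ← Finset.insert_erase hT'.2, heq]
  · intro F hF hne
    have h1 : bil u (pot F a b) f ≠ 0 := right_ne_zero_of_mul hne
    have h3 : f ∉ F ∧ insert f F ∈ SF A := by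
      induction f using Sym2.ind with
      | _ x y =>
        have h2 : ¬ (Gr F).Reachable x y := by
          intro hr
          apply h1
          rw [bil_mk, pot_congr hr]; ring
        refine ⟨?_, exchange (mem_FF.mp hF).2 hf h2⟩
        intro h3
        have hxy : x ≠ y := by rintro rfl; exact h2 (SimpleGraph.Reachable.refl _)
        exact h2 (Gr_adj.mpr ⟨h3, hxy⟩ : (Gr F).Adj x y).reachable
    refine ⟨insert f F, ?_, ?_, ?_⟩
    · rw [Finset.mem_filter]
      exact ⟨h3.2, Finset.mem_insert_self _ _⟩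
    · rw [Finset.erase_insert h3.1]; exact hne
    · exact Finset.erase_insert h3.1
  · intro T _ _
    rfl

/-- the (unnormalized) unit current flow potential -/
def vpot (A : Finset (Sym2 V)) (h : Sym2 V → ℝ) (a b : V) (x : V) : ℝ :=
  ∑ F ∈ FF A a b, wt h F * pot F a b x

lemma bil_vpot (A : Finset (Sym2 V)) (h : Sym2 V → ℝ) (a b : V) (u : V → ℝ) (f : Sym2 V) :
    bil u (vpot A h a b) f = ∑ F ∈ FF A a b, wt h F * bil u (pot F a b) f := by
  induction f using Sym2.ind with
  | _ x y =>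
    simp only [bil_mk, vpot]
    rw [← Finset.sum_sub_distrib, Finset.mul_sum]
    refine Finset.sum_congr rfl ?_
    intro F _
    ring

/-- the key identity: `v` is the potential of the unit current flow -/
lemma key (A : Finset (Sym2 V)) (h : Sym2 V → ℝ) {a b : V} (hab : a ≠ b)
    (he : s(a, b) ∈ A) (u : V → ℝ) :
    ∑ f ∈ A, Real.exp (h f) * bil u (vpot A h a b) f =
      2 * (u a - u b) * ∑ T ∈ SF A, wt h T := by
  have h1 : ∀ f ∈ A, Real.exp (h f) * bil u (vpot A h a b) f =
      ∑ T ∈ SF A, if f ∈ T then wt h T * bil u (pot (T.erase f) a b) f else 0 := by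
    intro f hf
    rw [bil_vpot, ← sum_exchange A h hab he u f hf, Finset.mul_sum, ← Finset.sum_filter]
    refine Finset.sum_congr rfl ?_
    intro T hT
    rw [Finset.mem_filter] at hT
    rw [← mul_assoc]
    congr 1
    rw [← wt_insert (Finset.notMem_erase f T), Finset.insert_erase hT.2]
  rw [Finset.sum_congr rfl h1, Finset.sum_comm, Finset.mul_sum]
  refine Finset.sum_congr rfl ?_
  intro T hT
  have hT' := mem_SF.mp hT
  have hr : (Gr T).Reachable a b :=
    hT'.2.2 a b (Gr_adj.mpr ⟨he, hab⟩ : (Gr A).Adj a b).reachable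
  have h2 := tele hT'.2.1 u hr
  rw [← h2, Finset.sum_mul, ← Finset.sum_filter]
  have h3 : A.filter (fun f => f ∈ T) = T := by
    ext f
    rw [Finset.mem_filter]
    exact ⟨fun h => h.2, fun h => ⟨hT'.1 h, h⟩⟩
  rw [h3]
  refine Finset.sum_congr rfl ?_
  intro f _
  ring

lemma vpot_ends (A : Finset (Sym2 V)) (h : Sym2 V → ℝ) {a b : V} (hab : a ≠ b) :
    vpot A h a b a - vpot A h a b b =
      2 * ((∑ T ∈ (SF A).filter (fun T => s(a, b) ∈ T), wt h T) / Real.exp (h s(a, b))) := by
  have h1 : ∀ F ∈ FF A a b, wt h F * pot F a b a - wt h F * pot F a b b = 2 * wt h F := by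
    intro F hF
    have h2 := FF_not_reach hab hF
    have h3 : ¬ (Gr F).Reachable b a := fun h => h2 h.symm
    simp only [pot, h2, h3, if_false, SimpleGraph.Reachable.refl, if_true]
    ring
  rw [vpot, vpot, ← Finset.sum_sub_distrib, Finset.sum_congr rfl h1, ← Finset.mul_sum]
  congr 1
  rw [eq_div_iff (Real.exp_pos _).ne', Finset.sum_mul]
  refine Finset.sum_bij (fun F _ => insert s(a, b) F) ?_ ?_ ?_ ?_
  · intro F hF
    rw [Finset.mem_filter]
    exact ⟨(mem_FF.mp hF).2, Finset.mem_insert_self _ _⟩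
  · intro F hF F' hF' heq
    rw [← Finset.erase_insert (mem_FF.mp hF).1, ← Finset.erase_insert (mem_FF.mp hF').1]
    rw [heq]
  · intro T hT
    rw [Finset.mem_filter] at hT
    refine ⟨T.erase s(a, b), ?_, Finset.insert_erase hT.2⟩
    rw [mem_FF, Finset.insert_erase hT.2]
    exact ⟨Finset.notMem_erase _ _, hT.1⟩
  · intro F hF
    rw [wt_insert (mem_FF.mp hF).1]
    ring

end Kirch

open Kirch

theorem SF_nonempty {V : Type*} (A : Finset (Sym2 V)) : (SF A).Nonempty := by
  obtain ⟨F, hF, h1, h2⟩ :=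
    SimpleGraph.exists_isAcyclic_reachable_eq_le (G := Gr A)
  have hFA : F.edgeSet ⊆ (A : Set (Sym2 V)) := by
    have h3 : F.edgeSet ⊆ (Gr A).edgeSet := SimpleGraph.edgeSet_subset_edgeSet.mpr hF
    rw [SimpleGraph.edgeSet_fromEdgeSet] at h3
    exact h3.trans Set.sdiff_subset
  have hfin : F.edgeSet.Finite := A.finite_toSet.subset hFA
  refine ⟨hfin.toFinset, ?_⟩
  have h4 : Gr hfin.toFinset = F := by
    rw [Gr, hfin.coe_toFinset, SimpleGraph.fromEdgeSet_edgeSet]
  rw [mem_SF, h4]
  refine ⟨?_, h1, ?_⟩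
  · intro f hf
    rw [Set.Finite.mem_toFinset] at hf
    exact hFA hf
  · intro u v huv
    rw [h2]; exact huv

lemma wt_pos {V : Type*} (h : Sym2 V → ℝ) (T : Finset (Sym2 V)) : 0 < wt h T :=
  Finset.prod_pos fun _ _ => Real.exp_pos _

lemma Z_pos {V : Type*} (A : Finset (Sym2 V)) (h : Sym2 V → ℝ) : 0 < ∑ T ∈ SF A, wt h T :=
  Finset.sum_pos (fun T _ => wt_pos h T) (SF_nonempty A)

theorem kirchhoff_aux {V : Type*} (A : Finset (Sym2 V)) (hA : ∀ f ∈ A, ¬ f.IsDiag)
    (h : Sym2 V → ℝ) (a b : V) (hab : s(a, b) ∈ A) :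
    ∃ W : V → ℝ, (∀ u : V → ℝ, ∑ f ∈ A, Real.exp (h f) * bil u W f = u a - u b) ∧
      W a - W b = pr A h s(a, b) / Real.exp (h s(a, b)) := by
  have hne : a ≠ b := by
    have := hA _ hab
    rwa [Sym2.mk_isDiag_iff] at this
  have hZ := Z_pos A h
  refine ⟨fun x => vpot A h a b x / (2 * ∑ T ∈ SF A, wt h T), ?_, ?_⟩
  · intro u
    have h1 := key A h hne hab u
    have h2 : ∀ f, bil u (fun x => vpot A h a b x / (2 * ∑ T ∈ SF A, wt h T)) f =
        bil u (vpot A h a b) f / (2 * ∑ T ∈ SF A, wt h T) := by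
      intro f
      induction f using Sym2.ind with
      | _ x y => simp only [bil_mk]; ring
    have h3 : ∑ f ∈ A, Real.exp (h f) *
        bil u (fun x => vpot A h a b x / (2 * ∑ T ∈ SF A, wt h T)) f =
        (∑ f ∈ A, Real.exp (h f) * bil u (vpot A h a b) f) / (2 * ∑ T ∈ SF A, wt h T) := by
      rw [Finset.sum_div]
      refine Finset.sum_congr rfl ?_
      intro f _
      rw [h2]; ring
    rw [h3, h1]
    field_simp
  · have h1 := vpot_ends A h hne
    have h2 : vpot A h a b a / (2 * ∑ T ∈ SF A, wt h T) -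
        vpot A h a b b / (2 * ∑ T ∈ SF A, wt h T) =
        (vpot A h a b a - vpot A h a b b) / (2 * ∑ T ∈ SF A, wt h T) := by ring
    simp only
    rw [h2, h1, pr]
    field_simp

theorem kirchhoff_le {V : Type*} (A : Finset (Sym2 V)) (hA : ∀ f ∈ A, ¬ f.IsDiag) (h : Sym2 V → ℝ) (a b : V)
    (hab : s(a, b) ∈ A) (v : V → ℝ) :
    2 * (v a - v b) - ∑ f ∈ A, Real.exp (h f) * sqd v f ≤ pr A h s(a, b) / Real.exp (h s(a, b)) := by
  obtain ⟨W, hW1, hW2⟩ := kirchhoff_aux A hA h a b hab
  have h1 := hW1 v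
  have h2 := hW1 W
  rw [hW2] at h2
  have h3 : 0 ≤ ∑ f ∈ A, Real.exp (h f) * sqd (fun x => v x - W x) f := by
    refine Finset.sum_nonneg ?_
    intro f _
    refine mul_nonneg (Real.exp_pos _).le ?_
    induction f using Sym2.ind with
    | _ x y => rw [sqd_mk]; positivity
  have h4 : ∑ f ∈ A, Real.exp (h f) * sqd (fun x => v x - W x) f =
      ∑ f ∈ A, Real.exp (h f) * sqd v f - 2 * ∑ f ∈ A, Real.exp (h f) * bil v W f +
        ∑ f ∈ A, Real.exp (h f) * bil W W f := by
    rw [Finset.mul_sum, ← Finset.sum_sub_distrib, ← Finset.sum_add_distrib]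
    refine Finset.sum_congr rfl ?_
    intro f _
    induction f using Sym2.ind with
    | _ x y => simp only [sqd_mk, bil_mk]; ring
  rw [h4, h1, h2] at h3
  linarith

theorem kirchhoff_eq {V : Type*} (A : Finset (Sym2 V)) (hA : ∀ f ∈ A, ¬ f.IsDiag) (h : Sym2 V → ℝ) (a b : V)
    (hab : s(a, b) ∈ A) :
    ∃ v : V → ℝ,
      2 * (v a - v b) - ∑ f ∈ A, Real.exp (h f) * sqd v f = pr A h s(a, b) / Real.exp (h s(a, b)) := by
  obtain ⟨W, hW1, hW2⟩ := kirchhoff_aux A hA h a b hab
  refine ⟨W, ?_⟩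
  have h2 := hW1 W
  have h4 : ∑ f ∈ A, Real.exp (h f) * sqd W f = ∑ f ∈ A, Real.exp (h f) * bil W W f := by
    refine Finset.sum_congr rfl ?_
    intro f _
    induction f using Sym2.ind with
    | _ x y => simp only [sqd_mk, bil_mk]; ring
  rw [h4, h2, hW2]
  ring

end

end Vale.Agent.P143
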