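import Mathlib
import Vale.Agent.P143.Basic

/-! P143: the infinite-volume revealing equation; existence, uniqueness, measurability,
equivariance, locality and stability of its solution. -/

namespace Vale.Agent.P143

open MeasureTheory Filter Topology Set

noncomputable section

open Classical

/-! ### facts about `eta` -/

lemma eta_zero : eta 0 = 0 := by simp [eta]

lemma eta_lipschitz {x y : ℝ} (hx : x ∈ Icc (-1 : ℝ) 1) (hy : y ∈ Icc (-1 : ℝ) 1) :
    |eta x - eta y| ≤ (8 / 15) * |x - y| := by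
  have key : ∀ z ∈ Icc (-1 : ℝ) 1, HasDerivWithinAt eta
      ((1 / 4) / (1 + z / 4) + (1 / 4) / (1 - z / 4)) (Icc (-1 : ℝ) 1) z := by
    intro z hz
    have h1 : (0 : ℝ) < 1 + z / 4 := by linarith [hz.1]
    have h2 : (0 : ℝ) < 1 - z / 4 := by linarith [hz.2]
    have e1 : HasDerivAt (fun z : ℝ => Real.log (1 + z / 4)) ((1 / 4) / (1 + z / 4)) z := by
      have : HasDerivAt (fun z : ℝ => 1 + z / 4) (1 / 4) z := by
        simpa using ((hasDerivAt_id z).div_const 4).const_add 1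
      exact this.log h1.ne'
    have e2 : HasDerivAt (fun z : ℝ => Real.log (1 - z / 4)) (-(1 / 4) / (1 - z / 4)) z := by
      have : HasDerivAt (fun z : ℝ => 1 - z / 4) (-(1 / 4)) z := by
        simpa using ((hasDerivAt_id z).div_const 4).const_sub 1
      exact this.log h2.ne'
    have e3 := (e1.sub e2).hasDerivWithinAt (s := Icc (-1 : ℝ) 1)
    refine (e3.congr_of_mem ?_ hz).congr_deriv ?_
    · intro w hw
      have h1 : (0 : ℝ) < 1 + w / 4 := by linarith [hw.1]
      have h2 : (0 : ℝ) < 1 - w / 4 := by linarith [hw.2]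
      simp only [eta, Pi.sub_apply]
      rw [Real.log_div h1.ne' h2.ne']
    · ring
  have bound : ∀ z ∈ Icc (-1 : ℝ) 1,
      ‖(1 / 4) / (1 + z / 4) + (1 / 4) / (1 - z / 4)‖ ≤ (8 / 15 : ℝ) := by
    intro z hz
    have h1 : (0 : ℝ) < 1 + z / 4 := by linarith [hz.1]
    have h2 : (0 : ℝ) < 1 - z / 4 := by linarith [hz.2]
    have h3 : (1 / 4) / (1 + z / 4) + (1 / 4) / (1 - z / 4) = (1 / 2) / (1 - z ^ 2 / 16) := by
      have h4 : (0 : ℝ) < 1 - z ^ 2 / 16 := by nlinarith
      rw [div_add_div _ _ h1.ne' h2.ne', div_eq_div_iff (by positivity) h4.ne']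
      ring
    have h4 : (15 / 16 : ℝ) ≤ 1 - z ^ 2 / 16 := by
      have : z ^ 2 ≤ 1 := by nlinarith [hz.1, hz.2]
      linarith
    rw [h3, Real.norm_eq_abs, abs_of_nonneg (by positivity), div_le_iff₀ (by linarith)]
    nlinarith
  have := (convex_Icc (-1 : ℝ) 1).norm_image_sub_le_of_norm_hasDerivWithin_le key bound hy hx
  simpa [Real.norm_eq_abs] using this

lemma abs_eta_le {x : ℝ} (hx : x ∈ Icc (-1 : ℝ) 1) : |eta x| ≤ 1 := by
  have := eta_lipschitz hx (y := 0) (by constructor <;> norm_num)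
  rw [eta_zero, sub_zero, sub_zero] at this
  have h1 : |x| ≤ 1 := abs_le.2 ⟨hx.1, hx.2⟩
  linarith

lemma measurable_eta : Measurable eta := by
  unfold eta
  fun_prop

lemma continuousOn_eta : ContinuousOn eta (Icc (-1 : ℝ) 1) := by
  unfold eta
  apply ContinuousOn.log
  · apply ContinuousOn.div (by fun_prop) (by fun_prop)
    intro x hx
    have := hx.2
    linarith
  · intro x hx
    have h1 : (0 : ℝ) < 1 + x / 4 := by linarith [hx.1]
    have h2 : (0 : ℝ) < 1 - x / 4 := by linarith [hx.2]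
    positivity

/-! ### field maps and channels -/

/-- A field map: marginals in `[0,1]`, `2`-Lipschitz for the sup norm. -/
structure IsField {E : Type*} (m : (E → ℝ) → E → ℝ) : Prop where
  nonneg : ∀ h e, 0 ≤ m h e
  le_one : ∀ h e, m h e ≤ 1
  lip : ∀ (h h' : E → ℝ) (δ : ℝ), (∀ f, |h f - h' f| ≤ δ) → ∀ e, |m h e - m h' e| ≤ 2 * δ

/-- A channel. -/
structure IsChannel (Q : unitInterval → ℝ → ℝ) : Prop where
  meas : Measurable (Function.uncurry Q)
  mem : ∀ ξ a, Q ξ a ∈ Icc (-1 : ℝ) 1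
  lip : ∀ ξ a a', |Q ξ a - Q ξ a'| ≤ (1 / 6) * |a - a'|
  law : ∀ a ∈ Icc (-1 : ℝ) 1, (volume : Measure unitInterval).map (fun ξ => Q ξ a) = nu a

lemma IsChannel.continuous {Q : unitInterval → ℝ → ℝ} (hQ : IsChannel Q) (ξ : unitInterval) :
    Continuous (Q ξ) := by
  rw [Metric.continuous_iff]
  intro b ε hε
  refine ⟨ε, hε, fun a ha => ?_⟩
  rw [Real.dist_eq] at ha ⊢
  have := hQ.lip ξ a b
  have h0 := abs_nonneg (a - b)
  linarith

variable {E : Type*}

/-- log-conductances seen by `e` inside a round -/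
def seen (t : E → unitInterval) (H : E → ℝ) (y : E → ℝ) (e : E) : E → ℝ :=
  fun f => H f + if t f < t e then eta (y f) else 0

/-- one application of the revealing map of a round -/
def stage (Q : unitInterval → ℝ → ℝ) (m : (E → ℝ) → E → ℝ) (t ξ : E → unitInterval)
    (H y : E → ℝ) (e : E) : ℝ :=
  Q (ξ e) (2 * m (seen t H y e) e - 1)

lemma stage_mem {Q : unitInterval → ℝ → ℝ} (hQ : IsChannel Q) (m : (E → ℝ) → E → ℝ)
    (t ξ : E → unitInterval) (H y : E → ℝ) (e : E) : stage Q m t ξ H y e ∈ Icc (-1 : ℝ) 1 :=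
  hQ.mem _ _

lemma stage_lip {Q : unitInterval → ℝ → ℝ} (hQ : IsChannel Q) {m : (E → ℝ) → E → ℝ}
    (hm : IsField m) (t ξ : E → unitInterval) (H y y' : E → ℝ)
    (hy : ∀ e, y e ∈ Icc (-1 : ℝ) 1) (hy' : ∀ e, y' e ∈ Icc (-1 : ℝ) 1) {δ : ℝ}
    (hδ : ∀ e, |y e - y' e| ≤ δ) (e : E) :
    |stage Q m t ξ H y e - stage Q m t ξ H y' e| ≤ (1 / 2) * δ := by
  have hδ0 : 0 ≤ δ := (abs_nonneg _).trans (hδ e)
  have h1 : ∀ f, |seen t H y e f - seen t H y' e f| ≤ (8 / 15) * δ := by
    intro f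
    unfold seen
    split_ifs with h
    · have := eta_lipschitz (hy f) (hy' f)
      have h2 := hδ f
      rw [add_sub_add_left_eq_sub]
      linarith
    · simp
      positivity
  have h2 := hm.lip _ _ _ h1 e
  have h3 := hQ.lip (ξ e) (2 * m (seen t H y e) e - 1) (2 * m (seen t H y' e) e - 1)
  have h4 : |2 * m (seen t H y e) e - 1 - (2 * m (seen t H y' e) e - 1)| =
      2 * |m (seen t H y e) e - m (seen t H y' e) e| := by
    rw [show 2 * m (seen t H y e) e - 1 - (2 * m (seen t H y' e) e - 1) =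
      2 * (m (seen t H y e) e - m (seen t H y' e) e) by ring, abs_mul]
    norm_num
  rw [h4] at h3
  unfold stage
  linarith

/-- iterates of the revealing map -/
def iter (Q : unitInterval → ℝ → ℝ) (m : (E → ℝ) → E → ℝ) (t ξ : E → unitInterval)
    (H : E → ℝ) : ℕ → E → ℝ
  | 0 => fun _ => 0
  | n + 1 => stage Q m t ξ H (iter Q m t ξ H n)

lemma iter_mem {Q : unitInterval → ℝ → ℝ} (hQ : IsChannel Q) (m : (E → ℝ) → E → ℝ)
    (t ξ : E → unitInterval) (H : E → ℝ) (n : ℕ) (e : E) :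
    iter Q m t ξ H n e ∈ Icc (-1 : ℝ) 1 := by
  cases n with
  | zero => simp [iter]
  | succ n => exact stage_mem hQ _ _ _ _ _ _

lemma iter_dist {Q : unitInterval → ℝ → ℝ} (hQ : IsChannel Q) {m : (E → ℝ) → E → ℝ}
    (hm : IsField m) (t ξ : E → unitInterval) (H : E → ℝ) (n : ℕ) :
    ∀ e, |iter Q m t ξ H (n + 1) e - iter Q m t ξ H n e| ≤ (1 / 2) ^ n := by
  induction n with
  | zero =>
    intro e
    have := stage_mem hQ m t ξ H (fun _ => 0) e
    simp only [iter, sub_zero, pow_zero]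
    exact abs_le.2 ⟨this.1, this.2⟩
  | succ n ih =>
    intro e
    have := stage_lip hQ hm t ξ H _ _ (iter_mem hQ m t ξ H (n + 1)) (iter_mem hQ m t ξ H n) ih e
    rw [pow_succ]
    simp only [iter] at this ⊢
    linarith

/-- the solution of the revealing equation of one round -/
def sol (Q : unitInterval → ℝ → ℝ) (m : (E → ℝ) → E → ℝ) (t ξ : E → unitInterval)
    (H : E → ℝ) (e : E) : ℝ :=
  limUnder atTop (fun n => iter Q m t ξ H n e)

lemma iter_tendsto {Q : unitInterval → ℝ → ℝ} (hQ : IsChannel Q) {m : (E → ℝ) → E → ℝ}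
    (hm : IsField m) (t ξ : E → unitInterval) (H : E → ℝ) (e : E) :
    Tendsto (fun n => iter Q m t ξ H n e) atTop (𝓝 (sol Q m t ξ H e)) := by
  apply CauchySeq.tendsto_limUnder
  apply cauchySeq_of_le_geometric (1 / 2) 1 (by norm_num)
  intro n
  rw [Real.dist_eq, abs_sub_comm, one_mul]
  exact iter_dist hQ hm t ξ H n e

lemma sol_mem {Q : unitInterval → ℝ → ℝ} (hQ : IsChannel Q) {m : (E → ℝ) → E → ℝ}
    (hm : IsField m) (t ξ : E → unitInterval) (H : E → ℝ) (e : E) :
    sol Q m t ξ H e ∈ Icc (-1 : ℝ) 1 :=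
  isClosed_Icc.mem_of_tendsto (iter_tendsto hQ hm t ξ H e)
    (Eventually.of_forall fun n => iter_mem hQ m t ξ H n e)

lemma iter_sol_dist {Q : unitInterval → ℝ → ℝ} (hQ : IsChannel Q) {m : (E → ℝ) → E → ℝ}
    (hm : IsField m) (t ξ : E → unitInterval) (H : E → ℝ) (n : ℕ) (e : E) :
    |iter Q m t ξ H n e - sol Q m t ξ H e| ≤ 2 * (1 / 2) ^ n := by
  have := dist_le_of_le_geometric_of_tendsto (1 / 2) 1 (by norm_num)
    (f := fun n => iter Q m t ξ H n e) (fun n => by
      rw [Real.dist_eq, abs_sub_comm, one_mul]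
      exact iter_dist hQ hm t ξ H n e) (iter_tendsto hQ hm t ξ H e) n
  rw [Real.dist_eq] at this
  refine this.trans (le_of_eq ?_)
  ring

/-- the solution solves the equation -/
lemma sol_eq {Q : unitInterval → ℝ → ℝ} (hQ : IsChannel Q) {m : (E → ℝ) → E → ℝ}
    (hm : IsField m) (t ξ : E → unitInterval) (H : E → ℝ) (e : E) :
    sol Q m t ξ H e = stage Q m t ξ H (sol Q m t ξ H) e := by
  have h1 : Tendsto (fun n => iter Q m t ξ H (n + 1) e) atTop (𝓝 (sol Q m t ξ H e)) :=
    (iter_tendsto hQ hm t ξ H e).comp (tendsto_add_atTop_nat 1)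
  have h2 : Tendsto (fun n => iter Q m t ξ H (n + 1) e) atTop
      (𝓝 (stage Q m t ξ H (sol Q m t ξ H) e)) := by
    rw [tendsto_iff_norm_sub_tendsto_zero]
    have h3 : Tendsto (fun n : ℕ => (1 / 2 : ℝ) * (2 * (1 / 2) ^ n)) atTop (𝓝 0) := by
      have := (tendsto_pow_atTop_nhds_zero_of_lt_one (r := (1 / 2 : ℝ)) (by norm_num)
        (by norm_num)).const_mul ((1 / 2 : ℝ) * 2)
      simpa [mul_assoc] using this
    refine squeeze_zero (fun n => norm_nonneg _) (fun n => ?_) h3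
    rw [Real.norm_eq_abs]
    exact stage_lip hQ hm t ξ H _ _ (iter_mem hQ m t ξ H n) (sol_mem hQ hm t ξ H)
      (iter_sol_dist hQ hm t ξ H n) e
  exact tendsto_nhds_unique h1 h2

/-- uniqueness of the solution on a set `S` of edges which is closed for the equation -/
lemma sol_unique_on {Q : unitInterval → ℝ → ℝ} (hQ : IsChannel Q) {m m' : (E → ℝ) → E → ℝ}
    (hm : IsField m) (t t' ξ ξ' : E → unitInterval) (H H' y y' : E → ℝ) (S : Set E)
    (hloc : ∀ (h h' : E → ℝ), (∀ f ∈ S, h f = h' f) → ∀ e ∈ S, m h e = m' h' e)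
    (ht : ∀ e ∈ S, t e = t' e) (hξ : ∀ e ∈ S, ξ e = ξ' e) (hH : ∀ e ∈ S, H e = H' e)
    (hy : ∀ e ∈ S, y e ∈ Icc (-1 : ℝ) 1) (hy' : ∀ e ∈ S, y' e ∈ Icc (-1 : ℝ) 1)
    (hy1 : ∀ e ∈ S, y e = stage Q m t ξ H y e) (hy2 : ∀ e ∈ S, y' e = stage Q m' t' ξ' H' y' e) :
    ∀ e ∈ S, y e = y' e := by
  have key : ∀ n : ℕ, ∀ e ∈ S, |y e - y' e| ≤ 2 * (1 / 2) ^ n := by
    intro n
    induction n with
    | zero =>
      intro e he
      have h1 := hy e he
      have h2 := hy' e he
      rw [abs_le]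
      constructor <;> simp <;> linarith [h1.1, h1.2, h2.1, h2.2]
    | succ n ih =>
      intro e he
      -- modify outside of `S`
      set z : E → ℝ := fun f => if f ∈ S then y f else 0 with hz
      set z' : E → ℝ := fun f => if f ∈ S then y' f else 0 with hz'
      have e1 : y e = stage Q m t ξ H z e := by
        rw [hy1 e he]
        unfold stage
        congr 3
        have := hloc (seen t H y e) (seen t H z e) (fun f hf => by simp [seen, hz, hf]) e he
        have h3 := hloc (seen t H z e) (seen t H z e) (fun f hf => rfl) e he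
        rw [this, h3]
      have e2 : y' e = stage Q m t ξ H z' e := by
        rw [hy2 e he]
        unfold stage
        rw [hξ e he]
        congr 3
        have h3 := hloc (seen t H z' e) (seen t' H' y' e) (fun f hf => by
          simp [seen, hz', hf, ht f hf, ht e he, hH f hf]) e he
        rw [h3]
      have hzm : ∀ f, z f ∈ Icc (-1 : ℝ) 1 := by
        intro f
        by_cases hf : f ∈ S
        · simpa [hz, hf] using hy f hf
        · simp [hz, hf]
      have hzm' : ∀ f, z' f ∈ Icc (-1 : ℝ) 1 := by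
        intro f
        by_cases hf : f ∈ S
        · simpa [hz', hf] using hy' f hf
        · simp [hz', hf]
      have := stage_lip hQ hm t ξ H z z' hzm hzm' (δ := 2 * (1 / 2) ^ n) (fun f => by
        by_cases hf : f ∈ S
        · simpa [hz, hz', hf] using ih f hf
        · simp [hz, hz', hf]) e
      rw [← e1, ← e2] at this
      refine this.trans (le_of_eq ?_)
      ring
  intro e he
  have h3 : Tendsto (fun n : ℕ => (2 * (1 / 2) ^ n : ℝ)) atTop (𝓝 0) := by
    have := (tendsto_pow_atTop_nhds_zero_of_lt_one (r := (1 / 2 : ℝ)) (by norm_num)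
      (by norm_num)).const_mul (2 : ℝ)
    simpa using this
  have h4 : |y e - y' e| ≤ 0 := ge_of_tendsto' h3 (fun n => key n e he)
  have h5 := abs_nonneg (y e - y' e)
  have h6 : |y e - y' e| = 0 := le_antisymm h4 h5
  linarith [abs_eq_zero.1 h6]

/-- log-conductances at the beginning of round `k` -/
def fieldAt (Q : unitInterval → ℝ → ℝ) (m : (E → ℝ) → E → ℝ) (t : E → unitInterval)
    (ξ : E × ℕ → unitInterval) : ℕ → E → ℝ
  | 0 => fun _ => 0
  | k + 1 => fun f => fieldAt Q m t ξ k f +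
      eta (sol Q m t (fun e => ξ (e, k)) (fieldAt Q m t ξ k) f)

/-- the observation of `e` in round `k` -/
def obs (Q : unitInterval → ℝ → ℝ) (m : (E → ℝ) → E → ℝ) (t : E → unitInterval)
    (ξ : E × ℕ → unitInterval) (k : ℕ) (e : E) : ℝ :=
  sol Q m t (fun e => ξ (e, k)) (fieldAt Q m t ξ k) e

lemma fieldAt_eq_sum (Q : unitInterval → ℝ → ℝ) (m : (E → ℝ) → E → ℝ) (t : E → unitInterval)
    (ξ : E × ℕ → unitInterval) (k : ℕ) (f : E) :
    fieldAt Q m t ξ k f = ∑ j ∈ Finset.range k, eta (obs Q m t ξ j f) := by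
  induction k with
  | zero => simp [fieldAt]
  | succ k ih => rw [Finset.sum_range_succ, ← ih]; rfl

lemma obs_mem {Q : unitInterval → ℝ → ℝ} (hQ : IsChannel Q) {m : (E → ℝ) → E → ℝ}
    (hm : IsField m) (t : E → unitInterval) (ξ : E × ℕ → unitInterval) (k : ℕ) (e : E) :
    obs Q m t ξ k e ∈ Icc (-1 : ℝ) 1 := sol_mem hQ hm _ _ _ _

lemma obs_eq {Q : unitInterval → ℝ → ℝ} (hQ : IsChannel Q) {m : (E → ℝ) → E → ℝ}
    (hm : IsField m) (t : E → unitInterval) (ξ : E × ℕ → unitInterval) (k : ℕ) (e : E) :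
    obs Q m t ξ k e = Q (ξ (e, k)) (2 * m (fun f => (∑ j ∈ Finset.range k, eta (obs Q m t ξ j f)) +
      if t f < t e then eta (obs Q m t ξ k f) else 0) e - 1) := by
  have h1 := sol_eq hQ hm t (fun e => ξ (e, k)) (fieldAt Q m t ξ k) e
  have h2 : fieldAt Q m t ξ k = fun f => ∑ j ∈ Finset.range k, eta (obs Q m t ξ j f) :=
    funext fun f => fieldAt_eq_sum Q m t ξ k f
  unfold stage seen at h1
  calc obs Q m t ξ k e = _ := h1
    _ = _ := by
      rw [h2]
      unfold obs
      rw [h2]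
      rfl

lemma abs_fieldAt_le {Q : unitInterval → ℝ → ℝ} (hQ : IsChannel Q) {m : (E → ℝ) → E → ℝ}
    (hm : IsField m) (t : E → unitInterval) (ξ : E × ℕ → unitInterval) (k : ℕ) (f : E) :
    |fieldAt Q m t ξ k f| ≤ k := by
  induction k with
  | zero => simp [fieldAt]
  | succ k ih =>
    simp only [fieldAt]
    refine (abs_add_le _ _).trans ?_
    have := abs_eta_le (sol_mem hQ hm t (fun e => ξ (e, k)) (fieldAt Q m t ξ k) f)
    push_cast
    linarith

/-! ### stability -/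

/-- `mn n → m` in the sense needed for the stability of the solutions. -/
def FieldConv (mn : ℕ → (E → ℝ) → E → ℝ) (m : (E → ℝ) → E → ℝ) : Prop :=
  ∀ (l : Filter ℕ), l ≤ atTop → ∀ (hn : ℕ → E → ℝ) (h : E → ℝ) (C : ℝ), (∀ n f, |hn n f| ≤ C) →
    (∀ f, |h f| ≤ C) → (∀ f, Tendsto (fun n => hn n f) l (𝓝 (h f))) →
    ∀ e, Tendsto (fun n => mn n (hn n) e) l (𝓝 (m h e))

lemma sol_tendsto {Q : unitInterval → ℝ → ℝ} (hQ : IsChannel Q) {m : (E → ℝ) → E → ℝ}
    {mn : ℕ → (E → ℝ) → E → ℝ} (hm : IsField m) (hmn : ∀ n, IsField (mn n))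
    (hconv : FieldConv mn m) (t ξ : E → unitInterval) (Hn : ℕ → E → ℝ) (H : E → ℝ) (C : ℝ)
    (hHn : ∀ n f, |Hn n f| ≤ C) (hH : ∀ f, |H f| ≤ C)
    (hlim : ∀ f, Tendsto (fun n => Hn n f) atTop (𝓝 (H f))) (e : E) :
    Tendsto (fun n => sol Q (mn n) t ξ (Hn n) e) atTop (𝓝 (sol Q m t ξ H e)) := by
  rw [tendsto_iff_ultrafilter]
  intro u hu
  -- the limit along the ultrafilter
  have hex : ∀ f, ∃ z ∈ Icc (-1 : ℝ) 1,
      Tendsto (fun n => sol Q (mn n) t ξ (Hn n) f) u (𝓝 z) := by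
    intro f
    have := (isCompact_Icc (a := (-1 : ℝ)) (b := 1)).ultrafilter_le_nhds'
      (u.map fun n => sol Q (mn n) t ξ (Hn n) f) (by
        rw [Ultrafilter.mem_map]
        exact Filter.univ_mem' fun n => sol_mem hQ (hmn n) t ξ (Hn n) f)
    obtain ⟨z, hz, h⟩ := this
    exact ⟨z, hz, h⟩
  choose z hz hzlim using hex
  have hzeq : ∀ e, z e = stage Q m t ξ H z e := by
    intro e
    have h1 : Tendsto (fun n => seen t (Hn n) (sol Q (mn n) t ξ (Hn n)) e) u
        (𝓝 (seen t H z e)) := by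
      rw [tendsto_pi_nhds]
      intro f
      unfold seen
      refine ((hlim f).mono_left hu).add ?_
      split_ifs
      · have h2 : Tendsto eta (𝓝[Icc (-1 : ℝ) 1] (z f)) (𝓝 (eta (z f))) :=
          continuousOn_eta (z f) (hz f)
        refine h2.comp ?_
        rw [tendsto_nhdsWithin_iff]
        exact ⟨hzlim f, Eventually.of_forall fun n => sol_mem hQ (hmn n) t ξ (Hn n) f⟩
      · exact tendsto_const_nhds
    have hb : ∀ (n : ℕ) f, |seen t (Hn n) (sol Q (mn n) t ξ (Hn n)) e f| ≤ C + 1 := by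
      intro n f
      unfold seen
      refine (abs_add_le _ _).trans ?_
      have h3 := hHn n f
      split_ifs
      · have := abs_eta_le (sol_mem hQ (hmn n) t ξ (Hn n) f)
        linarith
      · simp
        linarith
    have hb' : ∀ f, |seen t H z e f| ≤ C + 1 := by
      intro f
      unfold seen
      refine (abs_add_le _ _).trans ?_
      have h3 := hH f
      split_ifs
      · have := abs_eta_le (hz f)
        linarith
      · simp
        linarith
    have h4 := hconv u hu _ _ (C + 1) hb hb' (fun f => (tendsto_pi_nhds.1 h1) f) e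
    have h5 : Tendsto (fun n => stage Q (mn n) t ξ (Hn n) (sol Q (mn n) t ξ (Hn n)) e) u
        (𝓝 (stage Q m t ξ H z e)) := by
      unfold stage
      have hc := (hQ.continuous (ξ e)).tendsto (2 * m (seen t H z e) e - 1)
      exact hc.comp ((h4.const_mul 2).sub_const 1)
    have h6 : (fun n => stage Q (mn n) t ξ (Hn n) (sol Q (mn n) t ξ (Hn n)) e) =
        fun n => sol Q (mn n) t ξ (Hn n) e := by
      funext n
      exact (sol_eq hQ (hmn n) t ξ (Hn n) e).symm
    rw [h6] at h5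
    exact tendsto_nhds_unique (hzlim e) h5
  have := sol_unique_on hQ hm t t ξ ξ H H z (sol Q m t ξ H) univ
    (m' := m) (fun h h' hh e _ => by
      have : h = h' := funext fun f => hh f (mem_univ f)
      rw [this]) (fun _ _ => rfl) (fun _ _ => rfl) (fun _ _ => rfl) (fun e _ => hz e)
    (fun e _ => sol_mem hQ hm t ξ H e) (fun e _ => hzeq e) (fun e _ => sol_eq hQ hm t ξ H e) e
    (mem_univ e)
  rw [← this]
  exact hzlim e

lemma fieldAt_tendsto {Q : unitInterval → ℝ → ℝ} (hQ : IsChannel Q) {m : (E → ℝ) → E → ℝ}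
    {mn : ℕ → (E → ℝ) → E → ℝ} (hm : IsField m) (hmn : ∀ n, IsField (mn n))
    (hconv : FieldConv mn m) (t : E → unitInterval) (ξ : E × ℕ → unitInterval) (k : ℕ) :
    ∀ e, Tendsto (fun n => fieldAt Q (mn n) t ξ k e) atTop (𝓝 (fieldAt Q m t ξ k e)) := by
  induction k with
  | zero => intro e; simp [fieldAt]
  | succ k ih =>
    intro e
    simp only [fieldAt]
    refine (ih e).add ?_
    have h2 : Tendsto eta (𝓝[Icc (-1 : ℝ) 1] (sol Q m t (fun e => ξ (e, k)) (fieldAt Q m t ξ k) e))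
        (𝓝 (eta (sol Q m t (fun e => ξ (e, k)) (fieldAt Q m t ξ k) e))) :=
      continuousOn_eta _ (sol_mem hQ hm _ _ _ _)
    refine h2.comp ?_
    rw [tendsto_nhdsWithin_iff]
    refine ⟨?_, Eventually.of_forall fun n => sol_mem hQ (hmn n) _ _ _ _⟩
    exact sol_tendsto hQ hm hmn hconv t _ _ _ k
      (fun n f => abs_fieldAt_le hQ (hmn n) t ξ k f) (fun f => abs_fieldAt_le hQ hm t ξ k f) ih e

lemma obs_tendsto {Q : unitInterval → ℝ → ℝ} (hQ : IsChannel Q) {m : (E → ℝ) → E → ℝ}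
    {mn : ℕ → (E → ℝ) → E → ℝ} (hm : IsField m) (hmn : ∀ n, IsField (mn n))
    (hconv : FieldConv mn m) (t : E → unitInterval) (ξ : E × ℕ → unitInterval) (k : ℕ) (e : E) :
    Tendsto (fun n => obs Q (mn n) t ξ k e) atTop (𝓝 (obs Q m t ξ k e)) :=
  sol_tendsto hQ hm hmn hconv t _ _ _ k
      (fun n f => abs_fieldAt_le hQ (hmn n) t ξ k f) (fun f => abs_fieldAt_le hQ hm t ξ k f)
      (fieldAt_tendsto hQ hm hmn hconv t ξ k) e

end

end Vale.Agent.P143
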