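import Mathlib
import Vale.Agent.P143.Rounds
import Vale.Agent.P143.Kirchhoff

/-! P143: marginals of weighted random spanning forests as field maps; infinite volume. -/

namespace Vale.Agent.P143

open MeasureTheory Filter Topology Set

noncomputable section

open Classical

variable {V : Type*}

lemma mem_SF {A T : Finset (Sym2 V)} : T ∈ SF A ↔ IsSF A T := by
  unfold SF
  rw [Finset.mem_filter, Finset.mem_powerset]
  exact ⟨fun h => h.2, fun h => ⟨h.1, h⟩⟩

lemma subset_of_mem_SF {A T : Finset (Sym2 V)} (h : T ∈ SF A) : T ⊆ A := (mem_SF.1 h).1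

lemma pr_nonneg (A : Finset (Sym2 V)) (h : Sym2 V → ℝ) (e : Sym2 V) : 0 ≤ pr A h e := by
  unfold pr
  apply div_nonneg <;> exact Finset.sum_nonneg fun T _ => (wt_pos h T).le

lemma pr_le_one (A : Finset (Sym2 V)) (h : Sym2 V → ℝ) (e : Sym2 V) : pr A h e ≤ 1 := by
  unfold pr
  apply div_le_one_of_le₀
  · exact Finset.sum_le_sum_of_subset_of_nonneg (Finset.filter_subset _ _)
      fun T _ _ => (wt_pos h T).le
  · exact Finset.sum_nonneg fun T _ => (wt_pos h T).le

lemma pr_of_notMem {A : Finset (Sym2 V)} (h : Sym2 V → ℝ) {e : Sym2 V} (he : e ∉ A) :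
    pr A h e = 0 := by
  unfold pr
  rw [Finset.filter_false_of_mem]
  · simp
  · intro T hT heT
    exact he (subset_of_mem_SF hT heT)

lemma wt_congr {h h' : Sym2 V → ℝ} {T : Finset (Sym2 V)} (hh : ∀ f ∈ T, h f = h' f) :
    wt h T = wt h' T := by
  unfold wt
  exact Finset.prod_congr rfl fun f hf => by rw [hh f hf]

lemma pr_congr {A : Finset (Sym2 V)} {h h' : Sym2 V → ℝ} (hh : ∀ f ∈ A, h f = h' f)
    (e : Sym2 V) : pr A h e = pr A h' e := by
  unfold pr
  congr 1
  · refine Finset.sum_congr rfl fun T hT => wt_congr fun f hf => hh f ?_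
    exact subset_of_mem_SF (Finset.mem_filter.1 hT).1 hf
  · refine Finset.sum_congr rfl fun T hT => wt_congr fun f hf => hh f ?_
    exact subset_of_mem_SF hT hf

lemma sqd_nonneg (v : V → ℝ) (f : Sym2 V) : 0 ≤ sqd v f := by
  induction f with
  | _ x y => rw [sqd_mk]; positivity

lemma sqd_smul (r : ℝ) (v : V → ℝ) (f : Sym2 V) : sqd (fun x => r * v x) f = r ^ 2 * sqd v f := by
  induction f with
  | _ x y => rw [sqd_mk, sqd_mk]; ring

/-- `A` has no loops -/
def Loopless (A : Finset (Sym2 V)) : Prop := ∀ f ∈ A, ¬ f.IsDiag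

lemma pr_antitone {A B : Finset (Sym2 V)} (hB : Loopless B) (hAB : A ⊆ B) {e : Sym2 V}
    (he : e ∈ A) (h : Sym2 V → ℝ) : pr B h e ≤ pr A h e := by
  induction e with
  | _ a b =>
    have hA : Loopless A := fun f hf => hB f (hAB hf)
    obtain ⟨v, hv⟩ := kirchhoff_eq B hB h a b (hAB he)
    have h1 := kirchhoff_le A hA h a b he v
    have h2 : ∑ f ∈ A, Real.exp (h f) * sqd v f ≤ ∑ f ∈ B, Real.exp (h f) * sqd v f :=
      Finset.sum_le_sum_of_subset_of_nonneg hAB
        fun f _ _ => mul_nonneg (Real.exp_pos _).le (sqd_nonneg _ _)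
    have h3 : pr B h s(a, b) / Real.exp (h s(a, b)) ≤ pr A h s(a, b) / Real.exp (h s(a, b)) := by
      linarith
    exact (div_le_div_iff_of_pos_right (Real.exp_pos _)).1 h3

lemma pr_exp_le {A : Finset (Sym2 V)} (hA : Loopless A) {h h' : Sym2 V → ℝ} {δ : ℝ}
    (hδ : ∀ f ∈ A, |h f - h' f| ≤ δ) {e : Sym2 V} (he : e ∈ A) :
    pr A h' e ≤ Real.exp (2 * δ) * pr A h e := by
  induction e with
  | _ a b =>
    obtain ⟨v, hv⟩ := kirchhoff_eq A hA h' a b he
    have h1 := kirchhoff_le A hA h a b he (fun x => Real.exp (-δ) * v x)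
    have h2 : Real.exp δ * ∑ f ∈ A, Real.exp (h f) * sqd (fun x => Real.exp (-δ) * v x) f ≤
        ∑ f ∈ A, Real.exp (h' f) * sqd v f := by
      rw [Finset.mul_sum]
      refine Finset.sum_le_sum fun f hf => ?_
      rw [sqd_smul]
      have h3 := abs_le.1 (hδ f hf)
      have h4 : Real.exp δ * (Real.exp (h f) * (Real.exp (-δ) ^ 2 * sqd v f)) =
          Real.exp (h f - δ) * sqd v f := by
        rw [Real.exp_sub, Real.exp_neg]
        field_simp
      rw [h4]
      exact mul_le_mul_of_nonneg_right (Real.exp_le_exp.2 (by linarith)) (sqd_nonneg _ _)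
    have h5 : Real.exp δ * (2 * (Real.exp (-δ) * v a - Real.exp (-δ) * v b)) =
        2 * (v a - v b) := by
      rw [Real.exp_neg]
      field_simp
    have h6 : pr A h' s(a, b) / Real.exp (h' s(a, b)) ≤
        Real.exp δ * (pr A h s(a, b) / Real.exp (h s(a, b))) := by
      have := mul_le_mul_of_nonneg_left h1 (Real.exp_pos δ).le
      rw [mul_sub, h5] at this
      linarith
    have h7 : Real.exp (h' s(a, b)) ≤ Real.exp δ * Real.exp (h s(a, b)) := by
      rw [← Real.exp_add]
      have := (abs_le.1 (hδ _ he)).1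
      exact Real.exp_le_exp.2 (by linarith)
    have h8 : pr A h' s(a, b) = Real.exp (h' s(a, b)) * (pr A h' s(a, b) / Real.exp (h' s(a, b))) := by
      field_simp
    have h9 : 0 ≤ pr A h s(a, b) / Real.exp (h s(a, b)) :=
      div_nonneg (pr_nonneg _ _ _) (Real.exp_pos _).le
    calc pr A h' s(a, b) = _ := h8
      _ ≤ (Real.exp δ * Real.exp (h s(a, b))) *
          (Real.exp δ * (pr A h s(a, b) / Real.exp (h s(a, b)))) :=
        mul_le_mul h7 h6 (div_nonneg (pr_nonneg _ _ _) (Real.exp_pos _).le) (by positivity)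
      _ = Real.exp (2 * δ) * pr A h s(a, b) := by
        rw [two_mul, Real.exp_add]
        field_simp

lemma pr_lip {A : Finset (Sym2 V)} (hA : Loopless A) {h h' : Sym2 V → ℝ} {δ : ℝ} (hδ0 : 0 ≤ δ)
    (hδ : ∀ f ∈ A, |h f - h' f| ≤ δ) (e : Sym2 V) : |pr A h e - pr A h' e| ≤ 2 * δ := by
  by_cases he : e ∈ A
  · have h1 := pr_exp_le hA hδ he
    have h2 := pr_exp_le hA (h := h') (h' := h) (δ := δ)
      (fun f hf => by rw [abs_sub_comm]; exact hδ f hf) he
    have key : ∀ p q : ℝ, 0 ≤ q → q ≤ 1 → 0 ≤ p → q ≤ Real.exp (2 * δ) * p → q - p ≤ 2 * δ := by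
      intro p q hq0 hq hp hpq
      have h3 : Real.exp (-(2 * δ)) * q ≤ p := by
        rw [Real.exp_neg, inv_mul_le_iff₀ (Real.exp_pos _)]
        exact hpq
      have h4 : 1 - 2 * δ ≤ Real.exp (-(2 * δ)) := by
        have := Real.add_one_le_exp (-(2 * δ))
        linarith
      nlinarith
    rw [abs_le]
    constructor
    · have := key _ _ (pr_nonneg A h' e) (pr_le_one A h' e) (pr_nonneg A h e) h1
      linarith
    · exact key _ _ (pr_nonneg A h e) (pr_le_one A h e) (pr_nonneg A h' e) h2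
  · rw [pr_of_notMem _ he, pr_of_notMem _ he]
    simp
    exact hδ0

lemma isField_pr {A : Finset (Sym2 V)} (hA : Loopless A) : IsField (pr A) where
  nonneg := pr_nonneg A
  le_one := pr_le_one A
  lip := fun _ _ _ hδ e => pr_lip hA ((abs_nonneg _).trans (hδ e)) (fun f _ => hδ f) e

/-- convexity of `pr/c` in the conductances -/
lemma pr_convex {A : Finset (Sym2 V)} (hA : Loopless A) {h h1 h2 : Sym2 V → ℝ} {κ : ℝ}
    (hκ0 : 0 ≤ κ) (hκ1 : κ ≤ 1)
    (hh : ∀ f ∈ A, Real.exp (h f) = κ * Real.exp (h1 f) + (1 - κ) * Real.exp (h2 f))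
    {e : Sym2 V} (he : e ∈ A) :
    pr A h e / Real.exp (h e) ≤
      κ * (pr A h1 e / Real.exp (h1 e)) + (1 - κ) * (pr A h2 e / Real.exp (h2 e)) := by
  induction e with
  | _ a b =>
    obtain ⟨v, hv⟩ := kirchhoff_eq A hA h a b he
    have e1 := kirchhoff_le A hA h1 a b he v
    have e2 := kirchhoff_le A hA h2 a b he v
    have e3 : ∑ f ∈ A, Real.exp (h f) * sqd v f = κ * ∑ f ∈ A, Real.exp (h1 f) * sqd v f +
        (1 - κ) * ∑ f ∈ A, Real.exp (h2 f) * sqd v f := by
      rw [Finset.mul_sum, Finset.mul_sum, ← Finset.sum_add_distrib]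
      refine Finset.sum_congr rfl fun f hf => ?_
      rw [hh f hf]
      ring
    rw [← hv, e3]
    have e4 := mul_le_mul_of_nonneg_left e1 hκ0
    have e5 := mul_le_mul_of_nonneg_left e2 (sub_nonneg.2 hκ1)
    nlinarith

/-! ### infinite volume -/

/-- the terms of the infimum defining the free marginals -/
def pterm (G : SimpleGraph V) (h : Sym2 V → ℝ) (e : Sym2 V) (A : Finset (Sym2 V)) : ℝ :=
  if e ∈ A ∧ (A : Set (Sym2 V)) ⊆ G.edgeSet then pr A h e else 1

/-- the free marginals in infinite volume -/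
def pinf (G : SimpleGraph V) (h : Sym2 V → ℝ) (e : Sym2 V) : ℝ :=
  if e ∈ G.edgeSet then ⨅ A : Finset (Sym2 V), pterm G h e A else 0

lemma pterm_nonneg (G : SimpleGraph V) (h : Sym2 V → ℝ) (e : Sym2 V) (A : Finset (Sym2 V)) :
    0 ≤ pterm G h e A := by
  unfold pterm
  split_ifs
  · exact pr_nonneg _ _ _
  · exact zero_le_one

lemma pterm_le_one (G : SimpleGraph V) (h : Sym2 V → ℝ) (e : Sym2 V) (A : Finset (Sym2 V)) :
    pterm G h e A ≤ 1 := by
  unfold pterm
  split_ifs
  · exact pr_le_one _ _ _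
  · exact le_rfl

lemma bddBelow_pterm (G : SimpleGraph V) (h : Sym2 V → ℝ) (e : Sym2 V) :
    BddBelow (range fun A : Finset (Sym2 V) => pterm G h e A) :=
  ⟨0, by rintro _ ⟨A, rfl⟩; exact pterm_nonneg G h e A⟩

lemma loopless_of_subset {G : SimpleGraph V} {A : Finset (Sym2 V)}
    (hA : (A : Set (Sym2 V)) ⊆ G.edgeSet) : Loopless A := by
  intro f hf
  exact G.not_isDiag_of_mem_edgeSet (hA hf)

lemma pinf_le {G : SimpleGraph V} (h : Sym2 V → ℝ) {e : Sym2 V} {A : Finset (Sym2 V)}
    (he : e ∈ A) (hA : (A : Set (Sym2 V)) ⊆ G.edgeSet) : pinf G h e ≤ pr A h e := by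
  unfold pinf
  rw [if_pos (hA he)]
  refine (ciInf_le (bddBelow_pterm G h e) A).trans ?_
  unfold pterm
  rw [if_pos ⟨he, hA⟩]

lemma pterm_lip (G : SimpleGraph V) {h h' : Sym2 V → ℝ} {δ : ℝ} (hδ0 : 0 ≤ δ)
    (hδ : ∀ f ∈ G.edgeSet, |h f - h' f| ≤ δ) (e : Sym2 V) (A : Finset (Sym2 V)) :
    |pterm G h e A - pterm G h' e A| ≤ 2 * δ := by
  unfold pterm
  split_ifs with hc
  · exact pr_lip (loopless_of_subset hc.2) hδ0 (fun f hf => hδ f (hc.2 hf)) e
  · simp
    exact hδ0

lemma pinf_lip (G : SimpleGraph V) {h h' : Sym2 V → ℝ} {δ : ℝ} (hδ0 : 0 ≤ δ)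
    (hδ : ∀ f ∈ G.edgeSet, |h f - h' f| ≤ δ) (e : Sym2 V) :
    |pinf G h e - pinf G h' e| ≤ 2 * δ := by
  unfold pinf
  split_ifs with he
  · have key : ∀ h h' : Sym2 V → ℝ, (∀ f ∈ G.edgeSet, |h f - h' f| ≤ δ) →
        (⨅ A : Finset (Sym2 V), pterm G h e A) - 2 * δ ≤ ⨅ A : Finset (Sym2 V), pterm G h' e A := by
      intro h h' hh
      refine le_ciInf fun A => ?_
      have h1 := ciInf_le (bddBelow_pterm G h e) A
      have h2 := (abs_le.1 (pterm_lip G hδ0 hh e A)).2
      linarith
    rw [abs_le]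
    constructor
    · have := key h h' hδ
      have := key h' h (fun f hf => by rw [abs_sub_comm]; exact hδ f hf)
      linarith
    · have := key h h' hδ
      linarith
  · simp
    exact hδ0

lemma pinf_nonneg (G : SimpleGraph V) (h : Sym2 V → ℝ) (e : Sym2 V) : 0 ≤ pinf G h e := by
  unfold pinf
  split_ifs
  · exact Real.iInf_nonneg fun A => pterm_nonneg G h e A
  · exact le_rfl

lemma pinf_le_one (G : SimpleGraph V) (h : Sym2 V → ℝ) (e : Sym2 V) : pinf G h e ≤ 1 := by
  unfold pinf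
  split_ifs
  · exact (ciInf_le (bddBelow_pterm G h e) ∅).trans (pterm_le_one _ _ _ _)
  · exact zero_le_one

lemma isField_pinf (G : SimpleGraph V) : IsField (pinf G) where
  nonneg := pinf_nonneg G
  le_one := pinf_le_one G
  lip := fun _ _ _ hδ e => pinf_lip G ((abs_nonneg _).trans (hδ e)) (fun f _ => hδ f) e

lemma pinf_congr {G : SimpleGraph V} {h h' : Sym2 V → ℝ} (hh : ∀ f ∈ G.edgeSet, h f = h' f)
    (e : Sym2 V) : pinf G h e = pinf G h' e := by
  have := pinf_lip G le_rfl (h := h) (h' := h') (fun f hf => by rw [hh f hf]; simp) e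
  rw [mul_zero] at this
  have h2 := le_antisymm this (abs_nonneg _)
  linarith [abs_eq_zero.1 h2]

/-- one can approximate the infimum -/
lemma exists_pr_lt {G : SimpleGraph V} (h : Sym2 V → ℝ) {e : Sym2 V} (he : e ∈ G.edgeSet)
    {ε : ℝ} (hε : 0 < ε) :
    ∃ A : Finset (Sym2 V), e ∈ A ∧ (A : Set (Sym2 V)) ⊆ G.edgeSet ∧ pr A h e < pinf G h e + ε := by
  by_cases h1 : pinf G h e < 1
  · have h2 : (⨅ A : Finset (Sym2 V), pterm G h e A) < min (pinf G h e + ε) 1 := by
      have : (⨅ A : Finset (Sym2 V), pterm G h e A) = pinf G h e := by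
        unfold pinf
        rw [if_pos he]
      rw [this]
      exact lt_min (by linarith) h1
    obtain ⟨A, hA⟩ := exists_lt_of_ciInf_lt h2
    unfold pterm at hA
    split_ifs at hA with hc
    · exact ⟨A, hc.1, hc.2, hA.trans_le (min_le_left _ _)⟩
    · exact absurd (hA.trans_le (min_le_right _ _)) (lt_irrefl _)
  · refine ⟨{e}, Finset.mem_singleton_self e, by simpa using he, ?_⟩
    have := pr_le_one {e} h e
    linarith [not_lt.1 h1]

section Conv

variable {G : SimpleGraph V} {A : ℕ → Finset (Sym2 V)} (hmono : Monotone A)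
  (hunion : ∀ f, f ∈ G.edgeSet ↔ ∃ n, f ∈ A n)

include hmono hunion

lemma eventually_subset (B : Finset (Sym2 V)) (hB : (B : Set (Sym2 V)) ⊆ G.edgeSet) :
    ∀ᶠ n in atTop, B ⊆ A n := by
  have h1 : ∀ f ∈ B, ∀ᶠ n in atTop, f ∈ A n := by
    intro f hf
    obtain ⟨N, hN⟩ := (hunion f).1 (hB hf)
    filter_upwards [eventually_ge_atTop N] with n hn
    exact hmono hn hN
  have := (Finset.eventually_all B).2 h1
  filter_upwards [this] with n hn f hf using hn f hf

omit hmono in
lemma A_subset (n : ℕ) : (A n : Set (Sym2 V)) ⊆ G.edgeSet := fun f hf => (hunion f).2 ⟨n, hf⟩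

lemma pr_upper (l : Filter ℕ) (hl : l ≤ atTop) (hn : ℕ → Sym2 V → ℝ) (h : Sym2 V → ℝ)
    (hlim : ∀ f, Tendsto (fun n => hn n f) l (𝓝 (h f))) {e : Sym2 V} (he : e ∈ G.edgeSet)
    {ε : ℝ} (hε : 0 < ε) : ∀ᶠ n in l, pr (A n) (hn n) e ≤ pinf G h e + ε := by
  obtain ⟨B, heB, hB, hlt⟩ := exists_pr_lt h he (half_pos hε)
  have h1 : ∀ᶠ n in l, B ⊆ A n := hl (eventually_subset hmono hunion B hB)
  have h2 : ∀ᶠ n in l, ∀ f ∈ B, |hn n f - h f| ≤ ε / 4 := by
    rw [Finset.eventually_all B]
    intro f _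
    have := (hlim f).sub_const (h f)
    rw [sub_self] at this
    have h3 := this.abs
    rw [abs_zero] at h3
    exact (h3.eventually (gt_mem_nhds (by linarith : (0 : ℝ) < ε / 4))).mono fun n hn => hn.le
  filter_upwards [h1, h2] with n h1 h2
  have h3 := pr_antitone (loopless_of_subset (A_subset hunion n)) h1 heB (hn n)
  have h4 := (abs_le.1 (pr_lip (loopless_of_subset hB) (by linarith : (0 : ℝ) ≤ ε / 4) h2 e)).2
  linarith

lemma fieldConv_pr : FieldConv (fun n => pr (A n)) (pinf G) := by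
  intro l hl hn h C hb hb' hlim e
  by_cases he : e ∈ G.edgeSet
  swap
  · have h1 : ∀ n, pr (A n) (hn n) e = 0 := fun n =>
      pr_of_notMem _ fun hc => he ((hunion e).2 ⟨n, hc⟩)
    have h2 : pinf G h e = 0 := by
      unfold pinf
      rw [if_neg he]
    simp only [h1, h2]
    exact tendsto_const_nhds
  have hCnn : 0 ≤ C := (abs_nonneg _).trans (hb' e)
  -- the extrapolated conductances
  set κ : ℝ := Real.exp (-(2 * C)) / 2 with hκ
  have hκ0 : 0 < κ := by positivity
  have hκ1 : κ ≤ 1 / 2 := by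
    have : Real.exp (-(2 * C)) ≤ 1 := Real.exp_le_one_iff.2 (by linarith)
    linarith
  have h1κ : 0 < 1 - κ := by linarith
  set c' : ℕ → Sym2 V → ℝ := fun n f => (Real.exp (h f) - κ * Real.exp (hn n f)) / (1 - κ) with hc'
  have hc'pos : ∀ n f, 0 < c' n f := by
    intro n f
    have h1 : κ * Real.exp (hn n f) ≤ Real.exp (h f) / 2 := by
      rw [hκ, div_mul_eq_mul_div, ← Real.exp_add]
      have h2 := (abs_le.1 (hb n f)).2
      have h3 := (abs_le.1 (hb' f)).1
      have : Real.exp (-(2 * C) + hn n f) ≤ Real.exp (h f) := Real.exp_le_exp.2 (by linarith)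
      linarith
    have h4 := Real.exp_pos (h f)
    exact div_pos (by linarith) h1κ
  set h' : ℕ → Sym2 V → ℝ := fun n f => Real.log (c' n f) with hh'
  have hexp' : ∀ n f, Real.exp (h' n f) = c' n f := fun n f => Real.exp_log (hc'pos n f)
  have hclim : ∀ f, Tendsto (fun n => c' n f) l (𝓝 (Real.exp (h f))) := by
    intro f
    have h1 : Tendsto (fun n => Real.exp (hn n f)) l (𝓝 (Real.exp (h f))) :=
      (Real.continuous_exp.tendsto _).comp (hlim f)
    have h2 := ((h1.const_mul κ).const_sub (Real.exp (h f))).div_const (1 - κ)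
    have h3 : (Real.exp (h f) - κ * Real.exp (h f)) / (1 - κ) = Real.exp (h f) := by
      field_simp
    rw [h3] at h2
    exact h2
  have hlim' : ∀ f, Tendsto (fun n => h' n f) l (𝓝 (h f)) := by
    intro f
    have h1 := (hclim f).log (Real.exp_pos _).ne'
    rw [Real.log_exp] at h1
    exact h1
  have hcn : Tendsto (fun n => Real.exp (hn n e)) l (𝓝 (Real.exp (h e))) :=
    (Real.continuous_exp.tendsto _).comp (hlim e)
  have heA : ∀ᶠ n in l, e ∈ A n := by
    have := hl (eventually_subset hmono hunion {e} (by simpa using he))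
    filter_upwards [this] with n hn using hn (Finset.mem_singleton_self e)
  -- lower bound
  have lower : ∀ ε > 0, ∀ᶠ n in l, pinf G h e - ε < pr (A n) (hn n) e := by
    intro ε hε
    set ε' : ℝ := ε * κ / 2 with hε'
    have hε'0 : 0 < ε' := by positivity
    have hu := pr_upper hmono hunion l hl h' h hlim' he hε'0
    -- the limit of the lower bound
    have hL : Tendsto (fun n => Real.exp (hn n e) / κ * (pinf G h e / Real.exp (h e) -
        (1 - κ) * ((pinf G h e + ε') / c' n e))) l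
        (𝓝 (Real.exp (h e) / κ * (pinf G h e / Real.exp (h e) -
        (1 - κ) * ((pinf G h e + ε') / Real.exp (h e))))) := by
      refine (hcn.div_const κ).mul (tendsto_const_nhds.sub (Tendsto.const_mul (1 - κ) ?_))
      exact tendsto_const_nhds.div (hclim e) (Real.exp_pos _).ne'
    have hval : Real.exp (h e) / κ * (pinf G h e / Real.exp (h e) -
        (1 - κ) * ((pinf G h e + ε') / Real.exp (h e))) = pinf G h e - (1 - κ) / κ * ε' := by
      have : Real.exp (h e) ≠ 0 := (Real.exp_pos _).ne'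
      field_simp
      ring
    rw [hval] at hL
    have hgt : pinf G h e - ε < pinf G h e - (1 - κ) / κ * ε' := by
      have : (1 - κ) / κ * ε' = (1 - κ) * ε / 2 := by
        rw [hε']
        field_simp
      rw [this]
      nlinarith
    have hev := hL.eventually (lt_mem_nhds hgt)
    filter_upwards [hu, heA, hev] with n hu heA hev
    refine hev.trans_le ?_
    have hconv := pr_convex (loopless_of_subset (A_subset hunion n)) hκ0.le
      (by linarith : κ ≤ 1) (h := h) (h1 := hn n) (h2 := h' n) (fun f _ => by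
        rw [hexp' n f]
        simp only [hc']
        field_simp
        ring) heA
    have hge := pinf_le (G := G) h heA (A_subset hunion n)
    rw [hexp' n e] at hconv
    have e1 : pinf G h e / Real.exp (h e) ≤ pr (A n) h e / Real.exp (h e) :=
      div_le_div_of_nonneg_right hge (Real.exp_pos _).le
    have e2 : pr (A n) (h' n) e / c' n e ≤ (pinf G h e + ε') / c' n e :=
      div_le_div_of_nonneg_right hu (hc'pos n e).le
    have e3 : pinf G h e / Real.exp (h e) - (1 - κ) * ((pinf G h e + ε') / c' n e) ≤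
        κ * (pr (A n) (hn n) e / Real.exp (hn n e)) := by
      have := mul_le_mul_of_nonneg_left e2 h1κ.le
      linarith
    have e4 := mul_le_mul_of_nonneg_left e3
      (div_nonneg (Real.exp_pos (hn n e)).le hκ0.le)
    refine e4.trans (le_of_eq ?_)
    have : Real.exp (hn n e) ≠ 0 := (Real.exp_pos _).ne'
    field_simp
  rw [Metric.tendsto_nhds]
  intro ε hε
  filter_upwards [lower ε hε, pr_upper hmono hunion l hl hn h hlim he (half_pos hε)] with n h1 h2
  rw [Real.dist_eq, abs_lt]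
  constructor <;> linarith

end Conv

end

end Vale.Agent.P143
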