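import Mathlib
import Vale.Agent.P143.Field

/-! P143: measurability and equivariance of the free marginals. -/

namespace Vale.Agent.P143

open MeasureTheory Filter Topology Set

noncomputable section

open Classical

variable {V : Type*}

lemma measurable_pr (A : Finset (Sym2 V)) (e : Sym2 V) :
    Measurable (fun h : Sym2 V → ℝ => pr A h e) := by
  unfold pr wt
  apply Measurable.div <;>
  · apply Finset.measurable_sum
    intro T _
    apply Finset.measurable_prod
    intro f _
    exact Real.measurable_exp.comp (measurable_pi_apply f)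

lemma measurableSet_mem_edgeSet (f : Sym2 V) : MeasurableSet {G : SimpleGraph V | f ∈ G.edgeSet} :=
  measurableSet_setOf.2 (measurable_set_iff.1 SimpleGraph.measurable_edgeSet f)

lemma measurable_pinf [Countable V] (e : Sym2 V) :
    Measurable (fun p : SimpleGraph V × (Sym2 V → ℝ) => pinf p.1 p.2 e) := by
  unfold pinf
  refine Measurable.ite ?_ ?_ measurable_const
  · exact measurable_fst (measurableSet_mem_edgeSet e)
  · refine Measurable.iInf fun A => ?_
    unfold pterm
    refine Measurable.ite ?_ ((measurable_pr A e).comp measurable_snd) measurable_const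
    have : {p : SimpleGraph V × (Sym2 V → ℝ) | e ∈ A ∧ (A : Set (Sym2 V)) ⊆ p.1.edgeSet} =
        {p | e ∈ A} ∩ ⋂ f ∈ A, {p | f ∈ p.1.edgeSet} := by
      ext p
      simp only [mem_setOf_eq, mem_inter_iff, mem_iInter]
      rfl
    rw [this]
    refine (MeasurableSet.const _).inter ?_
    refine Finset.measurableSet_biInter A fun f _ => ?_
    exact measurable_fst (measurableSet_mem_edgeSet f)

/-- action of a permutation of the vertices on unordered pairs -/
def symE (σ : Equiv.Perm V) : Sym2 V ≃ Sym2 V where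
  toFun := Sym2.map σ
  invFun := Sym2.map σ.symm
  left_inv := by
    intro f
    rw [Sym2.map_map]
    simp
  right_inv := by
    intro f
    rw [Sym2.map_map]
    simp

lemma symE_mk (σ : Equiv.Perm V) (x y : V) : symE σ s(x, y) = s(σ x, σ y) := rfl

lemma symE_symm (σ : Equiv.Perm V) : (symE σ).symm = symE σ.symm := rfl

lemma fromEdgeSet_map (σ : Equiv.Perm V) (T : Finset (Sym2 V)) :
    SimpleGraph.fromEdgeSet ((T.map (symE σ).toEmbedding : Finset (Sym2 V)) : Set (Sym2 V)) =
      (SimpleGraph.fromEdgeSet (T : Set (Sym2 V))).map σ.toEmbedding := by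
  ext u v
  obtain ⟨u, rfl⟩ := σ.surjective u
  obtain ⟨v, rfl⟩ := σ.surjective v
  have h1 : ((SimpleGraph.fromEdgeSet (T : Set (Sym2 V))).map σ.toEmbedding).Adj (σ u) (σ v) ↔
      (SimpleGraph.fromEdgeSet (T : Set (Sym2 V))).Adj u v :=
    SimpleGraph.map_adj_apply (f := σ.toEmbedding)
  rw [h1]
  simp only [SimpleGraph.fromEdgeSet_adj, Finset.coe_map, mem_image, Finset.mem_coe, ne_eq,
    EmbeddingLike.apply_eq_iff_eq]
  refine and_congr_left fun _ => ?_
  constructor
  · rintro ⟨f, hf, hfe⟩
    have : f = s(u, v) := (symE σ).injective (by rw [symE_mk]; exact hfe)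
    rwa [← this]
  · intro h
    exact ⟨_, h, symE_mk σ u v⟩

lemma isSF_map (σ : Equiv.Perm V) {A T : Finset (Sym2 V)} (h : IsSF A T) :
    IsSF (A.map (symE σ).toEmbedding) (T.map (symE σ).toEmbedding) := by
  obtain ⟨h1, h2, h3⟩ := h
  refine ⟨Finset.map_subset_map.2 h1, ?_, ?_⟩
  · rw [fromEdgeSet_map]
    exact (SimpleGraph.Iso.isAcyclic_iff (SimpleGraph.Iso.map σ _)).1 h2
  · intro u v
    rw [fromEdgeSet_map, fromEdgeSet_map]
    obtain ⟨u, rfl⟩ := σ.surjective u
    obtain ⟨v, rfl⟩ := σ.surjective v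
    intro h
    have e1 := (SimpleGraph.Iso.reachable_iff
      (φ := SimpleGraph.Iso.map σ (SimpleGraph.fromEdgeSet (A : Set (Sym2 V)))) (u := u) (v := v)).1 h
    exact (SimpleGraph.Iso.reachable_iff
      (φ := SimpleGraph.Iso.map σ (SimpleGraph.fromEdgeSet (T : Set (Sym2 V)))) (u := u) (v := v)).2
      (h3 u v e1)

lemma map_map_symm (σ : Equiv.Perm V) (A : Finset (Sym2 V)) :
    (A.map (symE σ).toEmbedding).map (symE σ.symm).toEmbedding = A := by
  ext f
  simp only [Finset.mem_map, Equiv.coe_toEmbedding]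
  constructor
  · rintro ⟨_, ⟨g, hg, rfl⟩, rfl⟩
    rw [← symE_symm, Equiv.symm_apply_apply]
    exact hg
  · intro hf
    exact ⟨symE σ f, ⟨f, hf, rfl⟩, by rw [← symE_symm, Equiv.symm_apply_apply]⟩

lemma mem_SF_map (σ : Equiv.Perm V) {A T : Finset (Sym2 V)} (h : T ∈ SF A) :
    T.map (symE σ).toEmbedding ∈ SF (A.map (symE σ).toEmbedding) :=
  mem_SF.2 (isSF_map σ (mem_SF.1 h))

lemma wt_map (σ : Equiv.Perm V) (h : Sym2 V → ℝ) (T : Finset (Sym2 V)) :
    wt (fun f => h ((symE σ).symm f)) (T.map (symE σ).toEmbedding) = wt h T := by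
  unfold wt
  rw [Finset.prod_map]
  refine Finset.prod_congr rfl fun f _ => ?_
  simp

lemma mem_map_symE (σ : Equiv.Perm V) (e : Sym2 V) (T : Finset (Sym2 V)) :
    symE σ e ∈ T.map (symE σ).toEmbedding ↔ e ∈ T := by
  simp only [Finset.mem_map, Equiv.coe_toEmbedding]
  constructor
  · rintro ⟨g, hg, h⟩
    rwa [← (symE σ).injective h]
  · intro h
    exact ⟨e, h, rfl⟩

lemma pr_map (σ : Equiv.Perm V) (A : Finset (Sym2 V)) (h : Sym2 V → ℝ) (e : Sym2 V) :
    pr (A.map (symE σ).toEmbedding) (fun f => h ((symE σ).symm f)) (symE σ e) = pr A h e := by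
  unfold pr
  congr 1
  · refine Finset.sum_nbij' (fun T => T.map (symE σ.symm).toEmbedding)
      (fun T => T.map (symE σ).toEmbedding) ?_ ?_ ?_ ?_ ?_
    · intro T hT
      rw [Finset.mem_filter] at hT ⊢
      have h1 := mem_SF_map σ.symm hT.1
      rw [map_map_symm] at h1
      refine ⟨h1, ?_⟩
      have h2 := (mem_map_symE σ.symm (symE σ e) T).2 hT.2
      rwa [← symE_symm, Equiv.symm_apply_apply] at h2
    · intro T hT
      rw [Finset.mem_filter] at hT ⊢
      exact ⟨mem_SF_map σ hT.1, (mem_map_symE σ e T).2 hT.2⟩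
    · intro T _
      exact map_map_symm σ.symm T
    · intro T _
      exact map_map_symm σ T
    · intro T _
      conv_lhs => rw [← map_map_symm σ.symm T]
      exact wt_map σ h _
  · refine Finset.sum_nbij' (fun T => T.map (symE σ.symm).toEmbedding)
      (fun T => T.map (symE σ).toEmbedding) ?_ ?_ ?_ ?_ ?_
    · intro T hT
      have h1 := mem_SF_map σ.symm hT
      rwa [map_map_symm] at h1
    · intro T hT
      exact mem_SF_map σ hT
    · intro T _
      exact map_map_symm σ.symm T
    · intro T _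
      exact map_map_symm σ T
    · intro T _
      conv_lhs => rw [← map_map_symm σ.symm T]
      exact wt_map σ h _

lemma mem_edgeSet_map (σ : Equiv.Perm V) (G : SimpleGraph V) (e : Sym2 V) :
    symE σ e ∈ (G.map σ.toEmbedding).edgeSet ↔ e ∈ G.edgeSet := by
  induction e with
  | _ x y =>
    rw [symE_mk, SimpleGraph.mem_edgeSet, SimpleGraph.mem_edgeSet]
    exact SimpleGraph.map_adj_apply (f := σ.toEmbedding)

lemma pterm_map (σ : Equiv.Perm V) (G : SimpleGraph V) (A : Finset (Sym2 V)) (h : Sym2 V → ℝ)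
    (e : Sym2 V) :
    pterm (G.map σ.toEmbedding) (fun f => h ((symE σ).symm f)) (symE σ e)
      (A.map (symE σ).toEmbedding) = pterm G h e A := by
  unfold pterm
  rw [pr_map]
  have h1 : (symE σ e ∈ A.map (symE σ).toEmbedding ∧
      ((A.map (symE σ).toEmbedding : Finset (Sym2 V)) : Set (Sym2 V)) ⊆
        (G.map σ.toEmbedding).edgeSet) ↔ (e ∈ A ∧ (A : Set (Sym2 V)) ⊆ G.edgeSet) := by
    rw [mem_map_symE]
    refine and_congr_right fun _ => ?_
    constructor
    · intro h f hf
      exact (mem_edgeSet_map σ G f).1 (h (by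
        rw [Finset.mem_coe]
        exact (mem_map_symE σ f A).2 hf))
    · intro h f hf
      rw [Finset.mem_coe] at hf
      obtain ⟨g, hg, rfl⟩ := Finset.mem_map.1 hf
      exact (mem_edgeSet_map σ G g).2 (h hg)
  simp only [h1]

lemma pinf_map (σ : Equiv.Perm V) (G : SimpleGraph V) (h : Sym2 V → ℝ) (e : Sym2 V) :
    pinf (G.map σ.toEmbedding) (fun f => h ((symE σ).symm f)) (symE σ e) = pinf G h e := by
  unfold pinf
  have h1 : (⨅ A : Finset (Sym2 V), pterm (G.map σ.toEmbedding)
      (fun f => h ((symE σ).symm f)) (symE σ e) A) = ⨅ A : Finset (Sym2 V), pterm G h e A := by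
    rw [← (symE σ).finsetCongr.iInf_congr (f := fun A => pterm G h e A)]
    intro A
    rw [Equiv.finsetCongr_apply]
    exact pterm_map σ G A h e
  rw [h1]
  simp only [mem_edgeSet_map]

end

end Vale.Agent.P143
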