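import Mathlib
import Vale.Agent.P143.Field

/-! P143: the posterior means of the noisy observations are tilted marginals. -/

namespace Vale.Agent.P143

open MeasureTheory Filter Topology Set

noncomputable section

open Classical

variable {V : Type*}

/-- label of the item `(f, j)` : edge `f` in round `j` -/
def lab (t : Sym2 V → unitInterval) (A : Finset (Sym2 V)) (K : ℕ) (p : A × Fin K) : ℝ :=
  2 * (p.2 : ℕ) + (t p.1 : ℝ)

lemma lab_lt_iff (t : Sym2 V → unitInterval) (A : Finset (Sym2 V)) (K : ℕ) (p q : A × Fin K) :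
    lab t A K p < lab t A K q ↔
      (p.2 : ℕ) < q.2 ∨ ((p.2 : ℕ) = q.2 ∧ t p.1 < t q.1) := by
  unfold lab
  have h1 := (t p.1).2
  have h2 := (t q.1).2
  constructor
  · intro h
    rcases lt_trichotomy (p.2 : ℕ) (q.2 : ℕ) with h3 | h3 | h3
    · exact Or.inl h3
    · refine Or.inr ⟨h3, ?_⟩
      rw [h3] at h
      have h4 : ((t p.1 : unitInterval) : ℝ) < t q.1 := by linarith
      exact_mod_cast h4
    · exfalso
      have h4 : ((q.2 : ℕ) : ℝ) + 1 ≤ (p.2 : ℕ) := by exact_mod_cast h3
      linarith [h1.1, h2.2]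
  · rintro (h3 | ⟨h3, h4⟩)
    · have h4 : ((p.2 : ℕ) : ℝ) + 1 ≤ (q.2 : ℕ) := by exact_mod_cast h3
      linarith [h2.1, h1.2]
    · rw [h3]
      have h5 : ((t p.1 : unitInterval) : ℝ) < t q.1 := by exact_mod_cast h4
      linarith

lemma lab_injective (t : Sym2 V → unitInterval) (A : Finset (Sym2 V)) (K : ℕ)
    (ht : ∀ e ∈ A, ∀ f ∈ A, t e = t f → e = f) : Function.Injective (lab t A K) := by
  intro p q hpq
  have h1 := (lab_lt_iff t A K p q).not.1 hpq.not_lt
  have h2 := (lab_lt_iff t A K q p).not.1 hpq.not_gt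
  push Not at h1 h2
  have h3 : (p.2 : ℕ) = q.2 := le_antisymm h2.1 h1.1
  have h4 : t p.1 = t q.1 := le_antisymm (h2.2 h3.symm) (h1.2 h3)
  have h5 : p.1 = q.1 := Subtype.ext (ht _ p.1.2 _ q.1.2 h4)
  exact Prod.ext h5 (Fin.ext h3)

lemma one_add_sgn {y : ℝ} (hy : y ∈ Icc (-1 : ℝ) 1) (b : Bool) :
    1 + sgn b * y / 4 = (1 - y / 4) * (if b then Real.exp (eta y) else 1) := by
  have h1 : (0 : ℝ) < 1 + y / 4 := by linarith [hy.1]
  have h2 : (0 : ℝ) < 1 - y / 4 := by linarith [hy.2]
  cases b
  · simp [sgn]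
    ring
  · simp only [sgn, if_true]
    unfold eta
    rw [Real.exp_log (div_pos h1 h2), mul_div_cancel₀ _ h2.ne', one_mul]

lemma posterior_eq (A : Finset (Sym2 V)) (K : ℕ) (t : Sym2 V → unitInterval)
    (Y : ℕ → Sym2 V → ℝ) (hY : ∀ j f, Y j f ∈ Icc (-1 : ℝ) 1) (q : A × Fin K) :
    post (lab t A K) (fun _ : {T // T ∈ SF A} => (1 : ℝ) / (SF A).card)
      (fun ω p => decide ((p.1 : Sym2 V) ∈ ω.1)) (fun p => Y p.2 p.1) q =
    2 * pr A (fun f => (∑ j ∈ Finset.range q.2, eta (Y j f)) +
      if t f < t q.1 then eta (Y q.2 f) else 0) q.1 - 1 := by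
  set h : Sym2 V → ℝ := fun f => (∑ j ∈ Finset.range q.2, eta (Y j f)) +
      if t f < t q.1 then eta (Y q.2 f) else 0 with hh
  set N : ℝ := ((SF A).card : ℝ) with hN
  have hNpos : 0 < N := by
    rw [hN]
    exact_mod_cast (SF_nonempty A).card_pos
  set C : ℝ := ∏ p ∈ Finset.univ.filter (fun p => lab t A K p < lab t A K q),
      (1 - Y p.2 p.1 / 4) with hC
  have hCpos : 0 < C := by
    rw [hC]
    refine Finset.prod_pos fun p _ => ?_
    have := (hY p.2 p.1).2
    linarith
  have hprod : ∀ T ∈ SF A, (∏ p ∈ Finset.univ.filter (fun p => lab t A K p < lab t A K q),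
      (1 + sgn (decide ((p.1 : Sym2 V) ∈ T)) * Y p.2 p.1 / 4)) = C * wt h T := by
    intro T hT
    have h1 : (∏ p ∈ Finset.univ.filter (fun p => lab t A K p < lab t A K q),
        (1 + sgn (decide ((p.1 : Sym2 V) ∈ T)) * Y p.2 p.1 / 4)) =
        C * ∏ p ∈ Finset.univ.filter (fun p => lab t A K p < lab t A K q),
          (if (p.1 : Sym2 V) ∈ T then Real.exp (eta (Y p.2 p.1)) else 1) := by
      rw [hC, ← Finset.prod_mul_distrib]
      refine Finset.prod_congr rfl fun p _ => ?_
      rw [one_add_sgn (hY _ _)]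
      simp
    rw [h1]
    congr 1
    have h2 : (∏ p ∈ Finset.univ.filter (fun p : A × Fin K => lab t A K p < lab t A K q),
          (if (p.1 : Sym2 V) ∈ T then Real.exp (eta (Y p.2 p.1)) else 1)) =
        ∏ p : A × Fin K, (if lab t A K p < lab t A K q then
          (if (p.1 : Sym2 V) ∈ T then Real.exp (eta (Y p.2 p.1)) else 1) else 1) := by
      rw [Finset.prod_filter]
    rw [h2, Fintype.prod_prod_type]
    have h3 : ∀ f : A, (∏ j : Fin K, (if lab t A K (f, j) < lab t A K q then
          (if (f : Sym2 V) ∈ T then Real.exp (eta (Y j f)) else 1) else 1)) =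
        if (f : Sym2 V) ∈ T then Real.exp (h f) else 1 := by
      intro f
      by_cases hf : (f : Sym2 V) ∈ T
      · simp only [if_pos hf]
        rw [hh]
        simp only
        rw [Real.exp_add, Real.exp_sum]
        have h4 : ∀ j : Fin K, (if lab t A K (f, j) < lab t A K q then
            Real.exp (eta (Y j f)) else 1) =
            (if (j : ℕ) < q.2 then Real.exp (eta (Y j f)) else 1) *
            (if j = q.2 then (if t f < t q.1 then Real.exp (eta (Y j f)) else 1) else 1) := by
          intro j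
          by_cases hj : (j : ℕ) < q.2
          · have : j ≠ q.2 := fun hc => by rw [hc] at hj; exact lt_irrefl _ hj
            rw [if_pos ((lab_lt_iff t A K (f, j) q).2 (Or.inl hj)), if_pos hj, if_neg this, mul_one]
          · by_cases hj2 : j = q.2
            · subst hj2
              by_cases ht : t f < t q.1
              · rw [if_pos ((lab_lt_iff t A K (f, q.2) q).2 (Or.inr ⟨rfl, ht⟩)), if_neg hj]
                simp [ht]
              · rw [if_neg (fun hc => by
                  rcases (lab_lt_iff t A K (f, q.2) q).1 hc with h5 | h5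
                  · exact hj h5
                  · exact ht h5.2), if_neg hj]
                simp [ht]
            · rw [if_neg (fun hc => by
                rcases (lab_lt_iff t A K (f, j) q).1 hc with h5 | h5
                · exact hj h5
                · exact hj2 (Fin.ext h5.1)), if_neg hj, if_neg hj2, mul_one]
        rw [Finset.prod_congr rfl fun j _ => h4 j, Finset.prod_mul_distrib, Finset.prod_ite_eq' ]
        simp only [Finset.mem_univ, if_true]
        congr 1
        · rw [← Finset.prod_filter]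
          refine Finset.prod_nbij (fun j : Fin K => (j : ℕ)) ?_ ?_ ?_ ?_
          · intro j hj
            simp only [Finset.mem_filter, Finset.mem_univ, true_and] at hj
            exact Finset.mem_range.2 hj
          · intro i _ j _ hij
            exact Fin.ext hij
          · intro i hi
            rw [Finset.mem_coe, Finset.mem_range] at hi
            refine ⟨⟨i, hi.trans q.2.2⟩, ?_, rfl⟩
            rw [Finset.mem_coe, Finset.mem_filter]
            exact ⟨Finset.mem_univ _, hi⟩
          · intro j _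
            rfl
        · split_ifs <;> simp
      · simp only [if_neg hf]
        simp
    rw [Finset.prod_congr rfl fun f _ => h3 f]
    unfold wt
    have h5 := Finset.prod_coe_sort A (fun f => if f ∈ T then Real.exp (h f) else 1)
    rw [h5, ← Finset.prod_filter]
    refine Finset.prod_congr ?_ fun _ _ => rfl
    ext f
    simp only [Finset.mem_filter]
    exact ⟨fun h => h.2, fun h => ⟨subset_of_mem_SF hT h, h⟩⟩
  unfold post
  have hden : (∑ ω : {T // T ∈ SF A}, 1 / N *
      ∏ p ∈ Finset.univ.filter (fun p => lab t A K p < lab t A K q),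
        (1 + sgn (decide ((p.1 : Sym2 V) ∈ ω.1)) * Y p.2 p.1 / 4)) =
      (C / N) * ∑ T ∈ SF A, wt h T := by
    rw [← Finset.sum_coe_sort (SF A) (fun T => wt h T), Finset.mul_sum]
    refine Finset.sum_congr rfl fun ω _ => ?_
    rw [hprod ω.1 ω.2]
    ring
  have hnum : (∑ ω : {T // T ∈ SF A}, 1 / N * sgn (decide ((q.1 : Sym2 V) ∈ ω.1)) *
      ∏ p ∈ Finset.univ.filter (fun p => lab t A K p < lab t A K q),
        (1 + sgn (decide ((p.1 : Sym2 V) ∈ ω.1)) * Y p.2 p.1 / 4)) =
      (C / N) * (2 * (∑ T ∈ (SF A).filter (fun T => (q.1 : Sym2 V) ∈ T), wt h T) -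
        ∑ T ∈ SF A, wt h T) := by
    have e1 : (2 * (∑ T ∈ (SF A).filter (fun T => (q.1 : Sym2 V) ∈ T), wt h T) -
        ∑ T ∈ SF A, wt h T) = ∑ T ∈ SF A, sgn (decide ((q.1 : Sym2 V) ∈ T)) * wt h T := by
      rw [Finset.sum_filter, Finset.mul_sum, ← Finset.sum_sub_distrib]
      refine Finset.sum_congr rfl fun T _ => ?_
      by_cases hq : (q.1 : Sym2 V) ∈ T
      · simp [hq, sgn]
        ring
      · simp [hq, sgn]
    rw [e1, ← Finset.sum_coe_sort (SF A)
      (fun T => sgn (decide ((q.1 : Sym2 V) ∈ T)) * wt h T), Finset.mul_sum]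
    refine Finset.sum_congr rfl fun ω _ => ?_
    rw [hprod ω.1 ω.2]
    ring
  have hZ : 0 < ∑ T ∈ SF A, wt h T := Z_pos A h
  rw [hnum, hden]
  unfold pr
  field_simp

end

end Vale.Agent.P143
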