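import Mathlib
import Vale.Agent.P143.Rounds

/-! P143: measurability, equivariance and locality of the revealed observations. -/

namespace Vale.Agent.P143

open MeasureTheory Filter Topology Set

noncomputable section

open Classical

variable {E : Type*}

section Meas

variable {𝒢 Ω : Type*} [MeasurableSpace 𝒢] [MeasurableSpace Ω]

lemma measurable_seen [Countable E] (t : Ω → E → unitInterval) (H y : Ω → E → ℝ)
    (ht : Measurable t) (hH : Measurable H) (hy : Measurable y) (e : E) :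
    Measurable (fun ω => seen (t ω) (H ω) (y ω) e) := by
  rw [measurable_pi_iff]
  intro f
  unfold seen
  refine ((measurable_pi_apply f).comp hH).add ?_
  refine Measurable.ite ?_ (measurable_eta.comp ((measurable_pi_apply f).comp hy))
    measurable_const
  exact measurableSet_lt ((measurable_pi_apply f).comp ht) ((measurable_pi_apply e).comp ht)

lemma measurable_stage [Countable E] {Q : unitInterval → ℝ → ℝ} (hQ : IsChannel Q)
    {m : 𝒢 → (E → ℝ) → E → ℝ} (hmeas : ∀ e, Measurable (fun p : 𝒢 × (E → ℝ) => m p.1 p.2 e))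
    (g : Ω → 𝒢) (t ξ : Ω → E → unitInterval) (H y : Ω → E → ℝ) (hg : Measurable g)
    (ht : Measurable t) (hξ : Measurable ξ) (hH : Measurable H) (hy : Measurable y) :
    Measurable (fun ω => stage Q (m (g ω)) (t ω) (ξ ω) (H ω) (y ω)) := by
  rw [measurable_pi_iff]
  intro e
  unfold stage
  have h1 : Measurable (fun ω => m (g ω) (seen (t ω) (H ω) (y ω) e) e) :=
    (hmeas e).comp (hg.prodMk (measurable_seen t H y ht hH hy e))
  exact hQ.meas.comp (((measurable_pi_apply e).comp hξ).prodMk ((h1.const_mul 2).sub_const 1))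

lemma measurable_iter [Countable E] {Q : unitInterval → ℝ → ℝ} (hQ : IsChannel Q)
    {m : 𝒢 → (E → ℝ) → E → ℝ} (hmeas : ∀ e, Measurable (fun p : 𝒢 × (E → ℝ) => m p.1 p.2 e))
    (g : Ω → 𝒢) (t ξ : Ω → E → unitInterval) (H : Ω → E → ℝ) (hg : Measurable g)
    (ht : Measurable t) (hξ : Measurable ξ) (hH : Measurable H) (n : ℕ) :
    Measurable (fun ω => iter Q (m (g ω)) (t ω) (ξ ω) (H ω) n) := by
  induction n with
  | zero => exact measurable_const
  | succ n ih => exact measurable_stage hQ hmeas g t ξ H _ hg ht hξ hH ih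

lemma measurable_sol [Countable E] {Q : unitInterval → ℝ → ℝ} (hQ : IsChannel Q)
    {m : 𝒢 → (E → ℝ) → E → ℝ} (hm : ∀ g, IsField (m g))
    (hmeas : ∀ e, Measurable (fun p : 𝒢 × (E → ℝ) => m p.1 p.2 e))
    (g : Ω → 𝒢) (t ξ : Ω → E → unitInterval) (H : Ω → E → ℝ) (hg : Measurable g)
    (ht : Measurable t) (hξ : Measurable ξ) (hH : Measurable H) :
    Measurable (fun ω => sol Q (m (g ω)) (t ω) (ξ ω) (H ω)) := by
  rw [measurable_pi_iff]
  intro e
  refine measurable_of_tendsto_metrizable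
    (f := fun n ω => iter Q (m (g ω)) (t ω) (ξ ω) (H ω) n e)
    (fun n => (measurable_pi_apply e).comp (measurable_iter hQ hmeas g t ξ H hg ht hξ hH n)) ?_
  rw [tendsto_pi_nhds]
  intro ω
  exact iter_tendsto hQ (hm _) _ _ _ _

lemma measurable_fieldAt [Countable E] {Q : unitInterval → ℝ → ℝ} (hQ : IsChannel Q)
    {m : 𝒢 → (E → ℝ) → E → ℝ} (hm : ∀ g, IsField (m g))
    (hmeas : ∀ e, Measurable (fun p : 𝒢 × (E → ℝ) => m p.1 p.2 e))
    (g : Ω → 𝒢) (t : Ω → E → unitInterval) (ξ : Ω → E × ℕ → unitInterval) (hg : Measurable g)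
    (ht : Measurable t) (hξ : Measurable ξ) (k : ℕ) :
    Measurable (fun ω => fieldAt Q (m (g ω)) (t ω) (ξ ω) k) := by
  induction k with
  | zero => exact measurable_const
  | succ k ih =>
    have h1 : Measurable (fun ω => fun e => ξ ω (e, k)) := by
      rw [measurable_pi_iff]
      intro e
      exact (measurable_pi_apply (e, k)).comp hξ
    have h2 := measurable_sol hQ hm hmeas g t _ _ hg ht h1 ih
    rw [measurable_pi_iff]
    intro e
    simp only [fieldAt]
    exact ((measurable_pi_apply e).comp ih).add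
      (measurable_eta.comp ((measurable_pi_apply e).comp h2))

lemma measurable_obs [Countable E] {Q : unitInterval → ℝ → ℝ} (hQ : IsChannel Q)
    {m : 𝒢 → (E → ℝ) → E → ℝ} (hm : ∀ g, IsField (m g))
    (hmeas : ∀ e, Measurable (fun p : 𝒢 × (E → ℝ) => m p.1 p.2 e))
    (g : Ω → 𝒢) (t : Ω → E → unitInterval) (ξ : Ω → E × ℕ → unitInterval) (hg : Measurable g)
    (ht : Measurable t) (hξ : Measurable ξ) (k : ℕ) (e : E) :
    Measurable (fun ω => obs Q (m (g ω)) (t ω) (ξ ω) k e) := by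
  have h1 : Measurable (fun ω => fun e => ξ ω (e, k)) := by
    rw [measurable_pi_iff]
    intro e
    exact (measurable_pi_apply (e, k)).comp hξ
  exact (measurable_pi_apply e).comp
    (measurable_sol hQ hm hmeas g t _ _ hg ht h1 (measurable_fieldAt hQ hm hmeas g t ξ hg ht hξ k))

end Meas

section Equiv

variable {E' : Type*}

lemma iter_equiv (Q : unitInterval → ℝ → ℝ) (σ : E ≃ E') {m : (E → ℝ) → E → ℝ}
    {m' : (E' → ℝ) → E' → ℝ} (hmm : ∀ h e, m' (fun f => h (σ.symm f)) (σ e) = m h e)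
    (t ξ : E → unitInterval) (H : E → ℝ) (n : ℕ) :
    ∀ e, iter Q m' (fun f => t (σ.symm f)) (fun f => ξ (σ.symm f)) (fun f => H (σ.symm f)) n
      (σ e) = iter Q m t ξ H n e := by
  induction n with
  | zero => intro e; rfl
  | succ n ih =>
    intro e
    have h1 : seen (fun f => t (σ.symm f)) (fun f => H (σ.symm f))
        (iter Q m' (fun f => t (σ.symm f)) (fun f => ξ (σ.symm f)) (fun f => H (σ.symm f)) n)
        (σ e) = fun f => seen t H (iter Q m t ξ H n) e (σ.symm f) := by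
      funext f
      obtain ⟨f, rfl⟩ := σ.surjective f
      simp only [seen, σ.symm_apply_apply]
      rw [ih f]
    simp only [iter, stage]
    rw [h1, hmm, σ.symm_apply_apply]

lemma sol_equiv {Q : unitInterval → ℝ → ℝ} (σ : E ≃ E')
    {m : (E → ℝ) → E → ℝ} {m' : (E' → ℝ) → E' → ℝ}
    (hmm : ∀ h e, m' (fun f => h (σ.symm f)) (σ e) = m h e)
    (t ξ : E → unitInterval) (H : E → ℝ) (e : E) :
    sol Q m' (fun f => t (σ.symm f)) (fun f => ξ (σ.symm f)) (fun f => H (σ.symm f)) (σ e) =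
      sol Q m t ξ H e := by
  unfold sol
  have : (fun n => iter Q m' (fun f => t (σ.symm f)) (fun f => ξ (σ.symm f))
      (fun f => H (σ.symm f)) n (σ e)) = fun n => iter Q m t ξ H n e :=
    funext fun n => iter_equiv Q σ hmm t ξ H n e
  rw [this]

lemma fieldAt_equiv {Q : unitInterval → ℝ → ℝ} (σ : E ≃ E')
    {m : (E → ℝ) → E → ℝ} {m' : (E' → ℝ) → E' → ℝ}
    (hmm : ∀ h e, m' (fun f => h (σ.symm f)) (σ e) = m h e)
    (t : E → unitInterval) (ξ : E × ℕ → unitInterval) (k : ℕ) :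
    fieldAt Q m' (fun f => t (σ.symm f)) (fun p => ξ (σ.symm p.1, p.2)) k =
      fun f => fieldAt Q m t ξ k (σ.symm f) := by
  induction k with
  | zero => rfl
  | succ k ih =>
    funext f
    obtain ⟨f, rfl⟩ := σ.surjective f
    simp only [fieldAt, ih, σ.symm_apply_apply]
    have := sol_equiv (Q := Q) σ hmm t (fun e => ξ (e, k)) (fieldAt Q m t ξ k) f
    rw [← this]

lemma obs_equiv {Q : unitInterval → ℝ → ℝ} (σ : E ≃ E')
    {m : (E → ℝ) → E → ℝ} {m' : (E' → ℝ) → E' → ℝ}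
    (hmm : ∀ h e, m' (fun f => h (σ.symm f)) (σ e) = m h e)
    (t : E → unitInterval) (ξ : E × ℕ → unitInterval) (k : ℕ) (e : E) :
    obs Q m' (fun f => t (σ.symm f)) (fun p => ξ (σ.symm p.1, p.2)) k (σ e) =
      obs Q m t ξ k e := by
  unfold obs
  rw [fieldAt_equiv (Q := Q) σ hmm t ξ k]
  exact sol_equiv (Q := Q) σ hmm t (fun e => ξ (e, k)) (fieldAt Q m t ξ k) e

end Equiv

section Local

lemma fieldAt_obs_local {Q : unitInterval → ℝ → ℝ} (hQ : IsChannel Q) {m m' : (E → ℝ) → E → ℝ}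
    (hm : IsField m) (hm' : IsField m') (S : Set E)
    (hloc : ∀ (h h' : E → ℝ), (∀ f ∈ S, h f = h' f) → ∀ e ∈ S, m h e = m' h' e)
    (t t' : E → unitInterval) (ξ ξ' : E × ℕ → unitInterval)
    (ht : ∀ e ∈ S, t e = t' e) (hξ : ∀ e ∈ S, ∀ k, ξ (e, k) = ξ' (e, k)) (k : ℕ) :
    (∀ e ∈ S, fieldAt Q m t ξ k e = fieldAt Q m' t' ξ' k e) ∧
      ∀ e ∈ S, obs Q m t ξ k e = obs Q m' t' ξ' k e := by
  have step : ∀ k, (∀ e ∈ S, fieldAt Q m t ξ k e = fieldAt Q m' t' ξ' k e) →
      ∀ e ∈ S, obs Q m t ξ k e = obs Q m' t' ξ' k e := by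
    intro k hk
    exact sol_unique_on hQ hm t t' (fun e => ξ (e, k)) (fun e => ξ' (e, k)) _ _ _ _ S hloc ht
      (fun e he => hξ e he k) hk (fun e _ => sol_mem hQ hm _ _ _ _)
      (fun e _ => sol_mem hQ hm' _ _ _ _) (fun e _ => sol_eq hQ hm _ _ _ _)
      (fun e _ => sol_eq hQ hm' _ _ _ _)
  have field : ∀ k, ∀ e ∈ S, fieldAt Q m t ξ k e = fieldAt Q m' t' ξ' k e := by
    intro k
    induction k with
    | zero => intro e _; rfl
    | succ k ih =>
      intro e he
      have h1 := step k ih e he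
      unfold obs at h1
      simp only [fieldAt]
      rw [ih e he, h1]
  exact ⟨field k, step k (field k)⟩

lemma obs_local {Q : unitInterval → ℝ → ℝ} (hQ : IsChannel Q) {m m' : (E → ℝ) → E → ℝ}
    (hm : IsField m) (hm' : IsField m') (S : Set E)
    (hloc : ∀ (h h' : E → ℝ), (∀ f ∈ S, h f = h' f) → ∀ e ∈ S, m h e = m' h' e)
    (t t' : E → unitInterval) (ξ ξ' : E × ℕ → unitInterval)
    (ht : ∀ e ∈ S, t e = t' e) (hξ : ∀ e ∈ S, ∀ k, ξ (e, k) = ξ' (e, k)) (k : ℕ) (e : E)
    (he : e ∈ S) : obs Q m t ξ k e = obs Q m' t' ξ' k e :=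
  (fieldAt_obs_local hQ hm hm' S hloc t t' ξ ξ' ht hξ k).2 e he

end Local

end

end Vale.Agent.P143
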