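import Vale.Agent.P143.Basic

/-! P143: the law of the sequential sampler. -/

namespace Vale.Agent.P143

open MeasureTheory Filter Topology Set

noncomputable section

open Classical

/-- Resample one coordinate of an i.i.d. family. -/
theorem lintegral_pi_update {ι : Type*} [Fintype ι] {α : Type*} [MeasurableSpace α]
    (μ : Measure α) [IsProbabilityMeasure μ] (i : ι) (f : (ι → α) → ENNReal) (hf : Measurable f) :
    ∫⁻ x, f x ∂(Measure.pi fun _ : ι => μ) =
      ∫⁻ x, ∫⁻ z, f (Function.update x i z) ∂μ ∂(Measure.pi fun _ : ι => μ) := by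
  have hg : Measurable (fun x : ι → α => ∫⁻ z, f (Function.update x i z) ∂μ) := by
    apply Measurable.lintegral_prod_right'
      (f := fun p : (ι → α) × α => f (Function.update p.1 i p.2))
    exact hf.comp measurable_update'
  apply lintegral_eq_of_lmarginal_eq {i} hf hg
  rw [lmarginal_singleton, lmarginal_singleton]
  ext x
  simp [Function.update_idem]

/-- normalising constant -/
def ZZ {ι Ω : Type*} [Fintype Ω] (w : Ω → ℝ) (s : Ω → ι → Bool) (J : Finset ι) (y : ι → ℝ) : ℝ :=
  ∑ ω, w ω * ∏ j ∈ J, (1 + sgn (s ω j) * y j / 4)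

/-- numerator -/
def NN {ι Ω : Type*} [Fintype Ω] (w : Ω → ℝ) (s : Ω → ι → Bool) (J : Finset ι) (a : ι)
    (y : ι → ℝ) : ℝ :=
  ∑ ω, w ω * sgn (s ω a) * ∏ j ∈ J, (1 + sgn (s ω j) * y j / 4)

lemma post_eq {ι Ω : Type*} [Fintype ι] [Fintype Ω] (τ : ι → ℝ) (w : Ω → ℝ)
    (s : Ω → ι → Bool) (y : ι → ℝ) (i : ι) :
    post τ w s y i = NN w s (Finset.univ.filter (fun j => τ j < τ i)) i y /
      ZZ w s (Finset.univ.filter (fun j => τ j < τ i)) y := rfl

lemma abs_sgn (b : Bool) : |sgn b| = 1 := by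
  unfold sgn; split_ifs <;> simp

lemma fac_pos (b : Bool) {y : ℝ} (hy : y ∈ Icc (-1 : ℝ) 1) : 3 / 4 ≤ 1 + sgn b * y / 4 := by
  obtain ⟨h1, h2⟩ := hy
  unfold sgn; split_ifs <;> linarith

lemma prod_fac_pos {ι Ω : Type*} (s : Ω → ι → Bool) (J : Finset ι) {y : ι → ℝ}
    (hy : ∀ j, y j ∈ Icc (-1 : ℝ) 1) (ω : Ω) : 0 < ∏ j ∈ J, (1 + sgn (s ω j) * y j / 4) :=
  Finset.prod_pos fun j _ => by have := fac_pos (s ω j) (hy j); linarith

lemma ZZ_pos {ι Ω : Type*} [Fintype Ω] {w : Ω → ℝ} (hw : ∀ ω, 0 ≤ w ω) (hw1 : ∑ ω, w ω = 1)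
    (s : Ω → ι → Bool) (J : Finset ι) {y : ι → ℝ} (hy : ∀ j, y j ∈ Icc (-1 : ℝ) 1) :
    0 < ZZ w s J y := by
  unfold ZZ
  have h0 : ∀ ω ∈ Finset.univ, 0 ≤ w ω * ∏ j ∈ J, (1 + sgn (s ω j) * y j / 4) := fun ω _ =>
    mul_nonneg (hw ω) (prod_fac_pos s J hy ω).le
  rcases (Finset.sum_nonneg h0).lt_or_eq with h | h
  · exact h
  · exfalso
    have h2 := (Finset.sum_eq_zero_iff_of_nonneg h0).1 h.symm
    have h3 : ∑ ω, w ω = 0 := Finset.sum_eq_zero fun ω hω => by
      have := h2 ω hω
      rcases mul_eq_zero.1 this with h4 | h4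
      · exact h4
      · exact absurd h4 (prod_fac_pos s J hy ω).ne'
    rw [hw1] at h3
    exact one_ne_zero h3

lemma abs_NN_le {ι Ω : Type*} [Fintype Ω] {w : Ω → ℝ} (hw : ∀ ω, 0 ≤ w ω)
    (s : Ω → ι → Bool) (J : Finset ι) (a : ι) {y : ι → ℝ} (hy : ∀ j, y j ∈ Icc (-1 : ℝ) 1) :
    |NN w s J a y| ≤ ZZ w s J y := by
  unfold NN ZZ
  refine (Finset.abs_sum_le_sum_abs _ _).trans (Finset.sum_le_sum fun ω _ => ?_)
  rw [abs_mul, abs_mul, abs_sgn, mul_one, abs_of_nonneg (hw ω),
    abs_of_pos (prod_fac_pos s J hy ω)]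

lemma post_mem {ι Ω : Type*} [Fintype ι] [Fintype Ω] (τ : ι → ℝ) {w : Ω → ℝ}
    (hw : ∀ ω, 0 ≤ w ω) (hw1 : ∑ ω, w ω = 1) (s : Ω → ι → Bool) {y : ι → ℝ}
    (hy : ∀ j, y j ∈ Icc (-1 : ℝ) 1) (i : ι) : post τ w s y i ∈ Icc (-1 : ℝ) 1 := by
  rw [post_eq, mem_Icc, ← abs_le, abs_div, abs_of_pos (ZZ_pos hw hw1 s _ hy)]
  exact div_le_one_of_le₀ (abs_NN_le hw s _ i hy) (ZZ_pos hw hw1 s _ hy).le

lemma post_congr {ι Ω : Type*} [Fintype ι] [Fintype Ω] (τ : ι → ℝ) (w : Ω → ℝ)
    (s : Ω → ι → Bool) {y y' : ι → ℝ} (i : ι) (h : ∀ j, τ j < τ i → y j = y' j) :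
    post τ w s y i = post τ w s y' i := by
  have h1 : ∀ ω, ∏ j ∈ Finset.univ.filter (fun j => τ j < τ i), (1 + sgn (s ω j) * y j / 4) =
      ∏ j ∈ Finset.univ.filter (fun j => τ j < τ i), (1 + sgn (s ω j) * y' j / 4) := fun ω =>
    Finset.prod_congr rfl fun j hj => by
      rw [h j (by simpa using hj)]
  unfold post
  simp_rw [h1]

lemma measurable_ZZ {ι Ω : Type*} [Fintype Ω] (w : Ω → ℝ) (s : Ω → ι → Bool) (J : Finset ι) :
    Measurable (ZZ w s J) := by
  unfold ZZ
  fun_prop

lemma measurable_NN {ι Ω : Type*} [Fintype Ω] (w : Ω → ℝ) (s : Ω → ι → Bool) (J : Finset ι)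
    (a : ι) : Measurable (NN w s J a) := by
  unfold NN
  fun_prop

lemma measurable_post {ι Ω : Type*} [Fintype ι] [Fintype Ω] (τ : ι → ℝ) (w : Ω → ℝ)
    (s : Ω → ι → Bool) (i : ι) : Measurable (fun y : ι → ℝ => post τ w s y i) := by
  simp_rw [post_eq]
  exact (measurable_NN w s _ i).div (measurable_ZZ w s _)

/-- one sweep of the sampler -/
def sweep {ι Ω : Type*} [Fintype ι] [Fintype Ω] (Q : unitInterval → ℝ → ℝ) (τ : ι → ℝ)
    (w : Ω → ℝ) (s : Ω → ι → Bool) (ξ : ι → unitInterval) (y : ι → ℝ) (i : ι) : ℝ :=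
  Q (ξ i) (post τ w s y i)

/-- the sampler -/
def smp {ι Ω : Type*} [Fintype ι] [Fintype Ω] (Q : unitInterval → ℝ → ℝ) (τ : ι → ℝ)
    (w : Ω → ℝ) (s : Ω → ι → Bool) (ξ : ι → unitInterval) : ι → ℝ :=
  (sweep Q τ w s ξ)^[Fintype.card ι] 0

section

variable {ι Ω : Type*} [Fintype ι] [Fintype Ω] (Q : unitInterval → ℝ → ℝ) (τ : ι → ℝ)
    (w : Ω → ℝ) (s : Ω → ι → Bool)

/-- number of earlier items -/
def rk (i : ι) : ℕ := (Finset.univ.filter (fun j => τ j < τ i)).card

lemma rk_lt {i j : ι} (h : τ j < τ i) : rk τ j < rk τ i := by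
  apply Finset.card_lt_card
  rw [Finset.ssubset_iff_of_subset]
  · exact ⟨j, by simpa using h, by simp⟩
  · intro k hk
    simp only [Finset.mem_filter, Finset.mem_univ, true_and] at hk ⊢
    exact hk.trans h

lemma rk_lt_card (i : ι) : rk τ i < Fintype.card ι := by
  apply Finset.card_lt_card
  rw [Finset.ssubset_iff_of_subset (Finset.subset_univ _)]
  exact ⟨i, Finset.mem_univ _, by simp⟩

lemma sweep_iter (ξ ξ' : ι → unitInterval) (n : ℕ) : ∀ (y y' : ι → ℝ) (i : ι), rk τ i < n →
    (∀ j, τ j ≤ τ i → ξ j = ξ' j) →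
    (sweep Q τ w s ξ)^[n] y i = (sweep Q τ w s ξ')^[n] y' i := by
  induction n with
  | zero => intro y y' i hi; exact absurd hi (Nat.not_lt_zero _)
  | succ n ih =>
    intro y y' i hi hξ
    rw [Function.iterate_succ_apply', Function.iterate_succ_apply']
    unfold sweep
    rw [hξ i le_rfl]
    congr 1
    apply post_congr
    intro j hj
    exact ih y y' j (by have := rk_lt τ hj; omega) (fun k hk => hξ k (hk.trans hj.le))

lemma smp_congr (ξ ξ' : ι → unitInterval) (i : ι) (hξ : ∀ j, τ j ≤ τ i → ξ j = ξ' j) :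
    smp Q τ w s ξ i = smp Q τ w s ξ' i :=
  sweep_iter Q τ w s ξ ξ' _ 0 0 i (rk_lt_card τ i) hξ

lemma smp_fix (ξ : ι → unitInterval) (i : ι) :
    smp Q τ w s ξ i = Q (ξ i) (post τ w s (smp Q τ w s ξ) i) := by
  have h : sweep Q τ w s ξ (smp Q τ w s ξ) = smp Q τ w s ξ := by
    unfold smp
    have h1 := Function.iterate_succ_apply' (sweep Q τ w s ξ) (Fintype.card ι) 0
    rw [← h1, Function.iterate_succ_apply]
    ext j
    exact sweep_iter Q τ w s ξ ξ _ _ _ j (rk_lt_card τ j) (fun _ _ => rfl)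
  exact (congrFun h i).symm

lemma eq_smp (ξ : ι → unitInterval) (y : ι → ℝ) (hy : ∀ i, y i = Q (ξ i) (post τ w s y i)) :
    y = smp Q τ w s ξ := by
  have h : sweep Q τ w s ξ y = y := by
    ext i
    exact (hy i).symm
  have h2 : (sweep Q τ w s ξ)^[Fintype.card ι] y = y := Function.iterate_fixed h _
  ext i
  rw [← h2]
  exact sweep_iter Q τ w s ξ ξ _ _ _ i (rk_lt_card τ i) (fun _ _ => rfl)

lemma measurable_smp (hQm : Measurable (Function.uncurry Q)) : Measurable (smp Q τ w s) := by
  unfold smp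
  generalize Fintype.card ι = n
  induction n with
  | zero => exact measurable_const
  | succ n ih =>
    simp_rw [Function.iterate_succ_apply']
    apply measurable_pi_lambda
    intro i
    have h1 : Measurable (fun ξ : ι → unitInterval =>
        (ξ i, post τ w s ((sweep Q τ w s ξ)^[n] 0) i)) :=
      (measurable_pi_apply i).prodMk ((measurable_post τ w s i).comp ih)
    exact hQm.comp h1

end

lemma measurable_dens (a : ℝ) :
    Measurable (fun z : ℝ => ENNReal.ofReal (1 + a * z / 4)) := by fun_prop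

/-- all the laws have a density with respect to the unbiased one -/
lemma nu_eq (a : ℝ) : nu a = (nu 0).withDensity (fun z => ENNReal.ofReal (1 + a * z / 4)) := by
  unfold nu
  rw [← withDensity_mul]
  · congr 1
    ext z
    simp only [Pi.mul_apply]
    rw [← ENNReal.ofReal_mul (by norm_num)]
    congr 1
    ring
  · fun_prop
  · exact measurable_dens a

lemma ae_nu_mem (a : ℝ) : ∀ᵐ z ∂(nu a), z ∈ Icc (-1 : ℝ) 1 := by
  unfold nu
  have h1 : ∀ᵐ z ∂((volume : Measure ℝ).restrict (Icc (-1 : ℝ) 1)), z ∈ Icc (-1 : ℝ) 1 :=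
    ae_restrict_mem measurableSet_Icc
  exact (withDensity_absolutelyContinuous _ _) h1

lemma ae_pi_nu_mem {ι : Type*} [Fintype ι] [IsProbabilityMeasure (nu 0)] :
    ∀ᵐ y ∂(Measure.pi fun _ : ι => nu 0), ∀ j, y j ∈ Icc (-1 : ℝ) 1 := by
  rw [ae_all_iff]
  intro j
  exact (Measure.quasiMeasurePreserving_eval (μ := fun _ : ι => nu 0) j).ae (ae_nu_mem 0)

section

variable {ι Ω : Type*} [Fintype ι] [Fintype Ω]

lemma ZZ_insert (w : Ω → ℝ) (s : Ω → ι → Bool) (J : Finset ι) (a : ι) (ha : a ∉ J)
    (y : ι → ℝ) (z : ℝ) :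
    ZZ w s (insert a J) (Function.update y a z) = ZZ w s J y + NN w s J a y * z / 4 := by
  unfold ZZ NN
  have h1 : ∀ ω, ∏ j ∈ J, (1 + sgn (s ω j) * (Function.update y a z) j / 4) =
      ∏ j ∈ J, (1 + sgn (s ω j) * y j / 4) := fun ω =>
    Finset.prod_congr rfl fun j hj => by
      have hja : j ≠ a := fun h => ha (by rw [← h]; exact hj)
      rw [Function.update_of_ne hja]
  have h2 : ∀ ω, w ω * ∏ j ∈ insert a J, (1 + sgn (s ω j) * (Function.update y a z) j / 4) =
      w ω * ∏ j ∈ J, (1 + sgn (s ω j) * y j / 4) +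
      w ω * sgn (s ω a) * (∏ j ∈ J, (1 + sgn (s ω j) * y j / 4)) * z / 4 := fun ω => by
    rw [Finset.prod_insert ha, h1 ω, Function.update_self]
    ring
  simp_rw [h2]
  rw [Finset.sum_add_distrib, Finset.sum_mul, Finset.sum_div]

/-- the law of the sampler on lower sets -/
theorem smp_law_aux (Q : unitInterval → ℝ → ℝ)
    (hQm : Measurable (Function.uncurry Q)) (hQ1 : ∀ ξ a, Q ξ a ∈ Icc (-1 : ℝ) 1)
    (hQlaw : ∀ a ∈ Icc (-1 : ℝ) 1, (volume : Measure unitInterval).map (fun ξ => Q ξ a) = nu a)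
    [IsProbabilityMeasure (nu 0)]
    (τ : ι → ℝ) (hτ : Function.Injective τ) (w : Ω → ℝ) (hw : ∀ ω, 0 ≤ w ω) (hw1 : ∑ ω, w ω = 1)
    (s : Ω → ι → Bool) (J : Finset ι) :
    (∀ i ∈ J, ∀ j, τ j < τ i → j ∈ J) →
    ∀ F : (ι → ℝ) → ENNReal, Measurable F → (∀ y y' : ι → ℝ, (∀ j ∈ J, y j = y' j) → F y = F y') →
      ∫⁻ ξ, F (smp Q τ w s ξ) ∂(Measure.pi fun _ : ι => (volume : Measure unitInterval)) =
        ∫⁻ y, F y * ENNReal.ofReal (ZZ w s J y) ∂(Measure.pi fun _ : ι => nu 0) := by
  induction J using Finset.induction_on_max_value τ with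
  | empty =>
    intro _ F _ hF
    have h1 : ∀ y, F y = F 0 := fun y => hF y 0 (by simp)
    simp_rw [h1]
    unfold ZZ
    simp [hw1]
  | insert a J ha hmax ih =>
    intro hlow F hFm hF
    have hlowJ : ∀ i ∈ J, ∀ j, τ j < τ i → j ∈ J := by
      intro i hi j hj
      rcases Finset.mem_insert.1 (hlow i (Finset.mem_insert_of_mem hi) j hj) with h | h
      · subst h
        exact absurd (hmax i hi) (not_le.2 hj)
      · exact h
    have hJ : Finset.univ.filter (fun j => τ j < τ a) = J := by
      ext j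
      simp only [Finset.mem_filter, Finset.mem_univ, true_and]
      constructor
      · intro hj
        rcases Finset.mem_insert.1 (hlow a (Finset.mem_insert_self _ _) j hj) with h | h
        · subst h
          exact absurd hj (lt_irrefl _)
        · exact h
      · intro hj
        refine lt_of_le_of_ne (hmax j hj) fun h => ?_
        exact ha (hτ h ▸ hj)
    -- the conditional expectation
    set G : (ι → ℝ) → ENNReal := fun y =>
      ∫⁻ z, F (Function.update y a z) * ENNReal.ofReal (1 + post τ w s y a * z / 4) ∂(nu 0)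
      with hG
    have hGm : Measurable G := by
      apply Measurable.lintegral_prod_right'
        (f := fun p : (ι → ℝ) × ℝ => F (Function.update p.1 a p.2) *
          ENNReal.ofReal (1 + post τ w s p.1 a * p.2 / 4))
      apply Measurable.mul
      · exact hFm.comp measurable_update'
      · have h1 : Measurable (fun p : (ι → ℝ) × ℝ => post τ w s p.1 a) :=
          (measurable_post τ w s a).comp measurable_fst
        have h2 : Measurable (fun p : (ι → ℝ) × ℝ => 1 + post τ w s p.1 a * p.2 / 4) :=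
          ((h1.mul measurable_snd).div_const 4).const_add 1
        exact h2.ennreal_ofReal
    have hGJ : ∀ y y' : ι → ℝ, (∀ j ∈ J, y j = y' j) → G y = G y' := by
      intro y y' h
      simp only [hG]
      have h1 : post τ w s y a = post τ w s y' a := by
        apply post_congr
        intro j hj
        apply h
        rw [← hJ]
        simpa using hj
      rw [h1]
      congr 1
      ext z
      congr 1
      apply hF
      intro j hj
      by_cases hja : j = a
      · subst hja; simp
      · rw [Function.update_of_ne hja, Function.update_of_ne hja]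
        exact h j (Finset.mem_of_mem_insert_of_ne hj hja)
    have hGnu : ∀ y, G y = ∫⁻ z, F (Function.update y a z) ∂(nu (post τ w s y a)) := by
      intro y
      simp only [hG]
      rw [nu_eq (post τ w s y a), lintegral_withDensity_eq_lintegral_mul _ (measurable_dens _)]
      · congr 1
        ext z
        simp only [Pi.mul_apply]
        rw [mul_comm]
      · exact hFm.comp (measurable_update y)
    have hsm := measurable_smp Q τ w s hQm
    have hsmem : ∀ ξ j, smp Q τ w s ξ j ∈ Icc (-1 : ℝ) 1 := by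
      intro ξ j
      rw [smp_fix]
      exact hQ1 _ _
    -- first step
    have step1 : ∫⁻ ξ, F (smp Q τ w s ξ) ∂(Measure.pi fun _ : ι => (volume : Measure unitInterval))
        = ∫⁻ ξ, G (smp Q τ w s ξ) ∂(Measure.pi fun _ : ι => (volume : Measure unitInterval)) := by
      rw [lintegral_pi_update _ a (fun ξ => F (smp Q τ w s ξ)) (hFm.comp hsm)]
      congr 1
      ext ξ
      have hlt : ∀ x, ∀ j, τ j < τ a →
          smp Q τ w s (Function.update ξ a x) j = smp Q τ w s ξ j := by
        intro x j hj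
        apply smp_congr
        intro k hk
        rw [Function.update_of_ne]
        rintro rfl
        exact absurd (hk.trans_lt hj) (lt_irrefl _)
      have hpost : ∀ x, post τ w s (smp Q τ w s (Function.update ξ a x)) a =
          post τ w s (smp Q τ w s ξ) a := fun x => post_congr τ w s a (hlt x)
      have h1 : ∀ x, F (smp Q τ w s (Function.update ξ a x)) =
          F (Function.update (smp Q τ w s ξ) a (Q x (post τ w s (smp Q τ w s ξ) a))) := by
        intro x
        apply hF
        intro j hj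
        by_cases hja : j = a
        · subst hja
          rw [Function.update_self, smp_fix, hpost, Function.update_self]
        · rw [Function.update_of_ne hja]
          apply hlt
          have : j ∈ Finset.univ.filter (fun j => τ j < τ a) := by
            rw [hJ]; exact Finset.mem_of_mem_insert_of_ne hj hja
          simpa using this
      simp_rw [h1]
      rw [hGnu, ← hQlaw _ (post_mem τ hw hw1 s (hsmem ξ) a), lintegral_map]
      · exact hFm.comp (measurable_update _)
      · exact hQm.comp (measurable_id.prodMk measurable_const)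
    rw [step1, ih hlowJ G hGm hGJ]
    -- second step
    have hm2 : Measurable fun y => F y * ENNReal.ofReal (ZZ w s (insert a J) y) :=
      hFm.mul (measurable_ZZ w s _).ennreal_ofReal
    rw [lintegral_pi_update (nu 0) a _ hm2]
    apply lintegral_congr_ae
    filter_upwards [ae_pi_nu_mem (ι := ι)] with y hy
    have hZ := ZZ_pos hw hw1 s J hy
    simp only [hG]
    rw [← lintegral_mul_const]
    · apply lintegral_congr_ae
      filter_upwards [ae_nu_mem 0] with z hz
      rw [mul_assoc, ← ENNReal.ofReal_mul]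
      · congr 2
        rw [ZZ_insert w s J a ha, post_eq, hJ]
        field_simp
      · have h3 := post_mem τ hw hw1 s hy a
        have h4 : |post τ w s y a * z| ≤ 1 := by
          rw [abs_mul]
          exact mul_le_one₀ (abs_le.2 h3) (abs_nonneg _) (abs_le.2 hz)
        have := (abs_le.1 h4).1
        linarith
    · have h2 : Measurable (fun z : ℝ => F (Function.update y a z)) :=
        hFm.comp (measurable_update y)
      exact h2.mul (measurable_dens _)

lemma pi_withDensity {α : Type*} [MeasurableSpace α] (μ : Measure α) [IsProbabilityMeasure μ]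
    (f : ι → α → ENNReal) (hf : ∀ i, Measurable (f i))
    [∀ i, IsProbabilityMeasure (μ.withDensity (f i))] :
    Measure.pi (fun i => μ.withDensity (f i)) =
      (Measure.pi fun _ : ι => μ).withDensity (fun y => ∏ i, f i (y i)) := by
  apply Measure.pi_eq
  intro B hB
  rw [withDensity_apply _ (MeasurableSet.univ_pi hB), ← lintegral_indicator (MeasurableSet.univ_pi hB)]
  have h1 : ∀ y : ι → α, (pi univ B).indicator (fun y => ∏ i, f i (y i)) y =
      ∏ i, (B i).indicator (f i) (y i) := by
    intro y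
    by_cases hy : y ∈ pi univ B
    · rw [indicator_of_mem hy]
      exact Finset.prod_congr rfl fun i _ => (indicator_of_mem (hy i (mem_univ i)) _).symm
    · rw [indicator_of_notMem hy]
      simp only [Set.mem_pi, mem_univ, true_implies, not_forall] at hy
      obtain ⟨i, hi⟩ := hy
      exact (Finset.prod_eq_zero (Finset.mem_univ i) (indicator_of_notMem hi _)).symm
  simp_rw [h1]
  have h2 : ProbabilityTheory.iIndepFun (fun i (y : ι → α) => (B i).indicator (f i) (y i))
      (Measure.pi fun _ : ι => μ) :=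
    ProbabilityTheory.iIndepFun_pi (X := fun i => (B i).indicator (f i))
      (fun i => ((hf i).indicator (hB i)).aemeasurable)
  rw [ProbabilityTheory.lintegral_prod_eq_prod_lintegral_of_indepFun Finset.univ _ h2
    (fun i => ((hf i).indicator (hB i)).comp (measurable_pi_apply i))]
  refine Finset.prod_congr rfl fun i _ => ?_
  rw [withDensity_apply _ (hB i), ← lintegral_indicator (hB i)]
  have h3 := (measurePreserving_eval (fun _ : ι => μ) i).lintegral_comp
    ((hf i).indicator (hB i))
  exact h3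

end

theorem sampler_law {ι Ω : Type*} [Fintype ι] [Fintype Ω] (Q : unitInterval → ℝ → ℝ)
    (hQm : Measurable (Function.uncurry Q)) (hQ1 : ∀ ξ a, Q ξ a ∈ Icc (-1 : ℝ) 1)
    (hQlaw : ∀ a ∈ Icc (-1 : ℝ) 1, (volume : Measure unitInterval).map (fun ξ => Q ξ a) = nu a)
    (τ : ι → ℝ) (hτ : Function.Injective τ) (w : Ω → ℝ) (hw : ∀ ω, 0 ≤ w ω) (hw1 : ∑ ω, w ω = 1)
    (s : Ω → ι → Bool) {Ω' : Type*} [MeasurableSpace Ω'] (P : Measure Ω')
    (X : Ω' → ι → unitInterval) (hX : Measurable X)
    (hXlaw : P.map X = Measure.pi fun _ => (volume : Measure unitInterval))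
    (Y : Ω' → ι → ℝ) (hY : ∀ x i, Y x i = Q (X x i) (post τ w s (Y x) i)) :
    P.map Y = ∑ ω, ENNReal.ofReal (w ω) • Measure.pi (fun i => nu (sgn (s ω i))) := by
  have hprob : ∀ a ∈ Icc (-1 : ℝ) 1, IsProbabilityMeasure (nu a) := by
    intro a ha
    rw [← hQlaw a ha]
    exact Measure.isProbabilityMeasure_map
      (hQm.comp (measurable_id.prodMk measurable_const)).aemeasurable
  have hsgn : ∀ b, sgn b ∈ Icc (-1 : ℝ) 1 := fun b => abs_le.1 (abs_sgn b).le
  haveI h0 : IsProbabilityMeasure (nu 0) := hprob 0 (by norm_num)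
  have hYX : Y = fun x => smp Q τ w s (X x) := by
    ext1 x
    exact eq_smp Q τ w s (X x) (Y x) (hY x)
  have hsm := measurable_smp Q τ w s hQm
  have hmap : P.map Y = (Measure.pi fun _ : ι => (volume : Measure unitInterval)).map
      (smp Q τ w s) := by
    rw [← hXlaw, Measure.map_map hsm hX, hYX]
    rfl
  rw [hmap]
  ext A hA
  have h1 := smp_law_aux Q hQm hQ1 hQlaw τ hτ w hw hw1 s Finset.univ (by simp)
    (A.indicator 1) (measurable_one.indicator hA) (fun y y' h => by
      have : y = y' := funext fun j => h j (Finset.mem_univ j)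
      rw [this])
  have h2 : ∫⁻ ξ, A.indicator (1 : (ι → ℝ) → ENNReal) (smp Q τ w s ξ)
      ∂(Measure.pi fun _ : ι => (volume : Measure unitInterval)) =
      (Measure.pi fun _ : ι => (volume : Measure unitInterval)).map (smp Q τ w s) A := by
    rw [← lintegral_map (measurable_one.indicator hA) hsm, lintegral_indicator_one hA]
  rw [← h2, h1]
  have hpi : ∀ ω, Measure.pi (fun i => nu (sgn (s ω i))) =
      (Measure.pi fun _ : ι => nu 0).withDensity
        (fun y => ∏ i, ENNReal.ofReal (1 + sgn (s ω i) * y i / 4)) := by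
    intro ω
    haveI : ∀ i, IsProbabilityMeasure
        ((nu 0).withDensity (fun z => ENNReal.ofReal (1 + sgn (s ω i) * z / 4))) := by
      intro i
      rw [← nu_eq]
      exact hprob _ (hsgn _)
    have h3 := pi_withDensity (nu 0)
      (fun (i : ι) z => ENNReal.ofReal (1 + sgn (s ω i) * z / 4)) (fun i => measurable_dens _)
    rw [← h3]
    congr 1
    ext1 i
    exact nu_eq _
  rw [Measure.finsetSum_apply]
  have h4 : ∀ ω, (ENNReal.ofReal (w ω) • Measure.pi (fun i => nu (sgn (s ω i)))) A =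
      ∫⁻ y, A.indicator 1 y * ENNReal.ofReal (w ω * ∏ j, (1 + sgn (s ω j) * y j / 4))
        ∂(Measure.pi fun _ : ι => nu 0) := by
    intro ω
    rw [Measure.smul_apply, hpi ω, withDensity_apply _ hA, ← lintegral_indicator hA, smul_eq_mul,
      ← lintegral_const_mul]
    · apply lintegral_congr_ae
      filter_upwards [ae_pi_nu_mem (ι := ι)] with y hy
      by_cases hyA : y ∈ A
      · rw [indicator_of_mem hyA, indicator_of_mem hyA, ENNReal.ofReal_mul (hw ω),
          ENNReal.ofReal_prod_of_nonneg]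
        · simp
        · intro i _
          have := fac_pos (s ω i) (hy i)
          linarith
      · rw [indicator_of_notMem hyA, indicator_of_notMem hyA]
        simp
    · apply Measurable.indicator _ hA
      apply Finset.measurable_prod
      intro i _
      exact (measurable_dens _).comp (measurable_pi_apply i)
  simp_rw [h4]
  rw [← lintegral_finsetSum]
  · apply lintegral_congr_ae
    filter_upwards [ae_pi_nu_mem (ι := ι)] with y hy
    unfold ZZ
    rw [← Finset.mul_sum, ENNReal.ofReal_sum_of_nonneg]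
    intro ω _
    exact mul_nonneg (hw ω) (prod_fac_pos s _ hy ω).le
  · intro ω _
    apply Measurable.mul (measurable_one.indicator hA)
    fun_prop

end

end Vale.Agent.P143
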