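import Mathlib
import Vale.Agent.P143.Equivar
import Vale.Agent.P143.Rounds2
import Vale.Agent.P143.Posterior
import Vale.Agent.P143.Sampler
import Vale.Agent.P143.EdgeNoise
import Vale.Agent.P143.Channel

/-! P143: the law of the revealed observations in finite volume. -/

namespace Vale.Agent.P143

open MeasureTheory Filter Topology Set

noncomputable section

open Classical

variable {V : Type*}

/-- the noise space: labels and noises of the unordered pairs -/
abbrev NoiseSp (V : Type*) := (Sym2 V → unitInterval) × (Sym2 V × ℕ → unitInterval)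

/-- i.i.d. uniform law on the noise space -/
def noiseLaw (V : Type*) : Measure (NoiseSp V) :=
  (iidUniform (Sym2 V)).prod (iidUniform (Sym2 V × ℕ))

instance noiseLaw_prob (V : Type*) : IsProbabilityMeasure (noiseLaw V) := by
  unfold noiseLaw
  infer_instance

/-- proportion of the spanning forests `T` of `A` with `T ∩ B = S` -/
def freq (A B S : Finset (Sym2 V)) : ℝ :=
  (((SF A).filter (fun T => T ∩ B = S)).card : ℝ) / ((SF A).card : ℝ)

lemma freq_nonneg (A B S : Finset (Sym2 V)) : 0 ≤ freq A B S := by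
  unfold freq
  positivity

lemma freq_le_one (A B S : Finset (Sym2 V)) : freq A B S ≤ 1 := by
  unfold freq
  apply div_le_one_of_le₀
  · exact_mod_cast Finset.card_filter_le _ _
  · positivity

/-- mixture of product measures -/
def mixJ {J : Type*} [Fintype J] (φ : J → Sym2 V × ℕ) (B : Finset (Sym2 V))
    (q : Finset (Sym2 V) → ℝ) : Measure (J → ℝ) :=
  ∑ S ∈ B.powerset, ENNReal.ofReal (q S) •
    Measure.pi (fun j => nu (sgn (decide ((φ j).1 ∈ S))))

/-- finite volume law, labels fixed -/
lemma finite_law_fixed {Q : unitInterval → ℝ → ℝ} (hQ : IsChannel Q) {A : Finset (Sym2 V)}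
    (hA : Loopless A) (K : ℕ) (t : Sym2 V → unitInterval)
    (ht : ∀ e ∈ A, ∀ f ∈ A, t e = t f → e = f) :
    (iidUniform (Sym2 V × ℕ)).map (fun ξ => fun p : A × Fin K => obs Q (pr A) t ξ p.2 p.1) =
      ∑ ω : {T // T ∈ SF A}, ENNReal.ofReal ((1 : ℝ) / (SF A).card) •
        Measure.pi (fun p : A × Fin K => nu (sgn (decide ((p.1 : Sym2 V) ∈ ω.1)))) := by
  have hN : (0 : ℝ) < (SF A).card := by exact_mod_cast (SF_nonempty A).card_pos
  refine sampler_law Q hQ.meas hQ.mem hQ.law (lab t A K) (lab_injective t A K ht)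
    (fun _ : {T // T ∈ SF A} => (1 : ℝ) / (SF A).card) (fun _ => by positivity) ?_
    (fun ω p => decide ((p.1 : Sym2 V) ∈ ω.1)) (iidUniform (Sym2 V × ℕ))
    (fun ξ p => ξ (p.1, p.2)) ?_ ?_ _ ?_
  · rw [Finset.sum_const, Finset.card_univ, Fintype.card_coe, nsmul_eq_mul]
    field_simp
  · rw [measurable_pi_iff]
    intro p
    exact measurable_pi_apply _
  · have h1 := Measure.map_infinitePi_infinitePi_of_inj
      (P := fun _ : Sym2 V × ℕ => (volume : Measure unitInterval))
      (f := fun p : A × Fin K => ((p.1 : Sym2 V), (p.2 : ℕ))) (by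
        intro p q hpq
        simp only [Prod.mk.injEq] at hpq
        exact Prod.ext (Subtype.ext hpq.1) (Fin.ext hpq.2))
    rw [Measure.infinitePi_eq_pi
      (μ := fun _ : A × Fin K => (volume : Measure unitInterval))] at h1
    exact h1
  · intro ξ p
    rw [posterior_eq A K t (fun j f => obs Q (pr A) t ξ j f)
      (fun j f => obs_mem hQ (isField_pr hA) t ξ j f) p]
    exact obs_eq hQ (isField_pr hA) t ξ p.2 p.1

lemma measurable_obs_pr {Q : unitInterval → ℝ → ℝ} (hQ : IsChannel Q) [Countable V]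
    {A : Finset (Sym2 V)} (hA : Loopless A) (k : ℕ) (e : Sym2 V) :
    Measurable (fun x : NoiseSp V => obs Q (pr A) x.1 x.2 k e) := by
  have hm : ∀ e, Measurable (fun p : Unit × (Sym2 V → ℝ) => (fun _ : Unit => pr A) p.1 p.2 e) :=
    fun e => (measurable_pr A e).comp measurable_snd
  have h1 : Measurable (fun x : NoiseSp V => x.1) := measurable_fst
  have h2 : Measurable (fun x : NoiseSp V => x.2) := measurable_snd
  exact measurable_obs (Ω := NoiseSp V) hQ (fun _ => isField_pr hA) hm
    (fun _ : NoiseSp V => ()) (fun x => x.1) (fun x => x.2) measurable_const h1 h2 k e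

lemma measurable_obs_pinf {Q : unitInterval → ℝ → ℝ} (hQ : IsChannel Q) [Countable V]
    (G : SimpleGraph V) (k : ℕ) (e : Sym2 V) :
    Measurable (fun x : NoiseSp V => obs Q (pinf G) x.1 x.2 k e) := by
  have h1 : Measurable (fun x : NoiseSp V => x.1) := measurable_fst
  have h2 : Measurable (fun x : NoiseSp V => x.2) := measurable_snd
  exact measurable_obs (Ω := NoiseSp V) hQ (fun G => isField_pinf G)
    measurable_pinf (fun _ : NoiseSp V => G) (fun x => x.1) (fun x => x.2) measurable_const h1 h2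
    k e

lemma measurable_obs_pr_right {Q : unitInterval → ℝ → ℝ} (hQ : IsChannel Q) [Countable V]
    {A : Finset (Sym2 V)} (hA : Loopless A) (t : Sym2 V → unitInterval) (k : ℕ) (e : Sym2 V) :
    Measurable (fun ξ : Sym2 V × ℕ → unitInterval => obs Q (pr A) t ξ k e) :=
  (measurable_obs_pr hQ hA k e).comp (measurable_const.prodMk measurable_id)

/-- group the forests according to their trace on `B` -/
lemma group_forests {A B : Finset (Sym2 V)} {J : Type*} [Fintype J] (φ : J → Sym2 V × ℕ)
    (hB : ∀ j, (φ j).1 ∈ B) :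
    (∑ ω : {T // T ∈ SF A}, ENNReal.ofReal ((1 : ℝ) / (SF A).card) •
      Measure.pi (fun j : J => nu (sgn (decide ((φ j).1 ∈ ω.1))))) = mixJ φ B (freq A B) := by
  have h5 : (∑ ω : {T // T ∈ SF A}, ENNReal.ofReal ((1 : ℝ) / (SF A).card) •
        Measure.pi (fun j : J => nu (sgn (decide ((φ j).1 ∈ ω.1))))) =
      ∑ T ∈ SF A, ENNReal.ofReal ((1 : ℝ) / (SF A).card) •
        Measure.pi (fun j : J => nu (sgn (decide ((φ j).1 ∈ T)))) :=
    Finset.sum_coe_sort (SF A) (fun T => ENNReal.ofReal ((1 : ℝ) / (SF A).card) •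
        Measure.pi (fun j : J => nu (sgn (decide ((φ j).1 ∈ T)))))
  rw [h5]
  unfold mixJ
  rw [← Finset.sum_fiberwise_of_maps_to (s := SF A) (t := B.powerset) (g := fun T => T ∩ B)
    (fun T _ => Finset.mem_powerset.2 Finset.inter_subset_right)]
  refine Finset.sum_congr rfl fun S hS => ?_
  have h6 : ∀ T ∈ (SF A).filter (fun T => T ∩ B = S),
      ENNReal.ofReal ((1 : ℝ) / (SF A).card) •
        Measure.pi (fun j : J => nu (sgn (decide ((φ j).1 ∈ T)))) =
      ENNReal.ofReal ((1 : ℝ) / (SF A).card) •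
        Measure.pi (fun j : J => nu (sgn (decide ((φ j).1 ∈ S)))) := by
    intro T hT
    have h7 := (Finset.mem_filter.1 hT).2
    have h8 : (fun j : J => nu (sgn (decide ((φ j).1 ∈ T)))) =
        fun j : J => nu (sgn (decide ((φ j).1 ∈ S))) := by
      funext j
      have h9 : ((φ j).1 ∈ T) = ((φ j).1 ∈ S) := by
        rw [← h7]
        exact propext ⟨fun h => Finset.mem_inter.2 ⟨h, hB j⟩, fun h => (Finset.mem_inter.1 h).1⟩
      simp only [h9]
    rw [h8]
  rw [Finset.sum_congr rfl h6, Finset.sum_const, ← Nat.cast_smul_eq_nsmul ENNReal, smul_smul]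
  congr 1
  unfold freq
  rw [div_eq_mul_one_div (((SF A).filter (fun T => T ∩ B = S)).card : ℝ),
    ENNReal.ofReal_mul (by positivity), ENNReal.ofReal_natCast]

/-- finite volume law, labels fixed, restricted to finitely many observations -/
lemma finite_law_fixedJ {Q : unitInterval → ℝ → ℝ} (hQ : IsChannel Q) [Countable V]
    {A : Finset (Sym2 V)} (hA : Loopless A) {J : Type*} [Fintype J] (φ : J → Sym2 V × ℕ)
    (hφ : Function.Injective φ) (B : Finset (Sym2 V)) (hBA : B ⊆ A) (hB : ∀ j, (φ j).1 ∈ B)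
    (t : Sym2 V → unitInterval) (ht : ∀ e ∈ A, ∀ f ∈ A, t e = t f → e = f) :
    (iidUniform (Sym2 V × ℕ)).map (fun ξ => fun j : J => obs Q (pr A) t ξ (φ j).2 (φ j).1) =
        mixJ φ B (freq A B) := by
  -- number of rounds
  obtain ⟨K, hK⟩ : ∃ K : ℕ, ∀ j, (φ j).2 < K := by
    refine ⟨(Finset.univ.sup fun j => (φ j).2) + 1, fun j => ?_⟩
    exact Nat.lt_succ_of_le (Finset.le_sup (f := fun j => (φ j).2) (Finset.mem_univ j))
  let ψ : J → A × Fin K := fun j => (⟨(φ j).1, hBA (hB j)⟩, ⟨(φ j).2, hK j⟩)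
  have hψ : Function.Injective ψ := by
    intro i j hij
    apply hφ
    simp only [ψ, Prod.mk.injEq, Subtype.mk.injEq, Fin.mk.injEq] at hij
    exact Prod.ext hij.1 hij.2
  have h1 := finite_law_fixed hQ hA K t ht
  have hres : Measurable (fun y : A × Fin K → ℝ => fun j : J => y (ψ j)) := by
    fun_prop
  have hmt : Measurable (fun ξ : Sym2 V × ℕ → unitInterval => fun p : A × Fin K =>
      obs Q (pr A) t ξ p.2 p.1) := by
    rw [measurable_pi_iff]
    intro p
    exact measurable_obs_pr_right hQ hA t _ _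
  have h2 := congrArg (Measure.map (fun y : A × Fin K → ℝ => fun j : J => y (ψ j))) h1
  rw [Measure.map_map hres hmt, Measure.map_finset_sum' hres.aemeasurable] at h2
  have h3 : ∀ ω : {T // T ∈ SF A}, (ENNReal.ofReal ((1 : ℝ) / (SF A).card) •
      Measure.pi (fun p : A × Fin K => nu (sgn (decide ((p.1 : Sym2 V) ∈ ω.1))))).map
        (fun y : A × Fin K → ℝ => fun j : J => y (ψ j)) =
      ENNReal.ofReal ((1 : ℝ) / (SF A).card) •
        Measure.pi (fun j : J => nu (sgn (decide ((φ j).1 ∈ ω.1)))) := by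
    intro ω
    rw [Measure.map_smul]
    congr 1
    have h4 := Measure.map_infinitePi_infinitePi_of_inj
      (P := fun p : A × Fin K => nu (sgn (decide ((p.1 : Sym2 V) ∈ ω.1)))) hψ
    rw [Measure.infinitePi_eq_pi, Measure.infinitePi_eq_pi] at h4
    exact h4
  rw [Finset.sum_congr rfl fun ω _ => h3 ω] at h2
  exact h2.trans (group_forests φ hB)

/-- finite volume law, restricted to finitely many observations -/
lemma finite_law {Q : unitInterval → ℝ → ℝ} (hQ : IsChannel Q) [Countable V]
    {A : Finset (Sym2 V)} (hA : Loopless A) {J : Type*} [Fintype J] (φ : J → Sym2 V × ℕ)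
    (hφ : Function.Injective φ) (B : Finset (Sym2 V)) (hBA : B ⊆ A) (hB : ∀ j, (φ j).1 ∈ B) :
    (noiseLaw V).map (fun x => fun j : J => obs Q (pr A) x.1 x.2 (φ j).2 (φ j).1) =
      mixJ φ B (freq A B) := by
  have hmeas : Measurable (fun x : NoiseSp V => fun j : J =>
      obs Q (pr A) x.1 x.2 (φ j).2 (φ j).1) := by
    rw [measurable_pi_iff]
    intro j
    exact measurable_obs_pr hQ hA _ _
  have hmt : ∀ t : Sym2 V → unitInterval, Measurable (fun ξ : Sym2 V × ℕ → unitInterval =>
      fun j : J => obs Q (pr A) t ξ (φ j).2 (φ j).1) := by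
    intro t
    rw [measurable_pi_iff]
    intro j
    exact measurable_obs_pr_right hQ hA t _ _
  ext s hs
  rw [Measure.map_apply hmeas hs]
  unfold noiseLaw
  rw [Measure.prod_apply (hmeas hs)]
  have hae : ∀ᵐ t ∂(iidUniform (Sym2 V)), Function.Injective t := Noise.ae_injective (Sym2 V)
  have h10 : (∫⁻ t, (iidUniform (Sym2 V × ℕ)) (Prod.mk t ⁻¹'
      ((fun x : NoiseSp V => fun j : J => obs Q (pr A) x.1 x.2 (φ j).2 (φ j).1) ⁻¹' s))
        ∂(iidUniform (Sym2 V))) = ∫⁻ _t, mixJ φ B (freq A B) s ∂(iidUniform (Sym2 V)) := by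
    refine lintegral_congr_ae ?_
    filter_upwards [hae] with t ht
    rw [← finite_law_fixedJ hQ hA φ hφ B hBA hB t (fun e _ f _ h => ht h),
      Measure.map_apply (hmt t) hs]
    rfl
  rw [h10, lintegral_const, measure_univ, mul_one]

end

end Vale.Agent.P143
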