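import Mathlib
import Vale.Agent.P143.FiniteLaw

/-! P143: the law of the revealed observations in infinite volume, and decoding. -/

namespace Vale.Agent.P143

open MeasureTheory Filter Topology Set

noncomputable section

open Classical

variable {V : Type*}

instance mixJ_finite {J : Type*} [Fintype J] (φ : J → Sym2 V × ℕ) (B : Finset (Sym2 V))
    (q : Finset (Sym2 V) → ℝ) : IsFiniteMeasure (mixJ φ B q) := by
  constructor
  unfold mixJ
  rw [Measure.finsetSum_apply]
  refine ENNReal.sum_lt_top.2 fun S _ => ?_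
  rw [Measure.smul_apply, smul_eq_mul, measure_univ, mul_one]
  exact ENNReal.ofReal_lt_top

lemma integral_mixJ {J : Type*} [Fintype J] (φ : J → Sym2 V × ℕ) (B : Finset (Sym2 V))
    {q : Finset (Sym2 V) → ℝ} (hq : ∀ S, 0 ≤ q S) (f : BoundedContinuousFunction (J → ℝ) ℝ) :
    ∫ y, f y ∂(mixJ φ B q) =
      ∑ S ∈ B.powerset, q S * ∫ y, f y ∂(Measure.pi (fun j => nu (sgn (decide ((φ j).1 ∈ S))))) := by
  unfold mixJ
  rw [integral_finsetSum_measure]
  · refine Finset.sum_congr rfl fun S _ => ?_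
    rw [integral_smul_measure, ENNReal.toReal_ofReal (hq S), smul_eq_mul]
  · intro S _
    exact (f.integrable _).smul_measure ENNReal.ofReal_ne_top

section

variable [Countable V] {Q : unitInterval → ℝ → ℝ} (hQ : IsChannel Q) {G : SimpleGraph V}
  {A : ℕ → Finset (Sym2 V)} (hmono : Monotone A) (hunion : ∀ f, f ∈ G.edgeSet ↔ ∃ n, f ∈ A n)

include hQ hmono hunion

omit [Countable V] in
lemma obs_pr_tendsto (x : NoiseSp V) (k : ℕ) (e : Sym2 V) :
    Tendsto (fun n => obs Q (pr (A n)) x.1 x.2 k e) atTop (𝓝 (obs Q (pinf G) x.1 x.2 k e)) :=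
  obs_tendsto hQ (isField_pinf G) (fun n => isField_pr (loopless_of_subset (A_subset hunion n)))
    (fieldConv_pr hmono hunion) x.1 x.2 k e

/-- the law of finitely many infinite-volume observations -/
lemma inf_law_J (u : Ultrafilter ℕ) (hu : (u : Filter ℕ) ≤ atTop) (B : Finset (Sym2 V))
    (hBG : (B : Set (Sym2 V)) ⊆ G.edgeSet) (q : Finset (Sym2 V) → ℝ)
    (hq : ∀ S, Tendsto (fun n => freq (A n) B S) u (𝓝 (q S)))
    {J : Type*} [Fintype J] (φ : J → Sym2 V × ℕ) (hφ : Function.Injective φ)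
    (hB : ∀ j, (φ j).1 ∈ B) :
    (noiseLaw V).map (fun x => fun j : J => obs Q (pinf G) x.1 x.2 (φ j).2 (φ j).1) =
      mixJ φ B q := by
  have hq0 : ∀ S, 0 ≤ q S := fun S =>
    ge_of_tendsto (hq S) (Eventually.of_forall fun n => freq_nonneg _ _ _)
  have hmeas : Measurable (fun x : NoiseSp V => fun j : J =>
      obs Q (pinf G) x.1 x.2 (φ j).2 (φ j).1) := by
    rw [measurable_pi_iff]
    intro j
    exact measurable_obs_pinf hQ G _ _
  have hmeasn : ∀ n, Measurable (fun x : NoiseSp V => fun j : J =>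
      obs Q (pr (A n)) x.1 x.2 (φ j).2 (φ j).1) := by
    intro n
    rw [measurable_pi_iff]
    intro j
    exact measurable_obs_pr hQ (loopless_of_subset (A_subset hunion n)) _ _
  have : IsProbabilityMeasure ((noiseLaw V).map (fun x => fun j : J =>
      obs Q (pinf G) x.1 x.2 (φ j).2 (φ j).1)) :=
    Measure.isProbabilityMeasure_map hmeas.aemeasurable
  apply ext_of_forall_integral_eq_of_IsFiniteMeasure
  intro f
  rw [integral_map hmeas.aemeasurable f.continuous.aestronglyMeasurable, integral_mixJ φ B hq0]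
  -- convergence of the integrals
  have h1 : Tendsto (fun n => ∫ x, f (fun j : J => obs Q (pr (A n)) x.1 x.2 (φ j).2 (φ j).1)
      ∂(noiseLaw V)) atTop
      (𝓝 (∫ x, f (fun j : J => obs Q (pinf G) x.1 x.2 (φ j).2 (φ j).1) ∂(noiseLaw V))) := by
    refine tendsto_integral_of_dominated_convergence (fun _ => ‖f‖) ?_ (integrable_const _) ?_ ?_
    · intro n
      exact (f.continuous.measurable.comp (hmeasn n)).aestronglyMeasurable
    · intro n
      exact Eventually.of_forall fun x => f.norm_coe_le_norm _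
    · refine Eventually.of_forall fun x => ?_
      refine (f.continuous.tendsto _).comp ?_
      rw [tendsto_pi_nhds]
      intro j
      exact obs_pr_tendsto hQ hmono hunion x _ _
  have h2 : ∀ᶠ n in atTop, (∫ x, f (fun j : J => obs Q (pr (A n)) x.1 x.2 (φ j).2 (φ j).1)
      ∂(noiseLaw V)) = ∑ S ∈ B.powerset, freq (A n) B S *
        ∫ y, f y ∂(Measure.pi (fun j => nu (sgn (decide ((φ j).1 ∈ S))))) := by
    filter_upwards [eventually_subset hmono hunion B hBG] with n hn
    have h3 := finite_law hQ (loopless_of_subset (A_subset hunion n)) φ hφ B hn hB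
    rw [← integral_mixJ φ B (fun S => freq_nonneg (A n) B S) f, ← h3,
      integral_map (hmeasn n).aemeasurable f.continuous.aestronglyMeasurable]
  have h4 : Tendsto (fun n => ∑ S ∈ B.powerset, freq (A n) B S *
        ∫ y, f y ∂(Measure.pi (fun j => nu (sgn (decide ((φ j).1 ∈ S)))))) u
      (𝓝 (∑ S ∈ B.powerset, q S *
        ∫ y, f y ∂(Measure.pi (fun j => nu (sgn (decide ((φ j).1 ∈ S))))))) :=
    tendsto_finsetSum _ fun S _ => (hq S).mul_const _
  have h5 := (h1.mono_left hu).congr' (hu h2)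
  exact tendsto_nhds_unique h5 h4

/-- the law of all infinite-volume observations of the edges of `B` -/
lemma inf_law (u : Ultrafilter ℕ) (hu : (u : Filter ℕ) ≤ atTop) (B : Finset (Sym2 V))
    (hBG : (B : Set (Sym2 V)) ⊆ G.edgeSet) (q : Finset (Sym2 V) → ℝ)
    (hq : ∀ S, Tendsto (fun n => freq (A n) B S) u (𝓝 (q S))) :
    (noiseLaw V).map (fun x => fun p : B × ℕ => obs Q (pinf G) x.1 x.2 p.2 p.1) =
      ∑ S ∈ B.powerset, ENNReal.ofReal (q S) •
        Measure.infinitePi (fun p : B × ℕ => nu (sgn (decide ((p.1 : Sym2 V) ∈ S)))) := by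
  have hmeas : Measurable (fun x : NoiseSp V => fun p : B × ℕ =>
      obs Q (pinf G) x.1 x.2 p.2 p.1) := by
    rw [measurable_pi_iff]
    intro p
    exact measurable_obs_pinf hQ G _ _
  refine IsProjectiveLimit.unique
    (P := fun I : Finset (B × ℕ) => mixJ (fun j : I => ((j.1.1 : Sym2 V), j.1.2)) B q) ?_ ?_
  · intro I
    rw [Measure.map_map (by fun_prop) hmeas]
    exact inf_law_J hQ hmono hunion u hu B hBG q hq (fun j : I => ((j.1.1 : Sym2 V), j.1.2))
      (by
        intro i j hij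
        simp only [Prod.mk.injEq] at hij
        exact Subtype.ext (Prod.ext (Subtype.ext hij.1) hij.2))
      (fun j => j.1.1.2)
  · intro I
    rw [Measure.map_finset_sum (by fun_prop)]
    unfold mixJ
    refine Finset.sum_congr rfl fun S _ => ?_
    rw [Measure.map_smul]
    congr 1
    rw [Measure.infinitePi_map_restrict]

/-- decoding -/
lemma decode_prob {D : (ℕ → ℝ) → Bool} (hDm : Measurable D)
    (hD : ∀ b : Bool, ∀ᵐ y ∂(Measure.infinitePi fun _ : ℕ => nu (sgn b)), D y = b)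
    (u : Ultrafilter ℕ) (hu : (u : Filter ℕ) ≤ atTop) (B : Finset (Sym2 V))
    (hBG : (B : Set (Sym2 V)) ⊆ G.edgeSet) (q : Finset (Sym2 V) → ℝ)
    (hq : ∀ S, Tendsto (fun n => freq (A n) B S) u (𝓝 (q S))) (S₀ : Finset (Sym2 V))
    (hS₀ : S₀ ⊆ B) :
    (noiseLaw V) {x | ∀ e ∈ B, D (fun k => obs Q (pinf G) x.1 x.2 k e) = decide (e ∈ S₀)} =
      ENNReal.ofReal (q S₀) := by
  have hmeas : Measurable (fun x : NoiseSp V => fun p : B × ℕ =>
      obs Q (pinf G) x.1 x.2 p.2 p.1) := by
    rw [measurable_pi_iff]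
    intro p
    exact measurable_obs_pinf hQ G _ _
  have hcoord : ∀ e : B, Measurable (fun y : B × ℕ → ℝ => fun k : ℕ => y (e, k)) := by
    intro e
    fun_prop
  have hset : MeasurableSet {y : B × ℕ → ℝ | ∀ e : B, D (fun k => y (e, k)) =
      decide ((e : Sym2 V) ∈ S₀)} := by
    have : {y : B × ℕ → ℝ | ∀ e : B, D (fun k => y (e, k)) = decide ((e : Sym2 V) ∈ S₀)} =
        ⋂ e : B, (fun y : B × ℕ → ℝ => D (fun k => y (e, k))) ⁻¹' {decide ((e : Sym2 V) ∈ S₀)} := by
      ext y
      simp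
    rw [this]
    exact MeasurableSet.iInter fun e => (hDm.comp (hcoord e)) (MeasurableSet.singleton _)
  have h1 : {x : NoiseSp V | ∀ e ∈ B, D (fun k => obs Q (pinf G) x.1 x.2 k e) =
      decide (e ∈ S₀)} = (fun x : NoiseSp V => fun p : B × ℕ =>
        obs Q (pinf G) x.1 x.2 p.2 p.1) ⁻¹' {y : B × ℕ → ℝ | ∀ e : B, D (fun k => y (e, k)) =
          decide ((e : Sym2 V) ∈ S₀)} := by
    ext x
    simp only [mem_ofPred_eq, mem_preimage]
    exact ⟨fun h e => h e e.2, fun h e he => h ⟨e, he⟩⟩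
  rw [h1, ← Measure.map_apply hmeas hset, inf_law hQ hmono hunion u hu B hBG q hq,
    Measure.finsetSum_apply]
  -- almost sure decoding
  have h2 : ∀ S ∈ B.powerset,
      ∀ᵐ y ∂(Measure.infinitePi (fun p : B × ℕ => nu (sgn (decide ((p.1 : Sym2 V) ∈ S))))),
        ∀ e : B, D (fun k => y (e, k)) = decide ((e : Sym2 V) ∈ S) := by
    intro S _
    rw [ae_all_iff]
    intro e
    have h3 := Measure.map_infinitePi_infinitePi_of_inj
      (P := fun p : B × ℕ => nu (sgn (decide ((p.1 : Sym2 V) ∈ S))))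
      (f := fun k : ℕ => (e, k)) (fun i j hij => (Prod.mk.inj hij).2)
    have h4 := hD (decide ((e : Sym2 V) ∈ S))
    rw [← h3] at h4
    exact ae_of_ae_map (hcoord e).aemeasurable h4
  rw [Finset.sum_eq_single_of_mem S₀ (Finset.mem_powerset.2 hS₀)]
  · rw [Measure.smul_apply, smul_eq_mul]
    have h3 : (Measure.infinitePi (fun p : B × ℕ => nu (sgn (decide ((p.1 : Sym2 V) ∈ S₀)))))
        {y : B × ℕ → ℝ | ∀ e : B, D (fun k => y (e, k)) = decide ((e : Sym2 V) ∈ S₀)} = 1 := by
      rw [prob_compl_eq_zero_iff hset |>.symm]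
      exact h2 S₀ (Finset.mem_powerset.2 hS₀)
    rw [h3, mul_one]
  · intro S hS hne
    rw [Measure.smul_apply, smul_eq_mul]
    have h3 : (Measure.infinitePi (fun p : B × ℕ => nu (sgn (decide ((p.1 : Sym2 V) ∈ S)))))
        {y : B × ℕ → ℝ | ∀ e : B, D (fun k => y (e, k)) = decide ((e : Sym2 V) ∈ S₀)} = 0 := by
      refine measure_mono_null ?_ (h2 S hS)
      intro y hy hc
      apply hne
      ext e
      by_cases he : e ∈ B
      · have e1 := hy ⟨e, he⟩
        have e2 := hc ⟨e, he⟩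
        rw [e1] at e2
        simp only at e2
        have e3 : (e ∈ S₀) = (e ∈ S) := by
          by_cases h5 : e ∈ S₀ <;> by_cases h6 : e ∈ S <;> simp_all
        rw [e3]
      · exact ⟨fun h => absurd (Finset.mem_powerset.1 hS h) he, fun h => absurd (hS₀ h) he⟩
    rw [h3, mul_zero]

/-- convergence of the cylinder probabilities along the exhaustion -/
theorem freq_tendsto {D : (ℕ → ℝ) → Bool} (hDm : Measurable D)
    (hD : ∀ b : Bool, ∀ᵐ y ∂(Measure.infinitePi fun _ : ℕ => nu (sgn b)), D y = b)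
    (B : Finset (Sym2 V)) (hBG : (B : Set (Sym2 V)) ⊆ G.edgeSet) (S₀ : Finset (Sym2 V))
    (hS₀ : S₀ ⊆ B) :
    Tendsto (fun n => freq (A n) B S₀) atTop (𝓝 ((noiseLaw V)
      {x | ∀ e ∈ B, D (fun k => obs Q (pinf G) x.1 x.2 k e) = decide (e ∈ S₀)}).toReal) := by
  rw [tendsto_iff_ultrafilter]
  intro u hu
  have hex : ∀ S, ∃ z ∈ Icc (0 : ℝ) 1, Tendsto (fun n => freq (A n) B S) u (𝓝 z) := by
    intro S
    have := (isCompact_Icc (a := (0 : ℝ)) (b := 1)).ultrafilter_le_nhds'
      (u.map fun n => freq (A n) B S) (by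
        rw [Ultrafilter.mem_map]
        exact Filter.univ_mem' fun n => ⟨freq_nonneg _ _ _, freq_le_one _ _ _⟩)
    obtain ⟨z, hz, h⟩ := this
    exact ⟨z, hz, h⟩
  choose q hq0 hq using hex
  rw [decode_prob hQ hmono hunion hDm hD u hu B hBG q hq S₀ hS₀,
    ENNReal.toReal_ofReal (hq0 S₀).1]
  exact hq S₀

end

end

end Vale.Agent.P143
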