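import Vale.Agent.P143.Basic
import Vale.Agent.P143.Defs

/-! P143: facts on uniform spanning trees of finite graphs, weak convergence, exhaustions. -/

namespace Vale.Agent.P143

open MeasureTheory Filter Topology Set

noncomputable section

/-- weak convergence on `{0,1}^E` follows from convergence of the cylinder probabilities -/
theorem weak_of_cylinder {E : Type*} [Countable E] (μn : ℕ → Measure (E → Bool))
    (μ : Measure (E → Bool)) [∀ n, IsProbabilityMeasure (μn n)] [IsProbabilityMeasure μ]
    (h : ∀ (B : Finset E) (σ : E → Bool),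
      Tendsto (fun n => (μn n {x | ∀ e ∈ B, x e = σ e}).toReal) atTop
        (𝓝 (μ {x | ∀ e ∈ B, x e = σ e}).toReal))
    (f : BoundedContinuousFunction (E → Bool) ℝ) :
    Tendsto (fun n => ∫ x, f x ∂(μn n)) atTop (𝓝 (∫ x, f x ∂μ)) := by
  classical
  let C : Set (Set (E → Bool)) :=
    {s | ∃ (B : Finset E) (σ : E → Bool), s = {x | ∀ e ∈ B, x e = σ e}}
  have hC : IsPiSystem C := by
    rintro s ⟨B, σ, rfl⟩ t ⟨B', σ', rfl⟩ ⟨z, hz, hz'⟩
    refine ⟨B ∪ B', z, ?_⟩
    ext x
    simp only [mem_inter_iff, Set.mem_ofPred_eq, Finset.mem_union]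
    have hz1 : ∀ e ∈ B, z e = σ e := hz
    have hz2 : ∀ e ∈ B', z e = σ' e := hz'
    constructor
    · rintro ⟨h1, h2⟩ e (he | he)
      · rw [h1 e he, hz1 e he]
      · rw [h2 e he, hz2 e he]
    · intro h1
      refine ⟨fun e he => ?_, fun e he => ?_⟩
      · rw [h1 e (Or.inl he), hz1 e he]
      · rw [h1 e (Or.inr he), hz2 e he]
  have hset : ∀ (B : Finset E) (σ : E → Bool),
      ({x : E → Bool | ∀ e ∈ B, x e = σ e} : Set (E → Bool)) =
        Set.pi (B : Set E) (fun e => {σ e}) := by
    intro B σ
    ext x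
    simp [Set.mem_pi]
  have hmeas : ∀ s ∈ C, MeasurableSet s := by
    rintro s ⟨B, σ, rfl⟩
    rw [hset]
    exact MeasurableSet.pi B.countable_toSet (fun e _ => measurableSet_singleton _)
  have hopen : ∀ (B : Finset E) (σ : E → Bool),
      IsOpen ({x : E → Bool | ∀ e ∈ B, x e = σ e} : Set (E → Bool)) := by
    intro B σ
    rw [hset]
    exact isOpen_set_pi B.finite_toSet (fun e _ => isOpen_discrete _)
  have hnb : ∀ (u : Set (E → Bool)), IsOpen u → ∀ x ∈ u, ∃ s ∈ C, s ∈ 𝓝 x ∧ s ⊆ u := by
    intro u hu x hx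
    obtain ⟨I, v, hv, hIv⟩ := isOpen_pi_iff.mp hu x hx
    refine ⟨{y | ∀ e ∈ I, y e = x e}, ⟨I, x, rfl⟩, (hopen I x).mem_nhds (fun e _ => rfl), ?_⟩
    intro y hy
    apply hIv
    intro e he
    have hy' : ∀ e ∈ I, y e = x e := hy
    rw [hy' e he]
    exact (hv e he).2
  let μn' : ℕ → ProbabilityMeasure (E → Bool) := fun n => ⟨μn n, inferInstance⟩
  let μ' : ProbabilityMeasure (E → Bool) := ⟨μ, inferInstance⟩
  have key : Tendsto μn' atTop (𝓝 μ') := by
    refine hC.tendsto_probabilityMeasure_of_tendsto_of_mem hmeas hnb ?_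
    rintro s ⟨B, σ, rfl⟩
    have h1 := h B σ
    rw [← NNReal.tendsto_coe]
    exact h1
  exact (ProbabilityMeasure.tendsto_iff_forall_integral_tendsto.mp key) f

/-- a countable connected graph has an exhaustion by finite connected subgraphs -/
theorem exists_exhaustion {V : Type*} [Countable V] (G : SimpleGraph V) (hG : G.Connected) :
    ∃ H : ℕ → G.Subgraph, IsExhaustion G H := by
  classical
  obtain ⟨o⟩ := hG.nonempty
  have : Nonempty (V × V) := ⟨(o, o)⟩
  obtain ⟨g, hg⟩ := exists_surjective_nat (V × V)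
  let W : ∀ v, G.Walk o v := fun v => (hG.preconnected o v).some
  let K : ℕ → G.Subgraph := fun n =>
    if h : G.Adj (g n).1 (g n).2 then
      ((W (g n).1).concat h).toSubgraph else (W (g n).1).toSubgraph
  have hKc : ∀ n, (K n).Connected := by
    intro n
    simp only [K]
    split_ifs with h
    · exact SimpleGraph.Walk.toSubgraph_connected _
    · exact SimpleGraph.Walk.toSubgraph_connected _
  have hKo : ∀ n, o ∈ (K n).verts := by
    intro n
    simp only [K]
    split_ifs with h
    · exact SimpleGraph.Walk.start_mem_verts_toSubgraph _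
    · exact SimpleGraph.Walk.start_mem_verts_toSubgraph _
  have hKf : ∀ n, (K n).verts.Finite := by
    intro n
    simp only [K]
    split_ifs with h
    · rw [SimpleGraph.Walk.verts_toSubgraph]
      exact List.finite_toSet _
    · rw [SimpleGraph.Walk.verts_toSubgraph]
      exact List.finite_toSet _
  let H : ℕ → G.Subgraph := fun n => Nat.rec (K 0) (fun k S => S ⊔ K (k + 1)) n
  have hH0 : H 0 = K 0 := rfl
  have hHs : ∀ n, H (n + 1) = H n ⊔ K (n + 1) := fun n => rfl
  have hmono : Monotone H := monotone_nat_of_le_succ (fun n => by rw [hHs]; exact le_sup_left)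
  have hKH : ∀ n, K n ≤ H n := by
    intro n
    cases n with
    | zero => rw [hH0]
    | succ n => rw [hHs]; exact le_sup_right
  have hHo : ∀ n, o ∈ (H n).verts := fun n => (hKH n).1 (hKo n)
  refine ⟨H, hmono, ?_, ?_, ?_⟩
  · intro n
    induction n with
    | zero => rw [hH0]; exact hKf 0
    | succ n ih =>
      rw [hHs, SimpleGraph.Subgraph.verts_sup]
      exact ih.union (hKf _)
  · intro n
    induction n with
    | zero => rw [hH0]; exact hKc 0
    | succ n ih =>
      rw [hHs]
      exact SimpleGraph.Subgraph.connected_sup ih.preconnected (hKc _).preconnected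
        ⟨o, hHo n, hKo _⟩
  · rw [eq_top_iff]
    refine ⟨?_, ?_⟩
    · intro v _
      rw [SimpleGraph.Subgraph.verts_iSup, Set.mem_iUnion]
      obtain ⟨n, hn⟩ := hg (v, v)
      refine ⟨n, (hKH n).1 ?_⟩
      have h1 : ¬ G.Adj (g n).1 (g n).2 := by rw [hn]; exact G.loopless.irrefl v
      simp only [K, dif_neg h1]
      have h2 := SimpleGraph.Walk.end_mem_verts_toSubgraph (W (g n).1)
      rwa [hn] at h2 ⊢
    · intro u v huv
      rw [SimpleGraph.Subgraph.iSup_adj]
      obtain ⟨n, hn⟩ := hg (u, v)
      refine ⟨n, (hKH n).2 ?_⟩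
      have huv' : G.Adj u v := huv
      have h1 : G.Adj (g n).1 (g n).2 := by rw [hn]; exact huv'
      simp only [K, dif_pos h1]
      rw [SimpleGraph.Walk.adj_toSubgraph_iff_mem_edges, SimpleGraph.Walk.edges_concat]
      simp [hn]

section spanning

open Classical

variable {V : Type*} {G : SimpleGraph V}

lemma fes_adj {T : Finset (Sym2 V)} {x y : V} :
    (SimpleGraph.fromEdgeSet (T : Set (Sym2 V))).Adj x y ↔ s(x, y) ∈ T ∧ x ≠ y := by
  simp

/-- spanning trees of a finite connected subgraph are the maximal spanning forests of its edge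
set -/
theorem isSpanningTree_iff (H : G.Subgraph) (hc : H.Connected) (A : Finset (Sym2 V))
    (hA : (A : Set (Sym2 V)) = H.edgeSet) (T : Finset (Sym2 V)) :
    IsSpanningTree H (T : Set (Sym2 V)) ↔ T ∈ SF A := by
  have hAadj : ∀ x y, s(x, y) ∈ A ↔ H.Adj x y := by
    intro x y
    have h1 : s(x, y) ∈ (A : Set (Sym2 V)) ↔ s(x, y) ∈ H.edgeSet := by rw [hA]
    rw [Finset.mem_coe] at h1
    rw [h1]; exact SimpleGraph.Subgraph.mem_edgeSet
  constructor
  · rintro ⟨T', hle, hv, htree, hT⟩
    have hTadj : ∀ x y, s(x, y) ∈ T ↔ T'.Adj x y := by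
      intro x y
      have h1 : s(x, y) ∈ T'.edgeSet ↔ s(x, y) ∈ (T : Set (Sym2 V)) := by rw [hT]
      rw [Finset.mem_coe] at h1
      rw [← h1]; exact SimpleGraph.Subgraph.mem_edgeSet
    have hsc : SimpleGraph.fromEdgeSet (T : Set (Sym2 V)) = T'.spanningCoe := by
      ext x y
      rw [fes_adj, hTadj]
      constructor
      · rintro ⟨h1, _⟩; exact h1
      · intro h1; exact ⟨h1, T'.adj_sub h1 |>.ne⟩
    simp only [SF, Finset.mem_filter, Finset.mem_powerset, IsSF]
    have hTA : T ⊆ A := by
      intro e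
      induction e using Sym2.ind with
      | _ x y =>
        intro he
        rw [hTadj] at he
        rw [hAadj]
        exact hle.2 he
    refine ⟨hTA, hTA, ?_, ?_⟩
    · -- acyclic
      rw [hsc]
      rw [SimpleGraph.isAcyclic_iff_forall_adj_isBridge]
      intro x y hxy
      have hxy' : T'.Adj x y := hxy
      have hx : x ∈ T'.verts := T'.edge_vert hxy'
      have hy : y ∈ T'.verts := T'.edge_vert hxy'.symm
      rw [SimpleGraph.isBridge_iff]
      intro hreach
      have hbr := SimpleGraph.isAcyclic_iff_forall_adj_isBridge.mp htree.isAcyclic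
        (show T'.coe.Adj ⟨x, hx⟩ ⟨y, hy⟩ from hxy')
      rw [SimpleGraph.isBridge_iff] at hbr
      apply hbr
      -- transfer the walk
      have key : ∀ u w : V, (T'.spanningCoe.deleteEdges {s(x, y)}).Walk u w →
          ∀ hu : u ∈ T'.verts, ∃ hw : w ∈ T'.verts,
            (T'.coe.deleteEdges {s((⟨x, hx⟩ : T'.verts), ⟨y, hy⟩)}).Reachable ⟨u, hu⟩ ⟨w, hw⟩ := by
        intro u w p
        induction p with
        | nil => intro hu; exact ⟨hu, SimpleGraph.Reachable.refl _⟩
        | @cons a b c hab q ih =>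
          intro ha
          rw [SimpleGraph.deleteEdges_adj] at hab
          obtain ⟨hab1, hab2⟩ := hab
          have hab1' : T'.Adj a b := hab1
          have hb : b ∈ T'.verts := T'.edge_vert hab1'.symm
          obtain ⟨hw, hr⟩ := ih hb
          refine ⟨hw, SimpleGraph.Reachable.trans (SimpleGraph.Adj.reachable ?_) hr⟩
          rw [SimpleGraph.deleteEdges_adj]
          refine ⟨hab1', ?_⟩
          intro h3
          apply hab2
          rw [Set.mem_singleton_iff] at h3 ⊢
          rw [Sym2.eq_iff] at h3 ⊢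
          rcases h3 with ⟨h4, h5⟩ | ⟨h4, h5⟩
          · exact Or.inl ⟨congrArg Subtype.val h4, congrArg Subtype.val h5⟩
          · exact Or.inr ⟨congrArg Subtype.val h4, congrArg Subtype.val h5⟩
      obtain ⟨p⟩ := hreach
      obtain ⟨_, hr⟩ := key x y p hx
      exact hr
    · intro u v huv
      by_cases huv' : u = v
      · rw [huv']
      · have hends : ∀ a b : V, (SimpleGraph.fromEdgeSet (A : Set (Sym2 V))).Reachable a b →
            a ≠ b → a ∈ H.verts := by
          intro a b hab hne
          obtain ⟨p⟩ := hab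
          cases p with
          | nil => exact absurd rfl hne
          | cons h q =>
            rw [fes_adj, hAadj] at h
            exact H.edge_vert h.1
        have hu : u ∈ T'.verts := by rw [hv]; exact hends u v huv huv'
        have hv' : v ∈ T'.verts := by rw [hv]; exact hends v u huv.symm (Ne.symm huv')
        have h1 := htree.connected.preconnected ⟨u, hu⟩ ⟨v, hv'⟩
        rw [hsc]
        have h2 := h1.map (T'.coeEmbeddingSpanningCoe.toHom)
        exact h2
  · intro hT
    simp only [SF, Finset.mem_filter, Finset.mem_powerset, IsSF] at hT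
    obtain ⟨hTA, _, hac, hre⟩ := hT
    have hTsub : ∀ x y, s(x, y) ∈ T → H.Adj x y := by
      intro x y h
      rw [← hAadj]
      exact hTA h
    let T' : G.Subgraph :=
      { verts := H.verts
        Adj := fun x y => s(x, y) ∈ T
        adj_sub := fun {x y} h => H.adj_sub (hTsub x y h)
        edge_vert := fun {x y} h => H.edge_vert (hTsub x y h)
        symm := ⟨fun x y h => by rw [Sym2.eq_swap]; exact h⟩ }
    have hne : Nonempty T'.verts := hc.nonempty.coe_sort
    have hpre : T'.coe.Preconnected := by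
      rintro ⟨u, hu⟩ ⟨v, hv⟩
      have h1 : H.coe.Reachable ⟨u, hu⟩ ⟨v, hv⟩ := hc.preconnected.coe _ _
      have h2 : (SimpleGraph.fromEdgeSet (A : Set (Sym2 V))).Reachable u v := by
        let φ : H.coe →g SimpleGraph.fromEdgeSet (A : Set (Sym2 V)) :=
          { toFun := Subtype.val
            map_rel' := by
              intro a b hab
              have hab' : H.Adj a b := hab
              rw [fes_adj, hAadj]
              exact ⟨hab', (H.adj_sub hab').ne⟩ }
        exact h1.map φ
      have h3 := hre u v h2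
      have key : ∀ u w : V, (SimpleGraph.fromEdgeSet (T : Set (Sym2 V))).Walk u w →
          ∀ hu : u ∈ T'.verts, ∃ hw : w ∈ T'.verts, T'.coe.Reachable ⟨u, hu⟩ ⟨w, hw⟩ := by
        intro u w p
        induction p with
        | nil => intro hu; exact ⟨hu, SimpleGraph.Reachable.refl _⟩
        | @cons a b c hab q ih =>
          intro ha
          rw [fes_adj] at hab
          have hab' : T'.Adj a b := hab.1
          have hb : b ∈ T'.verts := T'.edge_vert hab'.symm
          obtain ⟨hw, hr⟩ := ih hb
          refine ⟨hw, SimpleGraph.Reachable.trans (SimpleGraph.Adj.reachable ?_) hr⟩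
          exact hab'
      obtain ⟨p⟩ := h3
      obtain ⟨_, hr⟩ := key u v p hu
      exact hr
    have hacy : T'.coe.IsAcyclic := by
      let φ : T'.coe →g SimpleGraph.fromEdgeSet (T : Set (Sym2 V)) :=
        { toFun := Subtype.val
          map_rel' := by
            intro a b hab
            have hab' : s((a : V), (b : V)) ∈ T := hab
            rw [fes_adj]
            exact ⟨hab', (H.adj_sub (hTsub _ _ hab')).ne⟩ }
      exact hac.comap φ Subtype.val_injective
    refine ⟨T', ⟨le_refl _, fun x y h => hTsub x y h⟩, rfl, ⟨⟨hpre⟩, hacy⟩, ?_⟩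
    ext e
    induction e using Sym2.ind with
    | _ x y => rfl

/-- the configuration of a set of edges -/
def cfg (G : SimpleGraph V) (T : Finset (Sym2 V)) : G.edgeSet → Bool :=
  fun e => decide ((e : Sym2 V) ∈ T)

lemma cfg_support {T : Finset (Sym2 V)} (hT : (T : Set (Sym2 V)) ⊆ G.edgeSet) :
    {e | ∃ he : e ∈ G.edgeSet, cfg G T ⟨e, he⟩ = true} = (T : Set (Sym2 V)) := by
  ext e
  simp only [cfg, decide_eq_true_eq, exists_prop, Set.mem_ofPred_eq, Finset.mem_coe]
  constructor
  · rintro ⟨_, h⟩; exact h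
  · intro h; exact ⟨hT (by exact_mod_cast h), h⟩

/-- the set of spanning-tree configurations is the finite image of `SF A` -/
theorem setOf_spanning_eq (H : G.Subgraph) (hc : H.Connected) (A : Finset (Sym2 V))
    (hA : (A : Set (Sym2 V)) = H.edgeSet) :
    {x : G.edgeSet → Bool | IsSpanningTree H {e | ∃ he : e ∈ G.edgeSet, x ⟨e, he⟩ = true}} =
      (((SF A).image (cfg G) : Finset (G.edgeSet → Bool)) : Set (G.edgeSet → Bool)) := by
  ext x
  simp only [Set.mem_ofPred_eq, Finset.coe_image, Set.mem_image, Finset.mem_coe]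
  constructor
  · intro hx
    have hsub : {e | ∃ he : e ∈ G.edgeSet, x ⟨e, he⟩ = true} ⊆ (A : Set (Sym2 V)) := by
      rw [hA]
      obtain ⟨T', hle, _, _, hT⟩ := hx
      rw [← hT]
      exact SimpleGraph.Subgraph.edgeSet_mono hle
    let T : Finset (Sym2 V) := A.filter (fun e => ∃ he : e ∈ G.edgeSet, x ⟨e, he⟩ = true)
    have hTc : (T : Set (Sym2 V)) = {e | ∃ he : e ∈ G.edgeSet, x ⟨e, he⟩ = true} := by
      ext e
      simp only [T, Finset.coe_filter, Set.mem_ofPred_eq]
      constructor
      · rintro ⟨_, h⟩; exact h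
      · intro h; exact ⟨by exact_mod_cast hsub h, h⟩
    refine ⟨T, ?_, ?_⟩
    · rw [← isSpanningTree_iff H hc A hA, hTc]
      exact hx
    · funext e
      have h1 : ((e : Sym2 V) ∈ T) ↔ x e = true := by
        have h2 : (e : Sym2 V) ∈ (T : Set (Sym2 V)) ↔
            ∃ he : (e : Sym2 V) ∈ G.edgeSet, x ⟨e, he⟩ = true := by rw [hTc]; rfl
        rw [Finset.mem_coe] at h2
        rw [h2]
        constructor
        · rintro ⟨_, h⟩; exact h
        · intro h; exact ⟨e.2, h⟩
      simp only [cfg, h1]
      cases x e <;> simp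
  · rintro ⟨T, hT, rfl⟩
    have hTA : T ⊆ A := by
      simp only [SF, Finset.mem_filter, Finset.mem_powerset] at hT
      exact hT.1
    have hTG : (T : Set (Sym2 V)) ⊆ G.edgeSet := by
      refine Subset.trans ?_ H.edgeSet_subset
      rw [← hA]
      exact_mod_cast hTA
    rw [cfg_support hTG, isSpanningTree_iff H hc A hA]
    exact hT

lemma exists_finset_edgeSet (H : G.Subgraph) (hf : H.verts.Finite) :
    ∃ A : Finset (Sym2 V), (A : Set (Sym2 V)) = H.edgeSet := by
  have h1 : H.edgeSet.Finite := by
    have h2 : ((fun p : V × V => s(p.1, p.2)) '' (H.verts ×ˢ H.verts)).Finite :=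
      (hf.prod hf).image _
    refine h2.subset ?_
    intro e
    induction e using Sym2.ind with
    | _ x y =>
      intro he
      have he' : H.Adj x y := he
      exact ⟨(x, y), ⟨H.edge_vert he', H.edge_vert he'.symm⟩, rfl⟩
  exact ⟨h1.toFinset, h1.coe_toFinset⟩

/-- a finite connected subgraph has a spanning tree -/
theorem exists_isSpanningTree (H : G.Subgraph) (hf : H.verts.Finite) (hc : H.Connected) :
    ∃ T : Set (Sym2 V), IsSpanningTree H T := by
  have : Finite H.verts := hf.to_subtype
  obtain ⟨T, hT, htree⟩ := hc.coe.exists_isTree_le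
  let T' : G.Subgraph :=
    { verts := H.verts
      Adj := fun x y => ∃ (hx : x ∈ H.verts) (hy : y ∈ H.verts), T.Adj ⟨x, hx⟩ ⟨y, hy⟩
      adj_sub := by
        rintro x y ⟨hx, hy, h⟩
        exact H.adj_sub (hT h)
      edge_vert := by
        rintro x y ⟨hx, hy, h⟩
        exact hx
      symm := ⟨by
        rintro x y ⟨hx, hy, h⟩
        exact ⟨hy, hx, h.symm⟩⟩ }
  refine ⟨T'.edgeSet, T', ⟨le_refl _, ?_⟩, rfl, ?_, rfl⟩
  · rintro x y ⟨hx, hy, h⟩
    exact hT h
  · have h1 : T'.coe = T := by
      ext ⟨x, hx⟩ ⟨y, hy⟩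
      constructor
      · rintro ⟨_, _, h⟩; exact h
      · intro h; exact ⟨hx, hy, h⟩
    rw [h1]
    exact htree

theorem SF_nonempty_of_subgraph (H : G.Subgraph) (hf : H.verts.Finite) (hc : H.Connected)
    (A : Finset (Sym2 V)) (hA : (A : Set (Sym2 V)) = H.edgeSet) : (SF A).Nonempty := by
  obtain ⟨T, hT⟩ := exists_isSpanningTree H hf hc
  have hTsub : T ⊆ (A : Set (Sym2 V)) := by
    rw [hA]
    obtain ⟨T', hle, _, _, hT⟩ := hT
    rw [← hT]
    exact SimpleGraph.Subgraph.edgeSet_mono hle
  have hTf : T.Finite := A.finite_toSet.subset hTsub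
  refine ⟨hTf.toFinset, ?_⟩
  rw [← isSpanningTree_iff H hc A hA, hTf.coe_toFinset]
  exact hT

end spanning

/-- the uniform spanning tree of a finite connected subgraph is a probability measure -/
theorem UST_prob {V : Type*} [Countable V] {G : SimpleGraph V} (H : G.Subgraph)
    (hf : H.verts.Finite) (hc : H.Connected) : IsProbabilityMeasure (UST H) := by
  classical
  obtain ⟨A, hA⟩ := exists_finset_edgeSet H hf
  unfold UST
  rw [setOf_spanning_eq H hc A hA]
  apply ProbabilityTheory.isProbabilityMeasure_uniformOn (Finset.finite_toSet _)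
  rw [Finset.coe_nonempty]
  exact (SF_nonempty_of_subgraph H hf hc A hA).image _

open Classical in
/-- cylinder probabilities of the uniform spanning tree -/
theorem UST_cylinder {V : Type*} [Countable V] {G : SimpleGraph V} (H : G.Subgraph)
    (hf : H.verts.Finite)
    (hc : H.Connected) (A : Finset (Sym2 V)) (hA : (A : Set (Sym2 V)) = H.edgeSet)
    (B : Finset G.edgeSet) (σ : G.edgeSet → Bool) :
    (UST H {x | ∀ e ∈ B, x e = σ e}).toReal =
      (((SF A).filter (fun T => ∀ e ∈ B, ((e : Sym2 V) ∈ T ↔ σ e = true))).card : ℝ) /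
        ((SF A).card : ℝ) := by
  have hinj : Set.InjOn (cfg G) (SF A : Set (Finset (Sym2 V))) := by
    intro T hT T' hT' hTT'
    have hTG : ∀ S ∈ SF A, (S : Set (Sym2 V)) ⊆ G.edgeSet := by
      intro S hS
      have hSA : S ⊆ A := by
        simp only [SF, Finset.mem_filter, Finset.mem_powerset] at hS
        exact hS.1
      refine Subset.trans ?_ H.edgeSet_subset
      rw [← hA]
      exact_mod_cast hSA
    have h1 := cfg_support (G := G) (hTG T (by exact_mod_cast hT))
    have h2 := cfg_support (G := G) (hTG T' (by exact_mod_cast hT'))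
    rw [hTT', h2] at h1
    exact_mod_cast h1.symm
  unfold UST
  rw [setOf_spanning_eq H hc A hA]
  rw [← ProbabilityTheory.uniformOn_inter_self (Finset.finite_toSet _)]
  have hset : (((SF A).image (cfg G) : Finset (G.edgeSet → Bool)) : Set (G.edgeSet → Bool)) ∩
      {x | ∀ e ∈ B, x e = σ e} =
      ((((SF A).filter (fun T => ∀ e ∈ B, ((e : Sym2 V) ∈ T ↔ σ e = true))).image (cfg G) :
        Finset (G.edgeSet → Bool)) : Set (G.edgeSet → Bool)) := by
    ext x
    simp only [Finset.coe_image, Set.mem_inter_iff, Set.mem_image, Finset.mem_coe,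
      Set.mem_ofPred_eq, Finset.mem_filter]
    constructor
    · rintro ⟨⟨T, hT, rfl⟩, h⟩
      refine ⟨T, ⟨hT, ?_⟩, rfl⟩
      intro e he
      have := h e he
      simp only [cfg] at this
      rw [← this]
      simp
    · rintro ⟨T, ⟨hT, h⟩, rfl⟩
      refine ⟨⟨T, hT, rfl⟩, ?_⟩
      intro e he
      have := h e he
      simp only [cfg]
      cases hσ : σ e with
      | true => rw [hσ] at this; simpa using this
      | false => rw [hσ] at this; simpa using this
  rw [hset]
  set F := (SF A).filter (fun T => ∀ e ∈ B, ((e : Sym2 V) ∈ T ↔ σ e = true)) with hF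
  have hFsub : F ⊆ SF A := by
    intro T hT
    simp only [F, Finset.mem_filter] at hT
    exact hT.1
  have hFimg : F.image (cfg G) ⊆ (SF A).image (cfg G) := Finset.image_subset_image hFsub
  rw [ProbabilityTheory.uniformOn_apply_finset]
  rw [ENNReal.toReal_div]
  have hFinj : Set.InjOn (cfg G) (F : Set (Finset (Sym2 V))) :=
    hinj.mono (by exact_mod_cast hFsub)
  rw [Finset.inter_eq_right.mpr hFimg, Finset.card_image_of_injOn hFinj,
    Finset.card_image_of_injOn hinj, ENNReal.toReal_natCast, ENNReal.toReal_natCast]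

end

end Vale.Agent.P143
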