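import Mathlib
import Vale.Agent.P143.Limit
import Vale.Agent.P143.USTFacts

/-! P143: the universal factor for all connected locally finite graphs. -/

namespace Vale.Agent.P143

open MeasureTheory Filter Topology Set

noncomputable section

open Classical

variable {V : Type*}

/-- restriction of the noise to the edges of `G` -/
def restr (G : SimpleGraph V) (x : NoiseSp V) :
    (G.edgeSet → unitInterval) × (G.edgeSet × ℕ → unitInterval) :=
  ((fun e => x.1 e), fun p => x.2 (p.1, p.2))

/-- extension by zero -/
def ext0 (G : SimpleGraph V)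
    (z : (G.edgeSet → unitInterval) × (G.edgeSet × ℕ → unitInterval)) : NoiseSp V :=
  ((fun f => if h : f ∈ G.edgeSet then z.1 ⟨f, h⟩ else 0),
    fun p => if h : p.1 ∈ G.edgeSet then z.2 (⟨p.1, h⟩, p.2) else 0)

lemma measurable_restr (G : SimpleGraph V) : Measurable (restr G) := by
  unfold restr
  apply Measurable.prodMk
  · rw [measurable_pi_iff]
    intro e
    exact (measurable_pi_apply _).comp measurable_fst
  · rw [measurable_pi_iff]
    intro p
    exact (measurable_pi_apply _).comp measurable_snd

lemma measurable_ext0 (G : SimpleGraph V) : Measurable (ext0 G) := by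
  unfold ext0
  apply Measurable.prodMk
  · rw [measurable_pi_iff]
    intro f
    split_ifs with h
    · exact (measurable_pi_apply _).comp measurable_fst
    · exact measurable_const
  · rw [measurable_pi_iff]
    intro p
    split_ifs with h
    · exact (measurable_pi_apply _).comp measurable_snd
    · exact measurable_const

/-- the law of the restricted noise -/
lemma restr_law (G : SimpleGraph V) :
    (noiseLaw V).map (restr G) =
      (iidUniform G.edgeSet).prod (iidUniform (G.edgeSet × ℕ)) := by
  have h1 : (iidUniform (Sym2 V)).map (fun t (e : G.edgeSet) => t e) = iidUniform G.edgeSet :=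
    Measure.map_infinitePi_infinitePi_of_inj
      (P := fun _ : Sym2 V => (volume : Measure unitInterval)) Subtype.val_injective
  have h2 : (iidUniform (Sym2 V × ℕ)).map (fun ξ (p : G.edgeSet × ℕ) => ξ (p.1, p.2)) =
      iidUniform (G.edgeSet × ℕ) :=
    Measure.map_infinitePi_infinitePi_of_inj
      (P := fun _ : Sym2 V × ℕ => (volume : Measure unitInterval))
      (f := fun p : G.edgeSet × ℕ => ((p.1 : Sym2 V), p.2)) (by
        intro p q hpq
        simp only [Prod.mk.injEq] at hpq
        exact Prod.ext (Subtype.ext hpq.1) hpq.2)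
  have m1 : Measurable (fun (t : Sym2 V → unitInterval) (e : G.edgeSet) => t e) := by fun_prop
  have m2 : Measurable (fun (ξ : Sym2 V × ℕ → unitInterval) (p : G.edgeSet × ℕ) =>
      ξ (p.1, p.2)) := by fun_prop
  have h3 := Measure.map_prod_map (iidUniform (Sym2 V)) (iidUniform (Sym2 V × ℕ)) m1 m2
  rw [h1, h2] at h3
  rw [h3]
  rfl

/-- the decoded configuration depends only on the noise of the edges of `G` -/
lemma obs_ext0 {Q : unitInterval → ℝ → ℝ} (hQ : IsChannel Q) (G : SimpleGraph V) (x : NoiseSp V)
    (k : ℕ) (e : G.edgeSet) :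
    obs Q (pinf G) (ext0 G (restr G x)).1 (ext0 G (restr G x)).2 k e =
      obs Q (pinf G) x.1 x.2 k e := by
  refine obs_local hQ (isField_pinf G) (isField_pinf G) G.edgeSet
    (fun h h' hh e _ => pinf_congr hh e) _ _ _ _ ?_ ?_ k e e.2
  · intro e he
    simp [ext0, restr, he]
  · intro e he k
    simp [ext0, restr, he]

/-- the universal factor, on all unordered pairs -/
theorem exists_universal (V : Type*) [Countable V] :
    ∃ Φ : SimpleGraph V → (V → unitInterval) → Sym2 V → Bool,
      (∀ e, Measurable (fun p : SimpleGraph V × (V → unitInterval) => Φ p.1 p.2 e)) ∧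
      (∀ (σ : Equiv.Perm V) (G : SimpleGraph V) (U : V → unitInterval) (e : Sym2 V),
        Φ (G.map σ.toEmbedding) (fun v => U (σ.symm v)) (Sym2.map σ e) = Φ G U e) ∧
      ∀ G : SimpleGraph V, G.Connected → (∀ v, (G.neighborSet v).Finite) →
        IsFUSF G ((iidUniform V).map (fun U (e : G.edgeSet) => Φ G U e)) := by
  obtain ⟨Q, hQ1, hQ2, hQ3, hQ4⟩ := exists_channel
  have hQ : IsChannel Q := ⟨hQ1, hQ2, hQ3, hQ4⟩
  obtain ⟨D, hDm, hD⟩ := exists_decoder
  obtain ⟨N, hNm, hNe, hNl⟩ := exists_edge_noise V
  refine ⟨fun G U e => D (fun k => obs Q (pinf G) (N G U).1 (N G U).2 k e), ?_, ?_, ?_⟩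
  · intro e
    refine hDm.comp ?_
    rw [measurable_pi_iff]
    intro k
    have h1 : Measurable (fun p : SimpleGraph V × (V → unitInterval) => (N p.1 p.2).1) :=
      measurable_fst.comp hNm
    have h2 : Measurable (fun p : SimpleGraph V × (V → unitInterval) => (N p.1 p.2).2) :=
      measurable_snd.comp hNm
    exact measurable_obs (Ω := SimpleGraph V × (V → unitInterval)) hQ
      (fun G => isField_pinf G) measurable_pinf (fun p => p.1) (fun p => (N p.1 p.2).1)
      (fun p => (N p.1 p.2).2) measurable_fst h1 h2 k e
  · intro σ G U e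
    have h1 : (N (G.map σ.toEmbedding) (fun v => U (σ.symm v))).1 =
        fun f => (N G U).1 ((symE σ).symm f) := by
      funext f
      obtain ⟨f, rfl⟩ := (symE σ).surjective f
      rw [Equiv.symm_apply_apply]
      exact (hNe σ G U f).1
    have h2 : (N (G.map σ.toEmbedding) (fun v => U (σ.symm v))).2 =
        fun p => (N G U).2 ((symE σ).symm p.1, p.2) := by
      funext p
      obtain ⟨f, k⟩ := p
      obtain ⟨f, rfl⟩ := (symE σ).surjective f
      simp only [Equiv.symm_apply_apply]
      exact (hNe σ G U f).2 k
    have h3 : ∀ k, obs Q (pinf (G.map σ.toEmbedding))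
        (N (G.map σ.toEmbedding) (fun v => U (σ.symm v))).1
        (N (G.map σ.toEmbedding) (fun v => U (σ.symm v))).2 k (symE σ e) =
        obs Q (pinf G) (N G U).1 (N G U).2 k e := by
      intro k
      rw [h1, h2]
      exact obs_equiv (Q := Q) (symE σ) (pinf_map σ G) (N G U).1 (N G U).2 k e
    exact congrArg D (funext fun k => h3 k)
  · intro G hG hfin
    -- measurability of the configuration
    have hNG : Measurable (fun U => N G U) := hNm.comp (measurable_const.prodMk measurable_id)
    have hW : Measurable (fun x : NoiseSp V => fun e : G.edgeSet =>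
        D (fun k => obs Q (pinf G) x.1 x.2 k e)) := by
      rw [measurable_pi_iff]
      intro e
      refine hDm.comp ?_
      rw [measurable_pi_iff]
      intro k
      exact measurable_obs_pinf hQ G k e
    -- the law of the configuration under the vertex noise and the edge noise agree
    have hlaw : (iidUniform V).map (fun U (e : G.edgeSet) =>
        D (fun k => obs Q (pinf G) (N G U).1 (N G U).2 k e)) =
        (noiseLaw V).map (fun x (e : G.edgeSet) => D (fun k => obs Q (pinf G) x.1 x.2 k e)) := by
      set W : NoiseSp V → G.edgeSet → Bool := fun x e =>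
        D (fun k => obs Q (pinf G) x.1 x.2 k e) with hWdef
      have e1 : (fun U (e : G.edgeSet) => D (fun k => obs Q (pinf G) (N G U).1 (N G U).2 k e)) =
          (W ∘ ext0 G) ∘ (fun U => restr G (N G U)) := by
        funext U e
        simp only [Function.comp, hWdef]
        exact congrArg D (funext fun k => (obs_ext0 hQ G (N G U) k e).symm)
      have e2 : W = (W ∘ ext0 G) ∘ restr G := by
        funext x e
        simp only [Function.comp, hWdef]
        exact congrArg D (funext fun k => (obs_ext0 hQ G x k e).symm)
      have e3 : (iidUniform V).map (fun U => restr G (N G U)) = (noiseLaw V).map (restr G) := by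
        rw [restr_law G]
        exact hNl G hfin
      calc (iidUniform V).map
            (fun U (e : G.edgeSet) => D (fun k => obs Q (pinf G) (N G U).1 (N G U).2 k e))
          = (iidUniform V).map ((W ∘ ext0 G) ∘ (fun U => restr G (N G U))) := by rw [e1]
        _ = ((iidUniform V).map (fun U => restr G (N G U))).map (W ∘ ext0 G) :=
          (Measure.map_map (hW.comp (measurable_ext0 G)) ((measurable_restr G).comp hNG)).symm
        _ = ((noiseLaw V).map (restr G)).map (W ∘ ext0 G) := by rw [e3]
        _ = (noiseLaw V).map ((W ∘ ext0 G) ∘ restr G) :=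
          Measure.map_map (hW.comp (measurable_ext0 G)) (measurable_restr G)
        _ = (noiseLaw V).map W := by rw [← e2]
    have hprob : IsProbabilityMeasure ((noiseLaw V).map (fun x (e : G.edgeSet) =>
        D (fun k => obs Q (pinf G) x.1 x.2 k e))) :=
      Measure.isProbabilityMeasure_map hW.aemeasurable
    show IsFUSF G ((iidUniform V).map (fun U (e : G.edgeSet) =>
        D (fun k => obs Q (pinf G) (N G U).1 (N G U).2 k e)))
    rw [hlaw]
    refine ⟨hprob, exists_exhaustion G hG, ?_⟩
    intro H hH
    have hUp : ∀ n, IsProbabilityMeasure (UST (H n)) := fun n =>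
      UST_prob (H n) (hH.finite n) (hH.connected n)
    apply weak_of_cylinder
    intro B σ
    -- the finite edge sets of the exhaustion
    choose A hA using fun n => exists_finset_edgeSet (H n) (hH.finite n)
    have hmono : Monotone A := by
      intro m n hmn
      have h1 := SimpleGraph.Subgraph.edgeSet_mono (hH.mono hmn)
      rw [← hA m, ← hA n] at h1
      exact_mod_cast h1
    have hunion : ∀ f, f ∈ G.edgeSet ↔ ∃ n, f ∈ A n := by
      intro f
      have h1 : (⨆ n, H n).edgeSet = ⋃ n, (H n).edgeSet := SimpleGraph.Subgraph.edgeSet_iSup H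
      rw [hH.union] at h1
      have h2 : (⊤ : G.Subgraph).edgeSet = G.edgeSet := SimpleGraph.Subgraph.edgeSet_top
      rw [h2] at h1
      rw [h1, mem_iUnion]
      refine exists_congr fun n => ?_
      rw [← hA n, Finset.mem_coe]
    set B' : Finset (Sym2 V) := B.map (Function.Embedding.subtype _) with hB'
    set S₀ : Finset (Sym2 V) := (B.filter (fun e => σ e = true)).map
      (Function.Embedding.subtype _) with hS₀
    have hS₀B : S₀ ⊆ B' := Finset.map_subset_map.2 (Finset.filter_subset _ _)
    have hmemB : ∀ e : G.edgeSet, (e : Sym2 V) ∈ B' ↔ e ∈ B := by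
      intro e
      simp [hB']
    have hmemS : ∀ e : G.edgeSet, (e : Sym2 V) ∈ S₀ ↔ (e ∈ B ∧ σ e = true) := by
      intro e
      simp [hS₀]
    have hB'G : (B' : Set (Sym2 V)) ⊆ G.edgeSet := by
      intro f hf
      rw [Finset.mem_coe, hB', Finset.mem_map] at hf
      obtain ⟨e, _, rfl⟩ := hf
      exact e.2
    have h1 := freq_tendsto hQ hmono hunion hDm hD B' hB'G S₀ hS₀B
    have h2 : ∀ n, ((UST (H n)) {x | ∀ e ∈ B, x e = σ e}).toReal = freq (A n) B' S₀ := by
      intro n
      rw [UST_cylinder (H n) (hH.finite n) (hH.connected n) (A n) (hA n) B σ]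
      unfold freq
      congr 2
      congr 1
      ext T
      simp only [Finset.mem_filter]
      refine and_congr_right fun _ => ?_
      constructor
      · intro h
        ext f
        rw [Finset.mem_inter]
        constructor
        · rintro ⟨hfT, hfB⟩
          have hfG := hB'G hfB
          have h3 := (hmemB ⟨f, hfG⟩).1 hfB
          exact (hmemS ⟨f, hfG⟩).2 ⟨h3, (h ⟨f, hfG⟩ h3).1 hfT⟩
        · intro hf
          have hfB := hS₀B hf
          have hfG := hB'G hfB
          have h3 := (hmemS ⟨f, hfG⟩).1 hf
          exact ⟨(h ⟨f, hfG⟩ h3.1).2 h3.2, hfB⟩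
      · intro h e he
        have h3 := (hmemB e).2 he
        constructor
        · intro heT
          have : (e : Sym2 V) ∈ S₀ := by
            rw [← h]
            exact Finset.mem_inter.2 ⟨heT, h3⟩
          exact ((hmemS e).1 this).2
        · intro hσ
          have : (e : Sym2 V) ∈ S₀ := (hmemS e).2 ⟨he, hσ⟩
          rw [← h] at this
          exact (Finset.mem_inter.1 this).1
    have h3 : ((noiseLaw V).map (fun x (e : G.edgeSet) =>
        D (fun k => obs Q (pinf G) x.1 x.2 k e))) {x | ∀ e ∈ B, x e = σ e} = (noiseLaw V)
        {x | ∀ e ∈ B', D (fun k => obs Q (pinf G) x.1 x.2 k e) = decide (e ∈ S₀)} := by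
      rw [Measure.map_apply hW]
      · congr 1
        ext x
        simp only [mem_preimage, mem_ofPred_eq]
        constructor
        · intro h f hf
          have hfG := hB'G hf
          have h4 := (hmemB ⟨f, hfG⟩).1 hf
          have h5 := h ⟨f, hfG⟩ h4
          rw [h5]
          have h6 := hmemS ⟨f, hfG⟩
          simp only at h6
          by_cases h7 : σ ⟨f, hfG⟩ = true
          · rw [h7, decide_eq_true (h6.2 ⟨h4, h7⟩)]
          · rw [decide_eq_false (fun hc => h7 (h6.1 hc).2)]
            exact Bool.eq_false_of_not_eq_true h7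
        · intro h e he
          rw [h e ((hmemB e).2 he)]
          by_cases h7 : σ e = true
          · rw [h7, decide_eq_true ((hmemS e).2 ⟨he, h7⟩)]
          · rw [decide_eq_false (fun hc => h7 ((hmemS e).1 hc).2)]
            exact (Bool.eq_false_of_not_eq_true h7).symm
      · have : {x : G.edgeSet → Bool | ∀ e ∈ B, x e = σ e} =
            ⋂ e ∈ B, (fun x : G.edgeSet → Bool => x e) ⁻¹' {σ e} := by
          ext x
          simp
        rw [this]
        exact Finset.measurableSet_biInter B fun e _ =>
          (measurable_pi_apply e) (MeasurableSet.singleton _)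
    rw [h3]
    simp only [h2]
    exact h1

end

end Vale.Agent.P143
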